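import Vale.Agent.Lib.P154.Defs

/-!
The pointwise inequalities (I) and (II) (vector form), as used by the framework.
-/

namespace Vale.Agent.Lib.P154

open Finset BigOperators

/-- `s(v) = ∑ v_i ^ (2 : ℕ)`. -/
noncomputable def sS (v : Fin 3 → ℝ) : ℝ := ∑ i, v i ^ (2 : ℕ)
/-- `c(v) = ∑ v_i ^ (3 : ℕ)`. -/
noncomputable def cC (v : Fin 3 → ℝ) : ℝ := ∑ i, v i ^ (3 : ℕ)
/-- message simplex: `v_i = 3 p_i - 1`. -/
def inT (v : Fin 3 → ℝ) : Prop := ∑ i, v i = 0 ∧ ∀ i, -1 ≤ v i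
/-- the normalising factor of a merge of `u` and `w`. -/
noncomputable def mM (u w : Fin 3 → ℝ) : ℝ := 1 + (∑ i, u i * w i) / 3
/-- the merged message. -/
noncomputable def vV (u w : Fin 3 → ℝ) (i : Fin 3) : ℝ := (1 + u i) * (1 + w i) / mM u w - 1
/-- the functional `X = c - A s^2 (1 - K s)`, `A = K = 3/64`. -/
noncomputable def xX (v : Fin 3 → ℝ) : ℝ :=
  cC v - (3 / 64) * sS v ^ (2 : ℕ) * (1 - (3 / 64) * sS v)
/-- `G(v) = ∏ (1 + v_i)`. -/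
noncomputable def gG (v : Fin 3 → ℝ) : ℝ := ∏ i, (1 + v i)
/-- `Λ(u) = (s - c) (6 - s) / 18`. -/
noncomputable def lL (u : Fin 3 → ℝ) : ℝ := (sS u - cC u) * (6 - sS u) / 18
/-- The scale `ε = 128 / 181`, slightly above `1 / √2`. -/
noncomputable def eps0 : ℝ := 128 / 181

/-- Inequality (I). -/
def IneqI : Prop := ∀ u v : Fin 3 → ℝ, inT u → inT v →
  (1 - (5 / 16) * eps0 ^ (2 : ℕ) * sS v) * xX u + eps0 ^ (3 : ℕ) * gG u * (1 - (5 / 32) * sS u) * xX v ≤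
    (1 / 6) * ∑ g : Equiv.Perm (Fin 3),
      mM u (fun i => eps0 * v (g i)) * xX (vV u (fun i => eps0 * v (g i)))

/-- Inequality (II). -/
def IneqII : Prop := ∀ u v : Fin 3 → ℝ, inT u → inT v →
  (1 / 6) * ∑ g : Equiv.Perm (Fin 3),
      mM u (fun i => eps0 * v (g i)) * sS (vV u (fun i => eps0 * v (g i))) ≤
    sS u + eps0 ^ (2 : ℕ) * sS v - (3 / 16) * (eps0 ^ (2 : ℕ) * sS v) * xX u
      - eps0 ^ (3 : ℕ) * lL u * xX v - (1 / 1024) * (eps0 ^ (2 : ℕ) * sS v) * sS u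

end Vale.Agent.Lib.P154
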