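import Mathlib
import Vale.Agent.Lib.P154.Pointwise

/-!
Algebra of one merge: the value of the functionals at the merged message.
-/

namespace Vale.Agent.Lib.P154

/-- The merged coordinates differ from `u` by a multiple of `1 + u`. -/
lemma merge_coord (u w m ib : ℝ) (hib : m * ib = 1) :
    (1 + u) * (1 + w) * ib - 1 = u + ib * ((1 + u) * (w - (m - 1))) := by
  linear_combination (1 + u) * hib

/-- Power sums of a merge. -/
lemma merge_vals (u0 u1 u2 w0 w1 w2 m ib : ℝ) (hu : u0 + u1 + u2 = 0) (hw : w0 + w1 + w2 = 0)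
    (hm : m = 1 + (u0 * w0 + u1 * w1 + u2 * w2) / 3) (hib : m * ib = 1) :
    ((1 + u0) * (1 + w0) * ib - 1) ^ (2 : ℕ) + ((1 + u1) * (1 + w1) * ib - 1) ^ (2 : ℕ) +
        ((1 + u2) * (1 + w2) * ib - 1) ^ (2 : ℕ) =
      (u0 ^ (2 : ℕ) + u1 ^ (2 : ℕ) + u2 ^ (2 : ℕ)) + ib * (2 * (u0 * (1 + u0) * (w0 - (m - 1)) +
        u1 * (1 + u1) * (w1 - (m - 1)) + u2 * (1 + u2) * (w2 - (m - 1))) +
        ib * ((1 + u0) ^ (2 : ℕ) * (w0 - (m - 1)) ^ (2 : ℕ) + (1 + u1) ^ (2 : ℕ) * (w1 - (m - 1)) ^ (2 : ℕ) +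
          (1 + u2) ^ (2 : ℕ) * (w2 - (m - 1)) ^ (2 : ℕ))) ∧
    ((1 + u0) * (1 + w0) * ib - 1) ^ (3 : ℕ) + ((1 + u1) * (1 + w1) * ib - 1) ^ (3 : ℕ) +
        ((1 + u2) * (1 + w2) * ib - 1) ^ (3 : ℕ) =
      3 * ((1 + u0) * (1 + u1) * (1 + u2)) * ((1 + w0) * (1 + w1) * (1 + w2)) * ib ^ (3 : ℕ) - 3 +
        (3 / 2) * (((1 + u0) * (1 + w0) * ib - 1) ^ (2 : ℕ) + ((1 + u1) * (1 + w1) * ib - 1) ^ (2 : ℕ) +
        ((1 + u2) * (1 + w2) * ib - 1) ^ (2 : ℕ)) := by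
  constructor
  · rw [merge_coord u0 w0 m ib hib, merge_coord u1 w1 m ib hib, merge_coord u2 w2 m ib hib]
    ring
  · -- the merged message has zero sum
    have hsum : ((1 + u0) * (1 + w0) * ib - 1) + ((1 + u1) * (1 + w1) * ib - 1) +
        ((1 + u2) * (1 + w2) * ib - 1) = 0 := by
      have e : (1 + u0) * (1 + w0) + (1 + u1) * (1 + w1) + (1 + u2) * (1 + w2) = 3 * m := by
        rw [hm]
        linear_combination hu + hw
      linear_combination ib * e + 3 * hib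
    set V0 := (1 + u0) * (1 + w0) * ib - 1 with hV0
    set V1 := (1 + u1) * (1 + w1) * ib - 1 with hV1
    set V2 := (1 + u2) * (1 + w2) * ib - 1 with hV2
    have hprod : (1 + V0) * (1 + V1) * (1 + V2) =
        ((1 + u0) * (1 + u1) * (1 + u2)) * ((1 + w0) * (1 + w1) * (1 + w2)) * ib ^ (3 : ℕ) := by
      rw [hV0, hV1, hV2]; ring
    have hV2' : V2 = -V0 - V1 := by linarith
    have key : V0 ^ (3 : ℕ) + V1 ^ (3 : ℕ) + V2 ^ (3 : ℕ) =
        3 * ((1 + V0) * (1 + V1) * (1 + V2)) - 3 + (3 / 2) * (V0 ^ (2 : ℕ) + V1 ^ (2 : ℕ) + V2 ^ (2 : ℕ)) := by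
      rw [hV2']; ring
    rw [key, hprod]
    ring

/-- The tangent line bound for the cube. -/
lemma cube_tangent {t s : ℝ} (ht : 0 ≤ t) (hs : 0 ≤ s) : s ^ (3 : ℕ) + 3 * s ^ (2 : ℕ) * (t - s) ≤ t ^ (3 : ℕ) := by
  nlinarith [mul_nonneg (sq_nonneg (t - s)) (add_nonneg ht (mul_nonneg (by norm_num : (0 : ℝ) ≤ 2) hs))]

/-- The value of `m X(V)` at a merge is bounded below by an expression free of the merged message.
`M = 2 L + ib Q`. -/
lemma merge_lower {c' s' s m ib M GG : ℝ} (hm : 0 < m) (hib : m * ib = 1) (hs : 0 ≤ s) (hs' : 0 ≤ s')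
    (h1 : s' = s + ib * M) (h2 : c' = 3 * GG * ib ^ (3 : ℕ) - 3 + (3 / 2) * s') :
    3 * GG * ib ^ (2 : ℕ) - 3 * m + (3 / 2) * (m * s + M) -
        (3 / 64) * (m * s ^ (2 : ℕ) + 2 * s * M + ib * M ^ (2 : ℕ)) +
        (3 / 64) * (3 / 64) * (m * s ^ (3 : ℕ) + 3 * s ^ (2 : ℕ) * M) ≤
      m * (c' - (3 / 64) * s' ^ (2 : ℕ) * (1 - (3 / 64) * s')) := by
  have ht := cube_tangent hs' hs
  have hib' : m * ib ^ (3 : ℕ) = ib ^ (2 : ℕ) := by
    calc m * ib ^ (3 : ℕ) = (m * ib) * ib ^ (2 : ℕ) := by ring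
      _ = ib ^ (2 : ℕ) := by rw [hib, one_mul]
  have e1 : m * c' = 3 * GG * ib ^ (2 : ℕ) - 3 * m + (3 / 2) * (m * s + M) := by
    rw [h2, h1]
    have : m * (ib * M) = M := by
      calc m * (ib * M) = (m * ib) * M := by ring
        _ = M := by rw [hib, one_mul]
    calc m * (3 * GG * ib ^ (3 : ℕ) - 3 + (3 / 2) * (s + ib * M))
        = 3 * GG * (m * ib ^ (3 : ℕ)) - 3 * m + (3 / 2) * (m * s + m * (ib * M)) := by ring
      _ = _ := by rw [hib', this]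
  have e2 : m * s' ^ (2 : ℕ) = m * s ^ (2 : ℕ) + 2 * s * M + ib * M ^ (2 : ℕ) := by
    rw [h1]
    have a1 : m * (ib * M) = M := by
      calc m * (ib * M) = (m * ib) * M := by ring
        _ = M := by rw [hib, one_mul]
    have a2 : m * (ib * M) ^ (2 : ℕ) = ib * M ^ (2 : ℕ) := by
      calc m * (ib * M) ^ (2 : ℕ) = (m * ib) * (ib * M ^ (2 : ℕ)) := by ring
        _ = ib * M ^ (2 : ℕ) := by rw [hib, one_mul]
    calc m * (s + ib * M) ^ (2 : ℕ) = m * s ^ (2 : ℕ) + 2 * s * (m * (ib * M)) + m * (ib * M) ^ (2 : ℕ) := by ring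
      _ = _ := by rw [a1, a2]
  have e3 : m * s ^ (3 : ℕ) + 3 * s ^ (2 : ℕ) * M ≤ m * s' ^ (3 : ℕ) := by
    have a1 : m * (s' - s) = M := by
      rw [h1]
      calc m * (s + ib * M - s) = (m * ib) * M := by ring
        _ = M := by rw [hib, one_mul]
    have := mul_le_mul_of_nonneg_left ht hm.le
    calc m * s ^ (3 : ℕ) + 3 * s ^ (2 : ℕ) * M = m * s ^ (3 : ℕ) + 3 * s ^ (2 : ℕ) * (m * (s' - s)) := by rw [a1]
      _ = m * (s ^ (3 : ℕ) + 3 * s ^ (2 : ℕ) * (s' - s)) := by ring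
      _ ≤ _ := this
  have e4 : m * (c' - (3 / 64) * s' ^ (2 : ℕ) * (1 - (3 / 64) * s')) =
      m * c' - (3 / 64) * (m * s' ^ (2 : ℕ)) + (3 / 64) * (3 / 64) * (m * s' ^ (3 : ℕ)) := by ring
  rw [e4, e1, e2]
  linarith

/-- The expansions of the inverse used in the averages. -/
lemma ib_exp (a ib : ℝ) (h : (1 + a) * ib = 1) :
    ib = 1 - a + a ^ (2 : ℕ) * ib ∧
    ib ^ (2 : ℕ) = 1 - 2 * a + a ^ (2 : ℕ) * (ib ^ (2 : ℕ) + 2 * ib) ∧
    ib ^ (2 : ℕ) = 1 - a * (ib ^ (2 : ℕ) + ib) ∧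
    ib ^ (3 : ℕ) = 1 - 3 * a + a ^ (2 : ℕ) * (ib ^ (3 : ℕ) + 2 * ib ^ (2 : ℕ) + 3 * ib) := by
  have h0 : 1 + a ≠ 0 := by
    intro h0
    rw [h0, zero_mul] at h
    exact zero_ne_one h
  have e : ib = (1 + a)⁻¹ := by
    field_simp
    linarith
  rw [e]
  refine ⟨?_, ?_, ?_, ?_⟩ <;> (field_simp; ring)

/-- Sum over the six permutations of `Fin 3`, in the order used by the programs. -/
def gP : Fin 6 → Equiv.Perm (Fin 3)
  | 0 => ⟨![0, 1, 2], ![0, 1, 2], by decide, by decide⟩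
  | 1 => ⟨![0, 2, 1], ![0, 2, 1], by decide, by decide⟩
  | 2 => ⟨![1, 0, 2], ![1, 0, 2], by decide, by decide⟩
  | 3 => ⟨![1, 2, 0], ![2, 0, 1], by decide, by decide⟩
  | 4 => ⟨![2, 0, 1], ![1, 2, 0], by decide, by decide⟩
  | 5 => ⟨![2, 1, 0], ![2, 1, 0], by decide, by decide⟩

lemma sum_perm3 (f : Equiv.Perm (Fin 3) → ℝ) :
    ∑ g, f g = f (gP 0) + f (gP 1) + f (gP 2) + f (gP 3) + f (gP 4) + f (gP 5) := by
  have h : (Finset.univ : Finset (Equiv.Perm (Fin 3))) =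
      {gP 0, gP 1, gP 2, gP 3, gP 4, gP 5} := by decide
  rw [h]
  rw [Finset.sum_insert (by decide), Finset.sum_insert (by decide), Finset.sum_insert (by decide),
    Finset.sum_insert (by decide), Finset.sum_insert (by decide), Finset.sum_singleton]
  ring

end Vale.Agent.Lib.P154
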