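import Mathlib
import Vale.Agent.Lib.P154.ChartAlg

/-!
The abstract algebra of the averaged bounds.
-/

namespace Vale.Agent.Lib.P154

/-- The averaged inverses, from the expansions of `ib_exp`. -/
lemma avg_ib (a al0 al1 al2 al3 al4 al5 ib0 ib1 ib2 ib3 ib4 ib5 Q0 Q1 Q2 Q3 Q4 Q5 L0 L1 L2 L3 L4 L5 Qs aQ LQ QQ aQQ : ℝ)
    (h0 : (1 + a * al0) * ib0 = 1)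
    (h1 : (1 + a * al1) * ib1 = 1)
    (h2 : (1 + a * al2) * ib2 = 1)
    (h3 : (1 + a * al3) * ib3 = 1)
    (h4 : (1 + a * al4) * ib4 = 1)
    (h5 : (1 + a * al5) * ib5 = 1)
    (hal : al0 + al1 + al2 + al3 + al4 + al5 = 0)
    (hQ : Q0 + Q1 + Q2 + Q3 + Q4 + Q5 = Qs)
    (haQ : al0 * Q0 + al1 * Q1 + al2 * Q2 + al3 * Q3 + al4 * Q4 + al5 * Q5 = aQ)
    (hLQ : L0 * Q0 + L1 * Q1 + L2 * Q2 + L3 * Q3 + L4 * Q4 + L5 * Q5 = LQ)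
    (hQQ : Q0 ^ (2 : ℕ) + Q1 ^ (2 : ℕ) + Q2 ^ (2 : ℕ) + Q3 ^ (2 : ℕ) + Q4 ^ (2 : ℕ) + Q5 ^ (2 : ℕ) = QQ)
    (haQQ : al0 * Q0 ^ (2 : ℕ) + al1 * Q1 ^ (2 : ℕ) + al2 * Q2 ^ (2 : ℕ) + al3 * Q3 ^ (2 : ℕ) + al4 * Q4 ^ (2 : ℕ) + al5 * Q5 ^ (2 : ℕ) = aQQ) :
    (ib0 ^ (2 : ℕ) + ib1 ^ (2 : ℕ) + ib2 ^ (2 : ℕ) + ib3 ^ (2 : ℕ) + ib4 ^ (2 : ℕ) + ib5 ^ (2 : ℕ) = 6 + a ^ (2 : ℕ) * (al0 ^ (2 : ℕ) * (ib0 ^ (2 : ℕ) + 2 * ib0) + al1 ^ (2 : ℕ) * (ib1 ^ (2 : ℕ) + 2 * ib1) + al2 ^ (2 : ℕ) * (ib2 ^ (2 : ℕ) + 2 * ib2) + al3 ^ (2 : ℕ) * (ib3 ^ (2 : ℕ) + 2 * ib3) + al4 ^ (2 : ℕ) * (ib4 ^ (2 : ℕ) + 2 * ib4) + al5 ^ (2 : ℕ) * (ib5 ^ (2 : ℕ) + 2 * ib5))) ∧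
    (ib0 * Q0 + ib1 * Q1 + ib2 * Q2 + ib3 * Q3 + ib4 * Q4 + ib5 * Q5 = Qs - a * aQ + a ^ (2 : ℕ) * (al0 ^ (2 : ℕ) * Q0 * ib0 + al1 ^ (2 : ℕ) * Q1 * ib1 + al2 ^ (2 : ℕ) * Q2 * ib2 + al3 ^ (2 : ℕ) * Q3 * ib3 + al4 ^ (2 : ℕ) * Q4 * ib4 + al5 ^ (2 : ℕ) * Q5 * ib5)) ∧
    (ib0 ^ (2 : ℕ) * (L0 * Q0) + ib1 ^ (2 : ℕ) * (L1 * Q1) + ib2 ^ (2 : ℕ) * (L2 * Q2) + ib3 ^ (2 : ℕ) * (L3 * Q3) + ib4 ^ (2 : ℕ) * (L4 * Q4) + ib5 ^ (2 : ℕ) * (L5 * Q5) = LQ - a * (al0 * L0 * (Q0 * (ib0 ^ (2 : ℕ) + ib0)) + al1 * L1 * (Q1 * (ib1 ^ (2 : ℕ) + ib1)) + al2 * L2 * (Q2 * (ib2 ^ (2 : ℕ) + ib2)) + al3 * L3 * (Q3 * (ib3 ^ (2 : ℕ) + ib3)) + al4 * L4 * (Q4 * (ib4 ^ (2 : ℕ) + ib4)) + al5 * L5 * (Q5 * (ib5 ^ (2 : ℕ) + ib5)))) ∧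
    (ib0 ^ (3 : ℕ) * Q0 ^ (2 : ℕ) + ib1 ^ (3 : ℕ) * Q1 ^ (2 : ℕ) + ib2 ^ (3 : ℕ) * Q2 ^ (2 : ℕ) + ib3 ^ (3 : ℕ) * Q3 ^ (2 : ℕ) + ib4 ^ (3 : ℕ) * Q4 ^ (2 : ℕ) + ib5 ^ (3 : ℕ) * Q5 ^ (2 : ℕ) = QQ - 3 * a * aQQ + a ^ (2 : ℕ) * (al0 ^ (2 : ℕ) * Q0 * Q0 * (ib0 ^ (3 : ℕ) + 2 * ib0 ^ (2 : ℕ) + 3 * ib0) + al1 ^ (2 : ℕ) * Q1 * Q1 * (ib1 ^ (3 : ℕ) + 2 * ib1 ^ (2 : ℕ) + 3 * ib1) + al2 ^ (2 : ℕ) * Q2 * Q2 * (ib2 ^ (3 : ℕ) + 2 * ib2 ^ (2 : ℕ) + 3 * ib2) + al3 ^ (2 : ℕ) * Q3 * Q3 * (ib3 ^ (3 : ℕ) + 2 * ib3 ^ (2 : ℕ) + 3 * ib3) + al4 ^ (2 : ℕ) * Q4 * Q4 * (ib4 ^ (3 : ℕ) + 2 * ib4 ^ (2 : ℕ) + 3 * ib4) + al5 ^ (2 : ℕ) * Q5 * Q5 * (ib5 ^ (3 : ℕ) + 2 * ib5 ^ (2 : ℕ) + 3 * ib5))) := by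
  obtain ⟨e0a, e0b, e0c, e0d⟩ := ib_exp (a * al0) ib0 h0
  obtain ⟨e1a, e1b, e1c, e1d⟩ := ib_exp (a * al1) ib1 h1
  obtain ⟨e2a, e2b, e2c, e2d⟩ := ib_exp (a * al2) ib2 h2
  obtain ⟨e3a, e3b, e3c, e3d⟩ := ib_exp (a * al3) ib3 h3
  obtain ⟨e4a, e4b, e4c, e4d⟩ := ib_exp (a * al4) ib4 h4
  obtain ⟨e5a, e5b, e5c, e5d⟩ := ib_exp (a * al5) ib5 h5
  subst hQ haQ hLQ hQQ haQQ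
  refine ⟨?_, ?_, ?_, ?_⟩
  · linear_combination e0b + e1b + e2b + e3b + e4b + e5b - 2 * a * hal
  · linear_combination Q0 * e0a + Q1 * e1a + Q2 * e2a + Q3 * e3a + Q4 * e4a + Q5 * e5a
  · linear_combination (L0 * Q0) * e0c + (L1 * Q1) * e1c + (L2 * Q2) * e2c + (L3 * Q3) * e3c + (L4 * Q4) * e4c + (L5 * Q5) * e5c
  · linear_combination (Q0 ^ (2 : ℕ)) * e0d + (Q1 ^ (2 : ℕ)) * e1d + (Q2 ^ (2 : ℕ)) * e2d + (Q3 ^ (2 : ℕ)) * e3d + (Q4 ^ (2 : ℕ)) * e4d + (Q5 ^ (2 : ℕ)) * e5d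

/-- The termwise lower bound for the value of `m X(V)`. -/
noncomputable def Tval (GG m ib M s : ℝ) : ℝ :=
  3 * GG * ib ^ (2 : ℕ) - 3 * m + (3 / 2) * (m * s + M) - (3 / 64) * (m * s ^ (2 : ℕ) + 2 * s * M + ib * M ^ (2 : ℕ)) +
    (3 / 64) * (3 / 64) * (m * s ^ (3 : ℕ) + 3 * s ^ (2 : ℕ) * M)

/-- The sum of the termwise lower bounds. -/
lemma sum_T (a r s GG al0 al1 al2 al3 al4 al5 ib0 ib1 ib2 ib3 ib4 ib5 Q0 Q1 Q2 Q3 Q4 Q5 L0 L1 L2 L3 L4 L5 : ℝ)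
    (hal : al0 + al1 + al2 + al3 + al4 + al5 = 0) (hL : L0 + L1 + L2 + L3 + L4 + L5 = 0) :
    Tval GG (1 + a * al0) ib0 (2 * (a * L0) + ib0 * (r ^ (2 : ℕ) * Q0)) s + Tval GG (1 + a * al1) ib1 (2 * (a * L1) + ib1 * (r ^ (2 : ℕ) * Q1)) s + Tval GG (1 + a * al2) ib2 (2 * (a * L2) + ib2 * (r ^ (2 : ℕ) * Q2)) s + Tval GG (1 + a * al3) ib3 (2 * (a * L3) + ib3 * (r ^ (2 : ℕ) * Q3)) s + Tval GG (1 + a * al4) ib4 (2 * (a * L4) + ib4 * (r ^ (2 : ℕ) * Q4)) s + Tval GG (1 + a * al5) ib5 (2 * (a * L5) + ib5 * (r ^ (2 : ℕ) * Q5)) s =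
    3 * GG * (ib0 ^ (2 : ℕ) + ib1 ^ (2 : ℕ) + ib2 ^ (2 : ℕ) + ib3 ^ (2 : ℕ) + ib4 ^ (2 : ℕ) + ib5 ^ (2 : ℕ)) - 18 + (3 / 2) * (6 * s + r ^ (2 : ℕ) * (ib0 * Q0 + ib1 * Q1 + ib2 * Q2 + ib3 * Q3 + ib4 * Q4 + ib5 * Q5)) -
      (3 / 64) * (6 * s ^ (2 : ℕ) + 2 * s * (r ^ (2 : ℕ) * (ib0 * Q0 + ib1 * Q1 + ib2 * Q2 + ib3 * Q3 + ib4 * Q4 + ib5 * Q5)) +
        (4 * a ^ (2 : ℕ) * (ib0 * L0 ^ (2 : ℕ) + ib1 * L1 ^ (2 : ℕ) + ib2 * L2 ^ (2 : ℕ) + ib3 * L3 ^ (2 : ℕ) + ib4 * L4 ^ (2 : ℕ) + ib5 * L5 ^ (2 : ℕ)) + 4 * a * r ^ (2 : ℕ) * (ib0 ^ (2 : ℕ) * (L0 * Q0) + ib1 ^ (2 : ℕ) * (L1 * Q1) + ib2 ^ (2 : ℕ) * (L2 * Q2) + ib3 ^ (2 : ℕ) * (L3 * Q3) + ib4 ^ (2 : ℕ) * (L4 * Q4) + ib5 ^ (2 : ℕ) * (L5 * Q5)) +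
          r ^ (4 : ℕ) * (ib0 ^ (3 : ℕ) * Q0 ^ (2 : ℕ) + ib1 ^ (3 : ℕ) * Q1 ^ (2 : ℕ) + ib2 ^ (3 : ℕ) * Q2 ^ (2 : ℕ) + ib3 ^ (3 : ℕ) * Q3 ^ (2 : ℕ) + ib4 ^ (3 : ℕ) * Q4 ^ (2 : ℕ) + ib5 ^ (3 : ℕ) * Q5 ^ (2 : ℕ)))) +
      (3 / 64) * (3 / 64) * (6 * s ^ (3 : ℕ) + 3 * s ^ (2 : ℕ) * (r ^ (2 : ℕ) * (ib0 * Q0 + ib1 * Q1 + ib2 * Q2 + ib3 * Q3 + ib4 * Q4 + ib5 * Q5))) := by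
  have e1 : al5 = -(al0 + al1 + al2 + al3 + al4) := by linarith
  have e2 : L5 = -(L0 + L1 + L2 + L3 + L4) := by linarith
  subst e1 e2
  unfold Tval
  ring

/-- The final identity for the first functional. -/
lemma final_id_I (p S τ sig rg3 Hr Lam1 h31 h61 h71 B1 B2 B4 B5 B6 fS r2 r4 : ℝ) :
    (3 * ((1 - p * sig / 2 + p * rg3) * (1 - S / 2 + S * τ / 3)) * (1 + S * p * B2) - 3 +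
        (3 / 2) * (p * sig + S * (1 + p * (Hr - τ * Lam1 + r2 * B1))) -
        (3 / 64) * ((p * sig) ^ (2 : ℕ) + 2 * (p * sig) * (S * (1 + p * (Hr - τ * Lam1 + r2 * B1))) +
          (4 * S * p * B6 + 4 * S * p * (τ * h31 - r2 * B4) + S ^ (2 : ℕ) +
            S * p * (S * h61 - 3 * S * τ * h71 + r4 * B5))) +
        (3 / 64) * (3 / 64) * ((p * sig) ^ (3 : ℕ) + 3 * (p * sig) ^ (2 : ℕ) * (S * (1 + p * (Hr - τ * Lam1 + r2 * B1))))) -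
      ((1 - (5 / 16) * S) * (3 * (p * rg3) - (3 / 64) * (p * sig) ^ (2 : ℕ) * (1 - (3 / 64) * (p * sig))) +
        (1 - p * sig / 2 + p * rg3) * (1 - (5 / 32) * (p * sig)) * (S * τ - S * fS)) =
    S * (fS - (3 / 64) * S + p * ((3 / 2) * ((Hr - τ * Lam1 + r2 * B1) + sig / 2 - rg3) -
      (3 / 64) * (sig * (2 - (9 / 64) * (p * sig)) * (1 + p * (Hr - τ * Lam1 + r2 * B1))) +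
      3 * ((1 - p * sig / 2 + p * rg3) * (1 - S / 2 + S * τ / 3) * B2) + (rg3 - sig / 2) * fS +
      (5 / 32) * ((1 - p * sig / 2 + p * rg3) * sig * (τ - fS)) +
      (5 / 16) * (3 * rg3 - (3 / 64) * (sig * (p * sig) * (1 - (3 / 64) * (p * sig)))) -
      (3 / 64) * (4 * B6 + 4 * (τ * h31) - 4 * (r2 * B4) + S * h61 - 3 * (S * τ) * h71 + r4 * B5))) := by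
  ring

/-- The assembled average, as a function of the named quantities. -/
lemma avg_value (r ρ σ' τ s GG B1 B2 B4 B5 B6 Hr Lam1 h31 h61 h71 X2 X3 X4 X5 X6 SK0 SK1 SK2 SK3 SK4
      Qs aQ LQ QQ aQQ : ℝ)
    (hX2 : X2 = 6 + (r * ρ) ^ (2 : ℕ) * SK1)
    (hX3 : X3 = Qs - (r * ρ) * aQ + (r * ρ) ^ (2 : ℕ) * SK0)
    (hX4 : X4 = SK2)
    (hX5 : X5 = LQ - (r * ρ) * SK3)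
    (hX6 : X6 = QQ - 3 * (r * ρ) * aQQ + (r * ρ) ^ (2 : ℕ) * SK4)
    (h0 : SK0 = 6 * σ' * B1) (h1 : SK1 = 6 * σ' * B2) (h2 : SK2 = 6 * σ' * B6)
    (h3 : SK3 = 6 * σ' * B4) (h4 : SK4 = 6 * σ' * B5)
    (hQs : Qs = 6 * σ' * (1 + ρ ^ (2 : ℕ) * Hr))
    (haQ : r * aQ = 6 * ρ * (τ * σ') * Lam1)
    (hLQ : r * LQ = 6 * ρ * (τ * σ') * h31)
    (hQQ : QQ = 6 * σ' ^ (2 : ℕ) * (1 + ρ ^ (2 : ℕ) * h61))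
    (haQQ : r * aQQ = 6 * ρ * σ' * (τ * σ') * h71) :
    let S := r ^ (2 : ℕ) * σ'
    let N := S * (1 + ρ ^ (2 : ℕ) * (Hr - τ * Lam1 + r ^ (2 : ℕ) * B1))
    (1 / 6) * (3 * GG * X2 - 18 + (3 / 2) * (6 * s + r ^ (2 : ℕ) * X3) -
      (3 / 64) * (6 * s ^ (2 : ℕ) + 2 * s * (r ^ (2 : ℕ) * X3) +
        (4 * (r * ρ) ^ (2 : ℕ) * X4 + 4 * (r * ρ) * r ^ (2 : ℕ) * X5 + r ^ (4 : ℕ) * X6)) +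
      (3 / 64) * (3 / 64) * (6 * s ^ (3 : ℕ) + 3 * s ^ (2 : ℕ) * (r ^ (2 : ℕ) * X3))) =
    3 * GG * (1 + S * ρ ^ (2 : ℕ) * B2) - 3 + (3 / 2) * (s + N) -
      (3 / 64) * (s ^ (2 : ℕ) + 2 * s * N +
        (4 * S * ρ ^ (2 : ℕ) * B6 + 4 * S * ρ ^ (2 : ℕ) * (τ * h31 - r ^ (2 : ℕ) * B4) + S ^ (2 : ℕ) +
          S * ρ ^ (2 : ℕ) * (S * h61 - 3 * S * τ * h71 + (r ^ (2 : ℕ)) ^ (2 : ℕ) * B5))) +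
      (3 / 64) * (3 / 64) * (s ^ (3 : ℕ) + 3 * s ^ (2 : ℕ) * N) := by
  intro S N
  have hN : r ^ (2 : ℕ) * X3 = 6 * N := by
    simp only [N, S]
    rw [hX3, hQs, h0]
    linear_combination (-(r ^ (2 : ℕ) * ρ)) * haQ
  have hW : 4 * (r * ρ) ^ (2 : ℕ) * X4 + 4 * (r * ρ) * r ^ (2 : ℕ) * X5 + r ^ (4 : ℕ) * X6 =
      6 * (4 * S * ρ ^ (2 : ℕ) * B6 + 4 * S * ρ ^ (2 : ℕ) * (τ * h31 - r ^ (2 : ℕ) * B4) + S ^ (2 : ℕ) +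
          S * ρ ^ (2 : ℕ) * (S * h61 - 3 * S * τ * h71 + (r ^ (2 : ℕ)) ^ (2 : ℕ) * B5)) := by
    simp only [S]
    rw [hX4, hX5, hX6, hQQ, h2, h3, h4]
    linear_combination (4 * r ^ (2 : ℕ) * ρ) * hLQ + (-(3 * r ^ (4 : ℕ) * ρ)) * haQQ
  have hX2' : X2 = 6 * (1 + S * ρ ^ (2 : ℕ) * B2) := by
    simp only [S]
    rw [hX2, h1]
    ring
  rw [hX2', hN, hW]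
  ring

/-- The expression for `F1`. -/
noncomputable def Fform (p S τ sig rg3 Hr Lam1 h31 h61 h71 B1 B2 B4 B5 B6 fS r2 r4 : ℝ) : ℝ :=
  (3 / 2) * ((Hr - τ * Lam1 + r2 * B1) + sig / 2 - rg3) -
      (3 / 64) * (sig * (2 - (9 / 64) * (p * sig)) * (1 + p * (Hr - τ * Lam1 + r2 * B1))) +
      3 * ((1 - p * sig / 2 + p * rg3) * (1 - S / 2 + S * τ / 3) * B2) + (rg3 - sig / 2) * fS +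
      (5 / 32) * ((1 - p * sig / 2 + p * rg3) * sig * (τ - fS)) +
      (5 / 16) * (3 * rg3 - (3 / 64) * (sig * (p * sig) * (1 - (3 / 64) * (p * sig)))) -
      (3 / 64) * (4 * B6 + 4 * (τ * h31) - 4 * (r2 * B4) + S * h61 - 3 * (S * τ) * h71 + r4 * B5)

/-- The algebraic core of inequality (I). -/
theorem abstract_I (r ρ τ fS σ sig rg3 Hr Lam1 h31 h61 h71 γ' B1 B2 B4 B5 B6 al0 al1 al2 al3 al4 al5 ib0 ib1 ib2 ib3 ib4 ib5 Q0 Q1 Q2 Q3 Q4 Q5 L0 L1 L2 L3 L4 L5 R0 R1 R2 R3 R4 R5 : ℝ)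
    (hi0 : (1 + (r * ρ) * al0) * ib0 = 1)
    (hi1 : (1 + (r * ρ) * al1) * ib1 = 1)
    (hi2 : (1 + (r * ρ) * al2) * ib2 = 1)
    (hi3 : (1 + (r * ρ) * al3) * ib3 = 1)
    (hi4 : (1 + (r * ρ) * al4) * ib4 = 1)
    (hi5 : (1 + (r * ρ) * al5) * ib5 = 1)
    (hsal : al0 + al1 + al2 + al3 + al4 + al5 = 0) (hsL : L0 + L1 + L2 + L3 + L4 + L5 = 0)
    (hsQ : Q0 + Q1 + Q2 + Q3 + Q4 + Q5 = 6 * σ * (1 + ρ ^ (2 : ℕ) * Hr))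
    (hsaQ : al0 * Q0 + al1 * Q1 + al2 * Q2 + al3 * Q3 + al4 * Q4 + al5 * Q5 = 6 * ρ * γ' * Lam1)
    (hsLQ : L0 * Q0 + L1 * Q1 + L2 * Q2 + L3 * Q3 + L4 * Q4 + L5 * Q5 = 6 * ρ * γ' * h31)
    (hsQQ : Q0 ^ (2 : ℕ) + Q1 ^ (2 : ℕ) + Q2 ^ (2 : ℕ) + Q3 ^ (2 : ℕ) + Q4 ^ (2 : ℕ) + Q5 ^ (2 : ℕ) = 6 * σ ^ (2 : ℕ) * (1 + ρ ^ (2 : ℕ) * h61))
    (hsaQQ : al0 * Q0 ^ (2 : ℕ) + al1 * Q1 ^ (2 : ℕ) + al2 * Q2 ^ (2 : ℕ) + al3 * Q3 ^ (2 : ℕ) + al4 * Q4 ^ (2 : ℕ) + al5 * Q5 ^ (2 : ℕ) = 6 * ρ * σ * γ' * h71)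
    (hτσ : r * γ' = τ * σ)
    (hB1 : al0 ^ (2 : ℕ) * Q0 * ib0 + al1 ^ (2 : ℕ) * Q1 * ib1 + al2 ^ (2 : ℕ) * Q2 * ib2 + al3 ^ (2 : ℕ) * Q3 * ib3 + al4 ^ (2 : ℕ) * Q4 * ib4 + al5 ^ (2 : ℕ) * Q5 * ib5 = 6 * σ * B1)
    (hB2 : al0 ^ (2 : ℕ) * (ib0 ^ (2 : ℕ) + 2 * ib0) + al1 ^ (2 : ℕ) * (ib1 ^ (2 : ℕ) + 2 * ib1) + al2 ^ (2 : ℕ) * (ib2 ^ (2 : ℕ) + 2 * ib2) + al3 ^ (2 : ℕ) * (ib3 ^ (2 : ℕ) + 2 * ib3) + al4 ^ (2 : ℕ) * (ib4 ^ (2 : ℕ) + 2 * ib4) + al5 ^ (2 : ℕ) * (ib5 ^ (2 : ℕ) + 2 * ib5) = 6 * σ * B2)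
    (hB6 : ib0 * L0 ^ (2 : ℕ) + ib1 * L1 ^ (2 : ℕ) + ib2 * L2 ^ (2 : ℕ) + ib3 * L3 ^ (2 : ℕ) + ib4 * L4 ^ (2 : ℕ) + ib5 * L5 ^ (2 : ℕ) = 6 * σ * B6)
    (hB4 : al0 * L0 * (Q0 * (ib0 ^ (2 : ℕ) + ib0)) + al1 * L1 * (Q1 * (ib1 ^ (2 : ℕ) + ib1)) + al2 * L2 * (Q2 * (ib2 ^ (2 : ℕ) + ib2)) + al3 * L3 * (Q3 * (ib3 ^ (2 : ℕ) + ib3)) + al4 * L4 * (Q4 * (ib4 ^ (2 : ℕ) + ib4)) + al5 * L5 * (Q5 * (ib5 ^ (2 : ℕ) + ib5)) = 6 * σ * B4)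
    (hB5 : al0 ^ (2 : ℕ) * Q0 * Q0 * (ib0 ^ (3 : ℕ) + 2 * ib0 ^ (2 : ℕ) + 3 * ib0) + al1 ^ (2 : ℕ) * Q1 * Q1 * (ib1 ^ (3 : ℕ) + 2 * ib1 ^ (2 : ℕ) + 3 * ib1) + al2 ^ (2 : ℕ) * Q2 * Q2 * (ib2 ^ (3 : ℕ) + 2 * ib2 ^ (2 : ℕ) + 3 * ib2) + al3 ^ (2 : ℕ) * Q3 * Q3 * (ib3 ^ (3 : ℕ) + 2 * ib3 ^ (2 : ℕ) + 3 * ib3) + al4 ^ (2 : ℕ) * Q4 * Q4 * (ib4 ^ (3 : ℕ) + 2 * ib4 ^ (2 : ℕ) + 3 * ib4) + al5 ^ (2 : ℕ) * Q5 * Q5 * (ib5 ^ (3 : ℕ) + 2 * ib5 ^ (2 : ℕ) + 3 * ib5) = 6 * σ * B5)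
    (hS0 : 0 ≤ r ^ (2 : ℕ) * σ) (hF0 : 0 ≤ fS - (3 / 64) * (r ^ (2 : ℕ) * σ))
    (hF : 0 ≤ Fform (ρ ^ (2 : ℕ)) (r ^ (2 : ℕ) * σ) τ sig rg3 Hr Lam1 h31 h61 h71 B1 B2 B4 B5 B6 fS (r ^ (2 : ℕ)) ((r ^ (2 : ℕ)) ^ (2 : ℕ)))
    (hT0 : Tval ((1 - ρ ^ (2 : ℕ) * sig / 2 + ρ ^ (2 : ℕ) * rg3) * (1 - r ^ (2 : ℕ) * σ / 2 + r ^ (2 : ℕ) * σ * τ / 3)) (1 + (r * ρ) * al0) ib0 (2 * ((r * ρ) * L0) + ib0 * (r ^ (2 : ℕ) * Q0)) (ρ ^ (2 : ℕ) * sig) ≤ R0)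
    (hT1 : Tval ((1 - ρ ^ (2 : ℕ) * sig / 2 + ρ ^ (2 : ℕ) * rg3) * (1 - r ^ (2 : ℕ) * σ / 2 + r ^ (2 : ℕ) * σ * τ / 3)) (1 + (r * ρ) * al1) ib1 (2 * ((r * ρ) * L1) + ib1 * (r ^ (2 : ℕ) * Q1)) (ρ ^ (2 : ℕ) * sig) ≤ R1)
    (hT2 : Tval ((1 - ρ ^ (2 : ℕ) * sig / 2 + ρ ^ (2 : ℕ) * rg3) * (1 - r ^ (2 : ℕ) * σ / 2 + r ^ (2 : ℕ) * σ * τ / 3)) (1 + (r * ρ) * al2) ib2 (2 * ((r * ρ) * L2) + ib2 * (r ^ (2 : ℕ) * Q2)) (ρ ^ (2 : ℕ) * sig) ≤ R2)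
    (hT3 : Tval ((1 - ρ ^ (2 : ℕ) * sig / 2 + ρ ^ (2 : ℕ) * rg3) * (1 - r ^ (2 : ℕ) * σ / 2 + r ^ (2 : ℕ) * σ * τ / 3)) (1 + (r * ρ) * al3) ib3 (2 * ((r * ρ) * L3) + ib3 * (r ^ (2 : ℕ) * Q3)) (ρ ^ (2 : ℕ) * sig) ≤ R3)
    (hT4 : Tval ((1 - ρ ^ (2 : ℕ) * sig / 2 + ρ ^ (2 : ℕ) * rg3) * (1 - r ^ (2 : ℕ) * σ / 2 + r ^ (2 : ℕ) * σ * τ / 3)) (1 + (r * ρ) * al4) ib4 (2 * ((r * ρ) * L4) + ib4 * (r ^ (2 : ℕ) * Q4)) (ρ ^ (2 : ℕ) * sig) ≤ R4)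
    (hT5 : Tval ((1 - ρ ^ (2 : ℕ) * sig / 2 + ρ ^ (2 : ℕ) * rg3) * (1 - r ^ (2 : ℕ) * σ / 2 + r ^ (2 : ℕ) * σ * τ / 3)) (1 + (r * ρ) * al5) ib5 (2 * ((r * ρ) * L5) + ib5 * (r ^ (2 : ℕ) * Q5)) (ρ ^ (2 : ℕ) * sig) ≤ R5)
    :
    (1 - (5 / 16) * (r ^ (2 : ℕ) * σ)) * (3 * (ρ ^ (2 : ℕ) * rg3) - (3 / 64) * (ρ ^ (2 : ℕ) * sig) ^ (2 : ℕ) * (1 - (3 / 64) * (ρ ^ (2 : ℕ) * sig))) +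
        (1 - ρ ^ (2 : ℕ) * sig / 2 + ρ ^ (2 : ℕ) * rg3) * (1 - (5 / 32) * (ρ ^ (2 : ℕ) * sig)) * (r ^ (2 : ℕ) * σ * τ - r ^ (2 : ℕ) * σ * fS) ≤
      (1 / 6) * (R0 + R1 + R2 + R3 + R4 + R5) := by
  obtain ⟨eX2, eX3, eX5, eX6⟩ := avg_ib (r * ρ) al0 al1 al2 al3 al4 al5 ib0 ib1 ib2 ib3 ib4 ib5 Q0 Q1 Q2 Q3 Q4 Q5 L0 L1 L2 L3 L4 L5
    _ _ _ _ _ hi0 hi1 hi2 hi3 hi4 hi5 hsal hsQ hsaQ hsLQ hsQQ hsaQQ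
  have hT := sum_T (r * ρ) r (ρ ^ (2 : ℕ) * sig) ((1 - ρ ^ (2 : ℕ) * sig / 2 + ρ ^ (2 : ℕ) * rg3) * (1 - r ^ (2 : ℕ) * σ / 2 + r ^ (2 : ℕ) * σ * τ / 3))
    al0 al1 al2 al3 al4 al5 ib0 ib1 ib2 ib3 ib4 ib5 Q0 Q1 Q2 Q3 Q4 Q5 L0 L1 L2 L3 L4 L5 hsal hsL
  have hval := avg_value r ρ σ τ (ρ ^ (2 : ℕ) * sig) ((1 - ρ ^ (2 : ℕ) * sig / 2 + ρ ^ (2 : ℕ) * rg3) * (1 - r ^ (2 : ℕ) * σ / 2 + r ^ (2 : ℕ) * σ * τ / 3))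
    B1 B2 B4 B5 B6 Hr Lam1 h31 h61 h71
    (ib0 ^ (2 : ℕ) + ib1 ^ (2 : ℕ) + ib2 ^ (2 : ℕ) + ib3 ^ (2 : ℕ) + ib4 ^ (2 : ℕ) + ib5 ^ (2 : ℕ)) (ib0 * Q0 + ib1 * Q1 + ib2 * Q2 + ib3 * Q3 + ib4 * Q4 + ib5 * Q5) (ib0 * L0 ^ (2 : ℕ) + ib1 * L1 ^ (2 : ℕ) + ib2 * L2 ^ (2 : ℕ) + ib3 * L3 ^ (2 : ℕ) + ib4 * L4 ^ (2 : ℕ) + ib5 * L5 ^ (2 : ℕ)) (ib0 ^ (2 : ℕ) * (L0 * Q0) + ib1 ^ (2 : ℕ) * (L1 * Q1) + ib2 ^ (2 : ℕ) * (L2 * Q2) + ib3 ^ (2 : ℕ) * (L3 * Q3) + ib4 ^ (2 : ℕ) * (L4 * Q4) + ib5 ^ (2 : ℕ) * (L5 * Q5)) (ib0 ^ (3 : ℕ) * Q0 ^ (2 : ℕ) + ib1 ^ (3 : ℕ) * Q1 ^ (2 : ℕ) + ib2 ^ (3 : ℕ) * Q2 ^ (2 : ℕ) + ib3 ^ (3 : ℕ) * Q3 ^ (2 : ℕ) + ib4 ^ (3 : ℕ) * Q4 ^ (2 : ℕ) + ib5 ^ (3 : ℕ) * Q5 ^ (2 : ℕ))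
    (al0 ^ (2 : ℕ) * Q0 * ib0 + al1 ^ (2 : ℕ) * Q1 * ib1 + al2 ^ (2 : ℕ) * Q2 * ib2 + al3 ^ (2 : ℕ) * Q3 * ib3 + al4 ^ (2 : ℕ) * Q4 * ib4 + al5 ^ (2 : ℕ) * Q5 * ib5) (al0 ^ (2 : ℕ) * (ib0 ^ (2 : ℕ) + 2 * ib0) + al1 ^ (2 : ℕ) * (ib1 ^ (2 : ℕ) + 2 * ib1) + al2 ^ (2 : ℕ) * (ib2 ^ (2 : ℕ) + 2 * ib2) + al3 ^ (2 : ℕ) * (ib3 ^ (2 : ℕ) + 2 * ib3) + al4 ^ (2 : ℕ) * (ib4 ^ (2 : ℕ) + 2 * ib4) + al5 ^ (2 : ℕ) * (ib5 ^ (2 : ℕ) + 2 * ib5)) (ib0 * L0 ^ (2 : ℕ) + ib1 * L1 ^ (2 : ℕ) + ib2 * L2 ^ (2 : ℕ) + ib3 * L3 ^ (2 : ℕ) + ib4 * L4 ^ (2 : ℕ) + ib5 * L5 ^ (2 : ℕ)) (al0 * L0 * (Q0 * (ib0 ^ (2 : ℕ) + ib0)) + al1 * L1 * (Q1 * (ib1 ^ (2 : ℕ) + ib1)) + al2 * L2 * (Q2 * (ib2 ^ (2 : ℕ) + ib2)) + al3 * L3 * (Q3 * (ib3 ^ (2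 : ℕ) + ib3)) + al4 * L4 * (Q4 * (ib4 ^ (2 : ℕ) + ib4)) + al5 * L5 * (Q5 * (ib5 ^ (2 : ℕ) + ib5))) (al0 ^ (2 : ℕ) * Q0 * Q0 * (ib0 ^ (3 : ℕ) + 2 * ib0 ^ (2 : ℕ) + 3 * ib0) + al1 ^ (2 : ℕ) * Q1 * Q1 * (ib1 ^ (3 : ℕ) + 2 * ib1 ^ (2 : ℕ) + 3 * ib1) + al2 ^ (2 : ℕ) * Q2 * Q2 * (ib2 ^ (3 : ℕ) + 2 * ib2 ^ (2 : ℕ) + 3 * ib2) + al3 ^ (2 : ℕ) * Q3 * Q3 * (ib3 ^ (3 : ℕ) + 2 * ib3 ^ (2 : ℕ) + 3 * ib3) + al4 ^ (2 : ℕ) * Q4 * Q4 * (ib4 ^ (3 : ℕ) + 2 * ib4 ^ (2 : ℕ) + 3 * ib4) + al5 ^ (2 : ℕ) * Q5 * Q5 * (ib5 ^ (3 : ℕ) + 2 * ib5 ^ (2 : ℕ) + 3 * ib5))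
    (6 * σ * (1 + ρ ^ (2 : ℕ) * Hr)) (6 * ρ * γ' * Lam1) (6 * ρ * γ' * h31) (6 * σ ^ (2 : ℕ) * (1 + ρ ^ (2 : ℕ) * h61)) (6 * ρ * σ * γ' * h71)
    eX2 eX3 rfl eX5 eX6 hB1 hB2 hB6 hB4 hB5 rfl
    (by linear_combination (6 * ρ * Lam1) * hτσ) (by linear_combination (6 * ρ * h31) * hτσ) rfl
    (by linear_combination (6 * ρ * σ * h71) * hτσ)
  dsimp only at hval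
  have hFinal := final_id_I (ρ ^ (2 : ℕ)) (r ^ (2 : ℕ) * σ) τ sig rg3 Hr Lam1 h31 h61 h71 B1 B2 B4 B5 B6 fS (r ^ (2 : ℕ)) ((r ^ (2 : ℕ)) ^ (2 : ℕ))
  rw [← Fform] at hFinal
  have hnon : 0 ≤ (r ^ (2 : ℕ) * σ) * (fS - (3 / 64) * (r ^ (2 : ℕ) * σ) +
      ρ ^ (2 : ℕ) * Fform (ρ ^ (2 : ℕ)) (r ^ (2 : ℕ) * σ) τ sig rg3 Hr Lam1 h31 h61 h71 B1 B2 B4 B5 B6 fS (r ^ (2 : ℕ)) ((r ^ (2 : ℕ)) ^ (2 : ℕ))) :=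
    mul_nonneg hS0 (add_nonneg hF0 (mul_nonneg (sq_nonneg ρ) hF))
  rw [← hFinal] at hnon
  have hsum := add_le_add (add_le_add (add_le_add (add_le_add (add_le_add hT0 hT1) hT2) hT3) hT4) hT5
  rw [hT] at hsum
  have h6 := mul_le_mul_of_nonneg_left hsum (by norm_num : (0 : ℝ) ≤ 1 / 6)
  rw [hval] at h6
  exact (sub_nonneg.mp hnon).trans h6

/-- The algebraic core of inequality (II). -/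
theorem abstract_II (r ρ τ fS σ sig rg3 Hr Lam1 γ' B1 al0 al1 al2 al3 al4 al5 ib0 ib1 ib2 ib3 ib4 ib5 Q0 Q1 Q2 Q3 Q4 Q5 L0 L1 L2 L3 L4 L5 R0 R1 R2 R3 R4 R5 : ℝ)
    (hi0 : (1 + (r * ρ) * al0) * ib0 = 1)
    (hi1 : (1 + (r * ρ) * al1) * ib1 = 1)
    (hi2 : (1 + (r * ρ) * al2) * ib2 = 1)
    (hi3 : (1 + (r * ρ) * al3) * ib3 = 1)
    (hi4 : (1 + (r * ρ) * al4) * ib4 = 1)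
    (hi5 : (1 + (r * ρ) * al5) * ib5 = 1)
    (hsal : al0 + al1 + al2 + al3 + al4 + al5 = 0) (hsL : L0 + L1 + L2 + L3 + L4 + L5 = 0)
    (hsQ : Q0 + Q1 + Q2 + Q3 + Q4 + Q5 = 6 * σ * (1 + ρ ^ (2 : ℕ) * Hr))
    (hsaQ : al0 * Q0 + al1 * Q1 + al2 * Q2 + al3 * Q3 + al4 * Q4 + al5 * Q5 = 6 * ρ * γ' * Lam1)
    (hτσ : r * γ' = τ * σ)
    (hB1 : al0 ^ (2 : ℕ) * Q0 * ib0 + al1 ^ (2 : ℕ) * Q1 * ib1 + al2 ^ (2 : ℕ) * Q2 * ib2 + al3 ^ (2 : ℕ) * Q3 * ib3 + al4 ^ (2 : ℕ) * Q4 * ib4 + al5 ^ (2 : ℕ) * Q5 * ib5 = 6 * σ * B1)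
    (hS0 : 0 ≤ r ^ (2 : ℕ) * σ)
    (hG : 0 ≤ -Hr - (3 / 16) * (3 * rg3 - (3 / 64) * (sig * (ρ ^ (2 : ℕ) * sig) * (1 - (3 / 64) * (ρ ^ (2 : ℕ) * sig)))) - sig / 1024 +
      fS * Lam1 - r ^ (2 : ℕ) * B1)
    (hT0 : R0 = (1 + (r * ρ) * al0) * (ρ ^ (2 : ℕ) * sig) + (2 * ((r * ρ) * L0) + ib0 * (r ^ (2 : ℕ) * Q0)))
    (hT1 : R1 = (1 + (r * ρ) * al1) * (ρ ^ (2 : ℕ) * sig) + (2 * ((r * ρ) * L1) + ib1 * (r ^ (2 : ℕ) * Q1)))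
    (hT2 : R2 = (1 + (r * ρ) * al2) * (ρ ^ (2 : ℕ) * sig) + (2 * ((r * ρ) * L2) + ib2 * (r ^ (2 : ℕ) * Q2)))
    (hT3 : R3 = (1 + (r * ρ) * al3) * (ρ ^ (2 : ℕ) * sig) + (2 * ((r * ρ) * L3) + ib3 * (r ^ (2 : ℕ) * Q3)))
    (hT4 : R4 = (1 + (r * ρ) * al4) * (ρ ^ (2 : ℕ) * sig) + (2 * ((r * ρ) * L4) + ib4 * (r ^ (2 : ℕ) * Q4)))
    (hT5 : R5 = (1 + (r * ρ) * al5) * (ρ ^ (2 : ℕ) * sig) + (2 * ((r * ρ) * L5) + ib5 * (r ^ (2 : ℕ) * Q5)))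
    :
    (1 / 6) * (R0 + R1 + R2 + R3 + R4 + R5) ≤
      ρ ^ (2 : ℕ) * sig + r ^ (2 : ℕ) * σ -
        (3 / 16) * (r ^ (2 : ℕ) * σ) * (3 * (ρ ^ (2 : ℕ) * rg3) - (3 / 64) * (ρ ^ (2 : ℕ) * sig) ^ (2 : ℕ) * (1 - (3 / 64) * (ρ ^ (2 : ℕ) * sig))) -
        (ρ ^ (2 : ℕ) * Lam1) * (r ^ (2 : ℕ) * σ * τ - r ^ (2 : ℕ) * σ * fS) - (1 / 1024) * (r ^ (2 : ℕ) * σ) * (ρ ^ (2 : ℕ) * sig) := by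
  obtain ⟨_, eX3, _, _⟩ := avg_ib (r * ρ) al0 al1 al2 al3 al4 al5 ib0 ib1 ib2 ib3 ib4 ib5 Q0 Q1 Q2 Q3 Q4 Q5 L0 L1 L2 L3 L4 L5
    _ _ _ _ _ hi0 hi1 hi2 hi3 hi4 hi5 hsal hsQ hsaQ rfl rfl rfl
  have hsum : R0 + R1 + R2 + R3 + R4 + R5 = 6 * (ρ ^ (2 : ℕ) * sig) + r ^ (2 : ℕ) * (ib0 * Q0 + ib1 * Q1 + ib2 * Q2 + ib3 * Q3 + ib4 * Q4 + ib5 * Q5) := by
    rw [hT0, hT1, hT2, hT3, hT4, hT5]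
    linear_combination (r * ρ) * (ρ ^ (2 : ℕ) * sig) * hsal + 2 * (r * ρ) * hsL
  have haQ' : r * (6 * ρ * γ' * Lam1) = 6 * ρ * (τ * σ) * Lam1 := by
    rw [← hτσ]; ring
  rw [hsum, eX3, hB1]
  have hnon : 0 ≤ (r ^ (2 : ℕ) * σ) * (ρ ^ (2 : ℕ) * (-Hr - (3 / 16) * (3 * rg3 - (3 / 64) * (sig * (ρ ^ (2 : ℕ) * sig) * (1 - (3 / 64) * (ρ ^ (2 : ℕ) * sig)))) - sig / 1024 +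
      fS * Lam1 - r ^ (2 : ℕ) * B1)) := mul_nonneg hS0 (mul_nonneg (sq_nonneg ρ) hG)
  have key : (ρ ^ (2 : ℕ) * sig + r ^ (2 : ℕ) * σ -
        (3 / 16) * (r ^ (2 : ℕ) * σ) * (3 * (ρ ^ (2 : ℕ) * rg3) - (3 / 64) * (ρ ^ (2 : ℕ) * sig) ^ (2 : ℕ) * (1 - (3 / 64) * (ρ ^ (2 : ℕ) * sig))) -
        (ρ ^ (2 : ℕ) * Lam1) * (r ^ (2 : ℕ) * σ * τ - r ^ (2 : ℕ) * σ * fS) - (1 / 1024) * (r ^ (2 : ℕ) * σ) * (ρ ^ (2 : ℕ) * sig)) -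
      (1 / 6) * (6 * (ρ ^ (2 : ℕ) * sig) + r ^ (2 : ℕ) * (6 * σ * (1 + ρ ^ (2 : ℕ) * Hr) - r * ρ * (6 * ρ * γ' * Lam1) + (r * ρ) ^ (2 : ℕ) * (6 * σ * B1))) =
      (r ^ (2 : ℕ) * σ) * (ρ ^ (2 : ℕ) * (-Hr - (3 / 16) * (3 * rg3 - (3 / 64) * (sig * (ρ ^ (2 : ℕ) * sig) * (1 - (3 / 64) * (ρ ^ (2 : ℕ) * sig)))) - sig / 1024 +
      fS * Lam1 - r ^ (2 : ℕ) * B1)) := by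
    linear_combination (r ^ (2 : ℕ) * ρ / 6) * haQ'
  linarith only [hnon, key]

end Vale.Agent.Lib.P154
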