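import Vale.Agent.Lib.P154.TMProg

/-!
Generated kernel checks of the Taylor model box tests for `F`.
-/

namespace Vale.Agent.Lib.P154

theorem chkF_4 : chk testF (CT.a (CT.b (CT.a (CT.d (CT.b CT.l CT.l) (CT.b CT.l (CT.a CT.l CT.l))) (CT.b (CT.d CT.l CT.l) (CT.d (CT.a CT.l CT.l) (CT.a CT.l CT.l)))) (CT.a (CT.d (CT.b (CT.a CT.l CT.l) (CT.a CT.l CT.l)) (CT.b (CT.a CT.l CT.l) (CT.a CT.l CT.l))) (CT.b (CT.d (CT.a CT.l CT.l) (CT.a CT.l CT.l)) (CT.a (CT.d CT.l (CT.b CT.l CT.l)) (CT.d CT.l (CT.b CT.l CT.l)))))) (CT.b (CT.a (CT.b (CT.d CT.l (CT.a CT.l CT.l)) (CT.d (CT.a CT.l CT.l) (CT.a CT.l CT.l))) (CT.b (CT.d (CT.b CT.l CT.l) (CT.a CT.l CT.l)) (CT.a (CT.d CT.l CT.l) (CT.b CT.l CT.l)))) (CT.a (CT.b (CT.a (CT.d CT.l (CT.b CT.l CT.l)) (CT.d CT.l (CT.b CT.l CT.l))) (CT.a (CT.d CT.l (CT.b CT.l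 CT.l)) (CT.b (CT.d CT.l CT.l) CT.l))) (CT.b (CT.a (CT.b (CT.d CT.l CT.l) CT.l) (CT.b CT.l CT.l)) (CT.a (CT.b CT.l CT.l) (CT.b CT.l CT.l)))))) 549755813888 549755813888 824633720832 824633720832 0 389231411200 824633720832 412316860416 = true := by decide +kernel

theorem chkF_5 : chk testF (CT.a (CT.b (CT.a (CT.d (CT.b CT.l (CT.c CT.l CT.l)) (CT.b (CT.c CT.l CT.l) (CT.c CT.l CT.l))) (CT.b (CT.d (CT.c CT.l CT.l) (CT.c CT.l CT.l)) (CT.d (CT.a CT.l CT.l) (CT.a (CT.c CT.l CT.l) (CT.c CT.l CT.l))))) (CT.a (CT.b (CT.d (CT.a CT.l (CT.c CT.l CT.l)) (CT.c CT.l (CT.a CT.l CT.l))) (CT.d (CT.a (CT.c CT.l CT.l) (CT.c CT.l CT.l)) (CT.a (CT.c CT.l CT.l) (CT.c CT.l CT.l)))) (CT.b (CT.d (CT.a (CT.c CT.l CT.l) (CT.b CT.l CT.l)) (CT.a (CT.c CT.l CT.l) (CT.c CT.l CT.l))) (CT.a (CT.d (CT.b CT.l CT.l) (CT.c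 CT.l CT.l)) (CT.d (CT.b CT.l CT.l) (CT.b CT.l CT.l)))))) (CT.b (CT.a (CT.b (CT.d (CT.a CT.l CT.l) (CT.a CT.l CT.l)) (CT.d (CT.a CT.l (CT.b CT.l CT.l)) (CT.a (CT.c CT.l CT.l) (CT.b CT.l CT.l)))) (CT.b (CT.d (CT.a CT.l CT.l) (CT.a CT.l CT.l)) (CT.a (CT.d (CT.b CT.l CT.l) (CT.b CT.l CT.l)) (CT.b (CT.d CT.l CT.l) (CT.d CT.l CT.l))))) (CT.a (CT.b (CT.a (CT.d (CT.b CT.l CT.l) (CT.b CT.l CT.l)) (CT.b (CT.d CT.l CT.l) (CT.d CT.l CT.l))) (CT.a (CT.b (CT.d CT.l CT.l) (CT.d CT.l CT.l)) (CT.b (CT.d CT.l CT.l) (CT.d CT.l CT.l)))) (CT.b (CT.a (CT.b (CT.d CT.l CT.l) (CT.d CT.l CT.l)) (CT.b (CT.d CT.l CT.l) (CT.d CT.l CT.l))) (CT.a (CT.b (CT.d CT.l CT.l) (CT.d CT.l CT.l)) (CT.b (CT.d CT.l CT.l) (CT.d CT.l CT.l))))))) 549755813888 549755813888 824633720832 824633720832 0 389231411200 1236950581248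 412316860416 = true := by decide +kernel

theorem chkF_6 : chk testF (CT.d (CT.a (CT.b (CT.a (CT.d CT.l CT.l) (CT.b CT.l CT.l)) (CT.a (CT.b CT.l CT.l) (CT.b CT.l (CT.d CT.l CT.l)))) (CT.b (CT.b (CT.a CT.l CT.l) (CT.a CT.l (CT.d CT.l CT.l))) (CT.a (CT.b (CT.d CT.l CT.l) (CT.d CT.l (CT.a CT.l CT.l))) (CT.b (CT.d (CT.a CT.l CT.l) (CT.a CT.l CT.l)) (CT.a (CT.d CT.l CT.l) (CT.d (CT.b CT.l CT.l) (CT.b CT.l CT.l))))))) (CT.a (CT.b (CT.d (CT.a CT.l (CT.b CT.l CT.l)) (CT.a (CT.b CT.l CT.l) (CT.b CT.l CT.l))) (CT.d (CT.a (CT.b CT.l CT.l) (CT.b CT.l (CT.a CT.l CT.l))) (CT.a (CT.b CT.l (CT.d CT.l CT.l)) (CT.b (CT.a CT.l CT.l) (CT.a CT.l CT.l))))) (CT.b (CT.a (CT.d (CT.b CT.l CT.l) (CT.b CT.l CT.l)) (CT.d (CT.b CT.l CT.l) (CT.b CT.l (CT.a CT.l CT.l)))) (CT.a (CT.d (CT.b CT.l (CT.a CT.l CT.l)) (CT.b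 (CT.a CT.l CT.l) (CT.a (CT.d CT.l CT.l) (CT.d CT.l CT.l)))) (CT.d (CT.b (CT.a CT.l CT.l) (CT.a (CT.b CT.l CT.l) (CT.b CT.l CT.l))) (CT.b (CT.a CT.l (CT.b CT.l CT.l)) (CT.a (CT.b CT.l CT.l) (CT.b CT.l (CT.a CT.l CT.l))))))))) 0 1099511627776 0 824633720832 389231411200 389231411200 0 824633720832 = true := by decide +kernel

end Vale.Agent.Lib.P154
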