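import Vale.Agent.Lib.P154.TMProg

/-!
Generated kernel checks of the Taylor model box tests for `F`.
-/

namespace Vale.Agent.Lib.P154

theorem chkF_7 : chk testF (CT.d (CT.a (CT.b (CT.b (CT.d CT.l CT.l) (CT.d CT.l CT.l)) (CT.a (CT.b CT.l CT.l) (CT.b CT.l CT.l))) (CT.b (CT.a (CT.b CT.l (CT.d CT.l CT.l)) (CT.b (CT.d CT.l CT.l) (CT.d CT.l CT.l))) (CT.a (CT.b (CT.d CT.l CT.l) (CT.d CT.l CT.l)) (CT.b (CT.d CT.l CT.l) (CT.d CT.l (CT.a CT.l CT.l)))))) (CT.a (CT.d (CT.b (CT.b CT.l (CT.a CT.l CT.l)) (CT.a CT.l (CT.b CT.l CT.l))) (CT.b (CT.b (CT.a CT.l CT.l) (CT.a CT.l CT.l)) (CT.a (CT.b CT.l CT.l) (CT.b (CT.d CT.l CT.l) (CT.d CT.l CT.l))))) (CT.b (CT.d (CT.a (CT.b CT.l CT.l) (CT.b CT.l (CT.d CT.l CT.l))) (CT.a (CT.b (CT.d CT.l CT.l) (CT.d CT.l CT.l)) (CT.b (CT.d CT.l CT.l) (CT.d CT.l CT.l))))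 (CT.a (CT.d (CT.b CT.l (CT.a CT.l CT.l)) (CT.b (CT.d CT.l CT.l) (CT.a CT.l CT.l))) (CT.d (CT.b (CT.a CT.l CT.l) (CT.a CT.l CT.l)) (CT.b (CT.a (CT.d CT.l CT.l) (CT.d CT.l CT.l)) (CT.a (CT.d CT.l CT.l) (CT.d CT.l CT.l)))))))) 0 549755813888 824633720832 824633720832 389231411200 389231411200 0 824633720832 = true := by decide +kernel

theorem chkF_8 : chk testF (CT.b (CT.a (CT.a (CT.b (CT.d CT.l CT.l) (CT.d CT.l (CT.a CT.l CT.l))) (CT.b (CT.d CT.l (CT.a CT.l CT.l)) (CT.d (CT.a CT.l CT.l) (CT.a CT.l CT.l)))) (CT.b (CT.a (CT.d (CT.b CT.l CT.l) (CT.a CT.l CT.l)) (CT.d (CT.b CT.l (CT.a CT.l CT.l)) (CT.a (CT.b CT.l CT.l) (CT.b CT.l CT.l)))) (CT.a (CT.d (CT.a (CT.b CT.l CT.l) (CT.b CT.l CT.l)) (CT.a (CT.b CT.l CT.l) (CT.b CT.l CT.l))) (CT.a (CT.b (CT.d CT.l CT.l) (CT.d CT.l CT.l)) (CT.b (CT.d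 CT.l CT.l) (CT.d CT.l (CT.a CT.l CT.l))))))) (CT.a (CT.a (CT.b (CT.d (CT.a CT.l CT.l) (CT.a CT.l CT.l)) (CT.a (CT.d CT.l CT.l) (CT.d CT.l (CT.b CT.l CT.l)))) (CT.b (CT.a (CT.d CT.l (CT.b CT.l CT.l)) (CT.d (CT.b CT.l CT.l) (CT.b CT.l CT.l))) (CT.a (CT.d (CT.b CT.l CT.l) (CT.b CT.l CT.l)) (CT.b (CT.d CT.l CT.l) (CT.d CT.l CT.l))))) (CT.a (CT.b (CT.a (CT.d (CT.b CT.l CT.l) (CT.b CT.l CT.l)) (CT.b (CT.d CT.l CT.l) (CT.d CT.l (CT.a CT.l CT.l)))) (CT.a (CT.b (CT.d CT.l (CT.a CT.l CT.l)) (CT.d CT.l (CT.a CT.l CT.l))) (CT.b (CT.d (CT.a CT.l CT.l) (CT.a CT.l CT.l)) (CT.d (CT.a CT.l CT.l) (CT.a CT.l CT.l))))) (CT.b (CT.a (CT.b (CT.d CT.l (CT.a CT.l CT.l)) (CT.d (CT.a CT.l CT.l) (CT.a CT.l CT.l))) (CT.b (CT.d (CT.a CT.l CT.l) (CT.a CT.l CT.l)) (CT.d (CT.a CT.l CT.l) (CT.a CT.l CT.l)))) (CT.a (CT.b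 (CT.d (CT.a CT.l CT.l) (CT.a CT.l CT.l)) (CT.a (CT.d CT.l CT.l) (CT.d CT.l CT.l))) (CT.b (CT.a (CT.d CT.l CT.l) (CT.d CT.l CT.l)) (CT.a (CT.d CT.l CT.l) (CT.d CT.l CT.l)))))))) 549755813888 549755813888 824633720832 824633720832 389231411200 389231411200 0 412316860416 = true := by decide +kernel

theorem chkF_9 : chk testF (CT.b (CT.d (CT.a (CT.b CT.l (CT.a CT.l CT.l)) (CT.b (CT.a CT.l CT.l) (CT.a CT.l (CT.b CT.l CT.l)))) (CT.a (CT.b (CT.d CT.l CT.l) (CT.a (CT.d CT.l CT.l) (CT.d CT.l CT.l))) (CT.b (CT.a CT.l (CT.b CT.l CT.l)) (CT.a (CT.b CT.l CT.l) (CT.b CT.l CT.l))))) (CT.a (CT.d (CT.b (CT.a CT.l (CT.b CT.l CT.l)) (CT.a (CT.b CT.l CT.l) (CT.b CT.l CT.l))) (CT.b (CT.a (CT.d CT.l CT.l) (CT.b CT.l CT.l)) (CT.a (CT.b CT.l CT.l) (CT.b CT.l CT.l)))) (CT.b (CT.d (CT.a (CT.b CT.l CT.l) (CT.b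 CT.l CT.l)) (CT.a (CT.b CT.l CT.l) (CT.b CT.l (CT.d CT.l CT.l)))) (CT.d (CT.a (CT.b CT.l CT.l) (CT.b CT.l (CT.a CT.l CT.l))) (CT.a (CT.b (CT.d CT.l CT.l) (CT.d CT.l CT.l)) (CT.b (CT.a CT.l CT.l) (CT.a CT.l CT.l))))))) 549755813888 274877906944 824633720832 824633720832 389231411200 389231411200 412316860416 412316860416 = true := by decide +kernel

end Vale.Agent.Lib.P154
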