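import Vale.Agent.Lib.P154.TMProg

/-!
Generated kernel checks of the Taylor model box tests for `F`.
-/

namespace Vale.Agent.Lib.P154

theorem chkF_10 : chk testF (CT.b (CT.a (CT.b (CT.d (CT.a CT.l (CT.b CT.l CT.l)) (CT.a (CT.b CT.l CT.l) (CT.b CT.l CT.l))) (CT.d (CT.a (CT.b CT.l CT.l) (CT.b CT.l CT.l)) (CT.a (CT.b CT.l CT.l) (CT.b CT.l (CT.d CT.l CT.l))))) (CT.b (CT.d (CT.a (CT.b CT.l CT.l) (CT.b CT.l CT.l)) (CT.a (CT.b CT.l CT.l) (CT.b CT.l CT.l))) (CT.d (CT.a (CT.b CT.l CT.l) (CT.b CT.l (CT.a CT.l CT.l))) (CT.a (CT.b CT.l (CT.a CT.l CT.l)) (CT.b (CT.a CT.l CT.l) (CT.a CT.l CT.l)))))) (CT.a (CT.b (CT.d (CT.a (CT.b CT.l CT.l) (CT.b CT.l (CT.a CT.l CT.l))) (CT.a (CT.b (CT.d CT.l CT.l) (CT.a CT.l CT.l)) (CT.b (CT.a CT.l CT.l) (CT.a CT.l CT.l)))) (CT.a (CT.d (CT.b (CT.a CT.l CT.l) (CT.a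 CT.l CT.l)) (CT.b (CT.a CT.l CT.l) (CT.a CT.l CT.l))) (CT.b (CT.d (CT.a CT.l CT.l) (CT.a CT.l CT.l)) (CT.d (CT.a CT.l CT.l) (CT.a CT.l CT.l))))) (CT.b (CT.a (CT.d (CT.b (CT.a CT.l CT.l) (CT.a CT.l CT.l)) (CT.b (CT.a CT.l CT.l) (CT.a CT.l CT.l))) (CT.b (CT.d (CT.a CT.l CT.l) (CT.a CT.l CT.l)) (CT.d (CT.a CT.l CT.l) (CT.a CT.l CT.l)))) (CT.a (CT.b (CT.d (CT.a CT.l CT.l) (CT.a CT.l CT.l)) (CT.d (CT.a CT.l CT.l) (CT.a CT.l CT.l))) (CT.b (CT.d (CT.a CT.l CT.l) (CT.a CT.l CT.l)) (CT.d (CT.a CT.l CT.l) (CT.a CT.l CT.l))))))) 824633720832 274877906944 824633720832 824633720832 389231411200 389231411200 412316860416 412316860416 = true := by decide +kernel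

theorem chkF_11 : chk testF (CT.a (CT.d (CT.b (CT.b (CT.d CT.l CT.l) (CT.d CT.l CT.l)) (CT.b (CT.d CT.l CT.l) (CT.d CT.l (CT.a CT.l CT.l)))) (CT.b (CT.b (CT.c CT.l CT.l) (CT.c CT.l (CT.d CT.l CT.l))) (CT.b (CT.c CT.l (CT.d CT.l CT.l)) (CT.c CT.l (CT.a CT.l CT.l))))) (CT.b (CT.d (CT.b (CT.a CT.l CT.l) (CT.a CT.l CT.l)) (CT.b (CT.a (CT.c CT.l CT.l) (CT.c CT.l CT.l)) (CT.a (CT.c CT.l CT.l) (CT.c CT.l CT.l)))) (CT.d (CT.b (CT.a CT.l (CT.d CT.l CT.l)) (CT.a (CT.d CT.l CT.l) (CT.d CT.l CT.l))) (CT.b (CT.a (CT.c CT.l CT.l) (CT.c CT.l CT.l)) (CT.a (CT.c CT.l (CT.d CT.l CT.l)) (CT.c CT.l (CT.d CT.l CT.l))))))) 0 549755813888 0 824633720832 389231411200 389231411200 824633720832 412316860416 = true := by decide +kernel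

theorem chkF_12 : chk testF (CT.a (CT.d (CT.b (CT.a (CT.b (CT.d CT.l CT.l) (CT.c CT.l CT.l)) (CT.b (CT.d CT.l CT.l) (CT.d CT.l CT.l))) (CT.a (CT.b (CT.c CT.l CT.l) (CT.c CT.l CT.l)) (CT.b (CT.c CT.l CT.l) (CT.c CT.l (CT.d CT.l CT.l))))) (CT.b (CT.a (CT.b (CT.c CT.l CT.l) (CT.c CT.l CT.l)) (CT.b (CT.c CT.l (CT.d CT.l CT.l)) (CT.c CT.l (CT.d CT.l CT.l)))) (CT.a (CT.c (CT.b CT.l CT.l) (CT.b (CT.d CT.l CT.l) (CT.d CT.l CT.l))) (CT.b (CT.c CT.l (CT.d CT.l CT.l)) (CT.c CT.l (CT.d CT.l CT.l)))))) (CT.b (CT.d (CT.a (CT.b (CT.d CT.l CT.l) (CT.d CT.l (CT.c CT.l CT.l))) (CT.b (CT.d CT.l (CT.c CT.l CT.l)) (CT.d (CT.a CT.l CT.l) (CT.a CT.l CT.l)))) (CT.a (CT.b (CT.c CT.l (CT.d CT.l CT.l)) (CT.c CT.l (CT.d CT.l CT.l))) (CT.b (CT.c CT.l (CT.d CT.l CT.l)) (CT.c CT.l (CT.a (CT.d CT.l CT.l) (CT.d CT.l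 CT.l)))))) (CT.a (CT.d (CT.b (CT.d (CT.c CT.l CT.l) (CT.c CT.l CT.l)) (CT.a (CT.c CT.l CT.l) (CT.d CT.l CT.l))) (CT.b (CT.c CT.l (CT.d CT.l (CT.a CT.l CT.l))) (CT.c (CT.a CT.l CT.l) (CT.a CT.l (CT.d CT.l CT.l))))) (CT.d (CT.b (CT.a (CT.d CT.l CT.l) (CT.d CT.l CT.l)) (CT.a (CT.d CT.l CT.l) (CT.d CT.l (CT.c CT.l CT.l)))) (CT.b (CT.a (CT.c CT.l (CT.d CT.l CT.l)) (CT.c CT.l (CT.d CT.l CT.l))) (CT.a (CT.c CT.l (CT.d CT.l CT.l)) (CT.c CT.l (CT.d CT.l CT.l)))))))) 0 549755813888 824633720832 824633720832 389231411200 389231411200 824633720832 412316860416 = true := by decide +kernel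

end Vale.Agent.Lib.P154
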