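import Vale.Agent.Lib.P154.TMProg

/-!
Generated kernel checks of the Taylor model box tests for `G`.
-/

namespace Vale.Agent.Lib.P154

theorem chkG_0 : chk testG (CT.b (CT.b (CT.d (CT.b (CT.a CT.l (CT.b (CT.d CT.l CT.l) (CT.a CT.l CT.l))) (CT.a CT.l (CT.b (CT.a CT.l CT.l) (CT.a CT.l CT.l)))) (CT.a CT.l (CT.b (CT.b (CT.a CT.l (CT.d CT.l CT.l)) (CT.a CT.l (CT.d CT.l CT.l))) (CT.b (CT.a CT.l (CT.d CT.l CT.l)) (CT.a CT.l (CT.d CT.l CT.l)))))) (CT.a (CT.b CT.l (CT.d CT.l CT.l)) (CT.b (CT.d (CT.b CT.l CT.l) (CT.b (CT.a CT.l CT.l) (CT.a CT.l CT.l))) (CT.d (CT.b CT.l CT.l) (CT.a CT.l (CT.b CT.l CT.l)))))) (CT.a (CT.b (CT.b (CT.d CT.l CT.l) (CT.a CT.l CT.l)) (CT.a CT.l (CT.b CT.l CT.l))) (CT.d (CT.b (CT.b (CT.a CT.l CT.l) (CT.a CT.l CT.l)) (CT.a (CT.b CT.l CT.l) (CT.b (CT.a CT.l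 CT.l) (CT.a CT.l (CT.b CT.l (CT.d CT.l (CT.a CT.l CT.l))))))) (CT.b (CT.a (CT.b CT.l CT.l) (CT.b (CT.b CT.l CT.l) (CT.a CT.l CT.l))) (CT.a (CT.b CT.l CT.l) (CT.b (CT.a CT.l (CT.d CT.l CT.l)) (CT.a CT.l (CT.d (CT.b CT.l (CT.a CT.l CT.l)) (CT.b CT.l (CT.a CT.l CT.l)))))))))) 0 1099511627776 0 1649267441664 0 389231411200 0 824633720832 = true := by decide +kernel

theorem chkG_1 : chk testG (CT.d (CT.b (CT.b (CT.a (CT.b CT.l CT.l) (CT.b (CT.a CT.l (CT.b (CT.d CT.l (CT.b CT.l CT.l)) (CT.d (CT.b CT.l CT.l) (CT.b CT.l CT.l)))) (CT.b (CT.a CT.l (CT.d CT.l (CT.b CT.l CT.l))) (CT.a CT.l (CT.d CT.l CT.l))))) (CT.a (CT.b CT.l CT.l) (CT.b (CT.a CT.l (CT.b (CT.d CT.l CT.l) (CT.d CT.l CT.l))) (CT.a CT.l (CT.b CT.l CT.l))))) (CT.a (CT.b (CT.b CT.l (CT.a CT.l CT.l)) (CT.a CT.l (CT.b CT.l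 CT.l))) (CT.b (CT.a (CT.b CT.l CT.l) (CT.b (CT.b CT.l (CT.a CT.l CT.l)) (CT.a CT.l (CT.b CT.l CT.l)))) (CT.a (CT.b (CT.a CT.l CT.l) (CT.a CT.l CT.l)) (CT.a (CT.b CT.l (CT.d CT.l CT.l)) (CT.b (CT.d CT.l CT.l) (CT.d (CT.b CT.l (CT.a CT.l (CT.d CT.l CT.l))) (CT.a CT.l (CT.b CT.l (CT.d CT.l CT.l)))))))))) (CT.a (CT.b (CT.b (CT.b CT.l (CT.a CT.l CT.l)) (CT.b (CT.a CT.l CT.l) (CT.a CT.l CT.l))) (CT.a (CT.b (CT.b CT.l CT.l) (CT.b CT.l CT.l)) (CT.b (CT.b CT.l CT.l) (CT.b CT.l CT.l)))) (CT.b (CT.b (CT.b (CT.a (CT.d CT.l CT.l) (CT.b (CT.d (CT.a CT.l (CT.b CT.l CT.l)) (CT.a CT.l (CT.c CT.l CT.l))) (CT.d (CT.a CT.l (CT.b CT.l CT.l)) (CT.a CT.l (CT.c CT.l CT.l))))) (CT.a (CT.b CT.l CT.l) (CT.b (CT.d (CT.a CT.l CT.l) (CT.a CT.l (CT.b CT.l CT.l))) (CT.d (CT.a CT.l CT.l) (CT.a CT.l CT.l)))))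 (CT.b (CT.a (CT.b CT.l CT.l) (CT.b (CT.d CT.l (CT.a CT.l CT.l)) (CT.d CT.l CT.l))) (CT.a (CT.b CT.l CT.l) (CT.b (CT.d CT.l CT.l) (CT.a CT.l CT.l))))) (CT.a (CT.b (CT.b (CT.b CT.l CT.l) (CT.a CT.l CT.l)) (CT.a (CT.b CT.l CT.l) (CT.b CT.l CT.l))) (CT.b (CT.b (CT.a CT.l (CT.b CT.l CT.l)) (CT.a CT.l (CT.d CT.l CT.l))) (CT.a (CT.b (CT.d CT.l CT.l) (CT.d CT.l CT.l)) (CT.b (CT.d (CT.b CT.l CT.l) (CT.b CT.l CT.l)) (CT.d (CT.a CT.l (CT.b CT.l (CT.d CT.l CT.l))) (CT.a CT.l (CT.b CT.l (CT.d CT.l (CT.a CT.l CT.l)))))))))))) 0 1099511627776 0 1649267441664 0 389231411200 824633720832 824633720832 = true := by decide +kernel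

theorem chkG_2 : chk testG (CT.b (CT.a (CT.b CT.l (CT.a CT.l CT.l)) (CT.b (CT.d (CT.b (CT.a CT.l (CT.d (CT.b CT.l (CT.a CT.l CT.l)) (CT.b (CT.a CT.l CT.l) (CT.a CT.l CT.l)))) (CT.a CT.l (CT.b (CT.d (CT.a CT.l CT.l) (CT.a CT.l CT.l)) (CT.d CT.l (CT.a CT.l CT.l))))) (CT.b (CT.a CT.l (CT.d (CT.b (CT.a CT.l CT.l) (CT.a CT.l CT.l)) (CT.b (CT.a CT.l (CT.d CT.l CT.l)) (CT.a CT.l (CT.d CT.l CT.l))))) (CT.a CT.l (CT.d (CT.b (CT.a CT.l CT.l) (CT.a CT.l CT.l)) (CT.b (CT.a CT.l (CT.d CT.l CT.l)) (CT.a CT.l CT.l)))))) (CT.d (CT.b (CT.a CT.l (CT.b (CT.d CT.l (CT.a CT.l CT.l)) (CT.d CT.l CT.l))) (CT.a CT.l (CT.b (CT.d CT.l CT.l) (CT.a CT.l CT.l)))) (CT.b (CT.a CT.l (CT.b (CT.d (CT.a CT.l CT.l) (CT.a CT.l CT.l)) (CT.d CT.l (CT.a CT.l CT.l)))) (CT.a CT.l (CT.b (CT.d CT.l CT.l) (CT.d CT.l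 CT.l))))))) (CT.a (CT.b (CT.a CT.l CT.l) (CT.a CT.l CT.l)) (CT.b (CT.a (CT.b CT.l CT.l) (CT.b (CT.d (CT.b (CT.a CT.l CT.l) CT.l) (CT.b (CT.a CT.l CT.l) (CT.a CT.l CT.l))) (CT.d (CT.b CT.l CT.l) (CT.b (CT.a CT.l CT.l) (CT.a CT.l CT.l))))) (CT.a (CT.b CT.l CT.l) (CT.b (CT.d (CT.a CT.l CT.l) (CT.a CT.l CT.l)) (CT.d (CT.a CT.l CT.l) (CT.a CT.l CT.l))))))) 0 1099511627776 0 824633720832 389231411200 389231411200 0 412316860416 = true := by decide +kernel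

theorem chkG_3 : chk testG (CT.a (CT.b (CT.a (CT.b CT.l CT.l) (CT.b CT.l CT.l)) (CT.a (CT.b CT.l CT.l) (CT.b CT.l (CT.a CT.l CT.l)))) (CT.b (CT.a (CT.b (CT.b CT.l (CT.a CT.l CT.l)) (CT.a CT.l (CT.b CT.l CT.l))) (CT.b (CT.a (CT.b CT.l CT.l) (CT.b (CT.d CT.l CT.l) (CT.d CT.l CT.l))) (CT.a (CT.b CT.l CT.l) (CT.b (CT.d CT.l CT.l) (CT.d CT.l (CT.a CT.l CT.l)))))) (CT.a (CT.a (CT.b CT.l CT.l) (CT.b (CT.b CT.l CT.l) (CT.a CT.l CT.l))) (CT.b (CT.a (CT.b (CT.d CT.l CT.l) (CT.d CT.l CT.l)) (CT.d (CT.b (CT.a CT.l CT.l) (CT.a CT.l CT.l)) (CT.b (CT.a CT.l CT.l) (CT.a CT.l CT.l)))) (CT.a (CT.d (CT.a CT.l CT.l) (CT.a CT.l CT.l)) (CT.b (CT.d (CT.a CT.l (CT.b CT.l CT.l)) (CT.a CT.l (CT.b CT.l CT.l))) (CT.d (CT.a CT.l (CT.b CT.l (CT.a CT.l CT.l))) (CT.a CT.l (CT.b (CT.a CT.l CT.l) (CT.a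 CT.l CT.l)))))))))) 0 1099511627776 824633720832 824633720832 389231411200 389231411200 0 412316860416 = true := by decide +kernel

end Vale.Agent.Lib.P154
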