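import Vale.Agent.Lib.P154.TMProg

/-!
Generated kernel checks of the Taylor model box tests for `G`.
-/

namespace Vale.Agent.Lib.P154

theorem chkG_16 : chk testG (CT.b (CT.a (CT.b (CT.d (CT.b CT.l CT.l) (CT.b (CT.a CT.l CT.l) (CT.a CT.l CT.l))) (CT.d (CT.b CT.l CT.l) (CT.a (CT.b CT.l CT.l) (CT.b CT.l CT.l)))) (CT.b (CT.d (CT.b (CT.a CT.l CT.l) (CT.a CT.l CT.l)) (CT.b (CT.a CT.l CT.l) (CT.a CT.l CT.l))) (CT.d (CT.b (CT.a CT.l CT.l) (CT.a CT.l CT.l)) (CT.a (CT.b CT.l CT.l) (CT.b CT.l CT.l))))) (CT.a (CT.d (CT.b (CT.a CT.l CT.l) (CT.a CT.l CT.l)) (CT.b (CT.a (CT.b CT.l CT.l) (CT.b CT.l CT.l)) (CT.a (CT.b CT.l CT.l) (CT.b CT.l CT.l)))) (CT.d (CT.b (CT.a CT.l (CT.b CT.l CT.l)) (CT.a (CT.b CT.l CT.l) (CT.b CT.l CT.l))) (CT.b (CT.a (CT.b CT.l CT.l) (CT.b CT.l CT.l)) (CT.a (CT.b CT.l CT.l) (CT.b CT.l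 CT.l)))))) 549755813888 274877906944 824633720832 824633720832 389231411200 389231411200 1236950581248 412316860416 = true := by decide +kernel

theorem chkG_17 : chk testG (CT.b (CT.d (CT.b (CT.a (CT.b (CT.a CT.l CT.l) (CT.a CT.l CT.l)) (CT.b (CT.a CT.l (CT.d CT.l CT.l)) (CT.a CT.l (CT.d CT.l CT.l)))) (CT.a (CT.b (CT.a CT.l CT.l) (CT.a CT.l CT.l)) (CT.b (CT.a CT.l (CT.d CT.l CT.l)) (CT.a CT.l (CT.d CT.l CT.l))))) (CT.b (CT.a (CT.b (CT.a CT.l (CT.d CT.l CT.l)) (CT.a CT.l (CT.d CT.l CT.l))) (CT.b (CT.a (CT.d CT.l CT.l) (CT.d CT.l CT.l)) (CT.a (CT.d CT.l CT.l) (CT.d CT.l CT.l)))) (CT.a (CT.b (CT.a CT.l CT.l) (CT.a CT.l CT.l)) (CT.b (CT.a (CT.d CT.l CT.l) (CT.d CT.l CT.l)) (CT.a (CT.d CT.l CT.l) (CT.d CT.l CT.l)))))) (CT.d (CT.a (CT.b (CT.a (CT.b CT.l CT.l) (CT.b CT.l CT.l)) (CT.a (CT.b CT.l CT.l)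 (CT.b CT.l (CT.d CT.l CT.l)))) (CT.b (CT.a (CT.b CT.l CT.l) (CT.b (CT.d CT.l CT.l) (CT.d CT.l CT.l))) (CT.a (CT.b (CT.d CT.l CT.l) (CT.d CT.l (CT.a CT.l CT.l))) (CT.b (CT.d (CT.a CT.l CT.l) (CT.a CT.l CT.l)) (CT.d (CT.a CT.l (CT.b CT.l CT.l)) (CT.a CT.l (CT.b CT.l CT.l))))))) (CT.a (CT.b (CT.a (CT.b CT.l CT.l) (CT.b CT.l (CT.d CT.l CT.l))) (CT.a (CT.b CT.l (CT.a CT.l CT.l)) (CT.b (CT.d CT.l CT.l) (CT.d CT.l CT.l)))) (CT.b (CT.a (CT.b (CT.d CT.l CT.l) (CT.d CT.l CT.l)) (CT.b (CT.d CT.l CT.l) (CT.d CT.l (CT.a CT.l CT.l)))) (CT.a (CT.b (CT.d CT.l CT.l) (CT.d (CT.a CT.l CT.l) (CT.a CT.l CT.l))) (CT.b (CT.d (CT.a CT.l CT.l) (CT.a CT.l CT.l)) (CT.d (CT.a CT.l (CT.b CT.l (CT.d CT.l CT.l))) (CT.a (CT.b CT.l CT.l) (CT.b CT.l (CT.d CT.l CT.l)))))))))) 824633720832 274877906944 824633720832 824633720832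 389231411200 389231411200 1236950581248 412316860416 = true := by decide +kernel

end Vale.Agent.Lib.P154
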