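import Mathlib
import Vale.Agent.Lib.P154.TMMirror

/-!
Soundness of the box checker.
-/

namespace Vale.Agent.Lib.P154

/-- Membership in a box, the bounds scaled by `2^40`. -/
def InBox (l1 w1 l2 w2 l3 w3 l4 w4 : ℕ) (v1 v2 v3 v4 : ℝ) : Prop :=
  (l1 : ℝ) / DD ≤ v1 ∧ v1 ≤ ((l1 : ℝ) + w1) / DD ∧
  (l2 : ℝ) / DD ≤ v2 ∧ v2 ≤ ((l2 : ℝ) + w2) / DD ∧
  (l3 : ℝ) / DD ≤ v3 ∧ v3 ≤ ((l3 : ℝ) + w3) / DD ∧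
  (l4 : ℝ) / DD ≤ v4 ∧ v4 ≤ ((l4 : ℝ) + w4) / DD

/-- The property holds on a whole box. -/
def Good (Φ : ℝ → ℝ → ℝ → ℝ → Prop) (l1 w1 l2 w2 l3 w3 l4 w4 : ℕ) : Prop :=
  ∀ v1 v2 v3 v4 : ℝ, InBox l1 w1 l2 w2 l3 w3 l4 w4 v1 v2 v3 v4 → Φ v1 v2 v3 v4

lemma split_cases (l w : ℕ) (v : ℝ) (h1 : (l : ℝ) / DD ≤ v) (h2 : v ≤ ((l : ℝ) + w) / DD) :
    ((l : ℝ) / DD ≤ v ∧ v ≤ ((l : ℝ) + (Nat.shiftRight w 1 : ℕ)) / DD) ∨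
    (((Nat.add l (Nat.shiftRight w 1) : ℕ) : ℝ) / DD ≤ v ∧
      v ≤ (((Nat.add l (Nat.shiftRight w 1) : ℕ) : ℝ) + (Nat.sub w (Nat.shiftRight w 1) : ℕ)) / DD) := by
  have hD := DD_pos
  have hh : Nat.shiftRight w 1 ≤ w := by
    have : Nat.shiftRight w 1 = w / 2 := by simp [Nat.shiftRight_eq_div_pow]
    rw [this]; omega
  rcases le_total v (((l : ℝ) + (Nat.shiftRight w 1 : ℕ)) / DD) with h | h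
  · exact Or.inl ⟨h1, h⟩
  · refine Or.inr ⟨?_, ?_⟩
    · rw [cast_nadd]; exact h
    · rw [cast_nadd]
      simp only [Nat.sub_eq]
      rw [Nat.cast_sub hh]
      convert h2 using 2
      ring

theorem good_a {Φ : ℝ → ℝ → ℝ → ℝ → Prop} {l1 w1 l2 w2 l3 w3 l4 w4 : ℕ}
    (h1 : Good Φ l1 (Nat.shiftRight w1 1) l2 w2 l3 w3 l4 w4)
    (h2 : Good Φ (Nat.add l1 (Nat.shiftRight w1 1)) (Nat.sub w1 (Nat.shiftRight w1 1)) l2 w2 l3 w3 l4 w4) :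
    Good Φ l1 w1 l2 w2 l3 w3 l4 w4 := by
  rintro v1 v2 v3 v4 ⟨a1, a2, b1, b2, c1, c2, d1, d2⟩
  rcases split_cases l1 w1 v1 a1 a2 with ⟨x, y⟩ | ⟨x, y⟩
  · exact h1 v1 v2 v3 v4 ⟨x, y, b1, b2, c1, c2, d1, d2⟩
  · exact h2 v1 v2 v3 v4 ⟨x, y, b1, b2, c1, c2, d1, d2⟩

theorem good_b {Φ : ℝ → ℝ → ℝ → ℝ → Prop} {l1 w1 l2 w2 l3 w3 l4 w4 : ℕ}
    (h1 : Good Φ l1 w1 l2 (Nat.shiftRight w2 1) l3 w3 l4 w4)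
    (h2 : Good Φ l1 w1 (Nat.add l2 (Nat.shiftRight w2 1)) (Nat.sub w2 (Nat.shiftRight w2 1)) l3 w3 l4 w4) :
    Good Φ l1 w1 l2 w2 l3 w3 l4 w4 := by
  rintro v1 v2 v3 v4 ⟨a1, a2, b1, b2, c1, c2, d1, d2⟩
  rcases split_cases l2 w2 v2 b1 b2 with ⟨x, y⟩ | ⟨x, y⟩
  · exact h1 v1 v2 v3 v4 ⟨a1, a2, x, y, c1, c2, d1, d2⟩
  · exact h2 v1 v2 v3 v4 ⟨a1, a2, x, y, c1, c2, d1, d2⟩

theorem good_c {Φ : ℝ → ℝ → ℝ → ℝ → Prop} {l1 w1 l2 w2 l3 w3 l4 w4 : ℕ}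
    (h1 : Good Φ l1 w1 l2 w2 l3 (Nat.shiftRight w3 1) l4 w4)
    (h2 : Good Φ l1 w1 l2 w2 (Nat.add l3 (Nat.shiftRight w3 1)) (Nat.sub w3 (Nat.shiftRight w3 1)) l4 w4) :
    Good Φ l1 w1 l2 w2 l3 w3 l4 w4 := by
  rintro v1 v2 v3 v4 ⟨a1, a2, b1, b2, c1, c2, d1, d2⟩
  rcases split_cases l3 w3 v3 c1 c2 with ⟨x, y⟩ | ⟨x, y⟩
  · exact h1 v1 v2 v3 v4 ⟨a1, a2, b1, b2, x, y, d1, d2⟩
  · exact h2 v1 v2 v3 v4 ⟨a1, a2, b1, b2, x, y, d1, d2⟩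

theorem good_d {Φ : ℝ → ℝ → ℝ → ℝ → Prop} {l1 w1 l2 w2 l3 w3 l4 w4 : ℕ}
    (h1 : Good Φ l1 w1 l2 w2 l3 w3 l4 (Nat.shiftRight w4 1))
    (h2 : Good Φ l1 w1 l2 w2 l3 w3 (Nat.add l4 (Nat.shiftRight w4 1)) (Nat.sub w4 (Nat.shiftRight w4 1))) :
    Good Φ l1 w1 l2 w2 l3 w3 l4 w4 := by
  rintro v1 v2 v3 v4 ⟨a1, a2, b1, b2, c1, c2, d1, d2⟩
  rcases split_cases l4 w4 v4 d1 d2 with ⟨x, y⟩ | ⟨x, y⟩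
  · exact h1 v1 v2 v3 v4 ⟨a1, a2, b1, b2, c1, c2, x, y⟩
  · exact h2 v1 v2 v3 v4 ⟨a1, a2, b1, b2, c1, c2, x, y⟩

/-- Soundness of the tree check. -/
theorem chk_sound {test : ℕ → ℕ → ℕ → ℕ → ℕ → ℕ → ℕ → ℕ → Bool} {Φ : ℝ → ℝ → ℝ → ℝ → Prop}
    (htest : ∀ l1 w1 l2 w2 l3 w3 l4 w4, test l1 w1 l2 w2 l3 w3 l4 w4 = true →
      Good Φ l1 w1 l2 w2 l3 w3 l4 w4) (t : CT) :
    ∀ l1 w1 l2 w2 l3 w3 l4 w4, chk test t l1 w1 l2 w2 l3 w3 l4 w4 = true →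
      Good Φ l1 w1 l2 w2 l3 w3 l4 w4 := by
  induction t with
  | l => exact htest
  | a s t hs ht =>
    intro l1 w1 l2 w2 l3 w3 l4 w4 h
    have h' : (and (chk test s l1 (Nat.shiftRight w1 1) l2 w2 l3 w3 l4 w4)
        (chk test t (Nat.add l1 (Nat.shiftRight w1 1)) (Nat.sub w1 (Nat.shiftRight w1 1)) l2 w2 l3 w3 l4 w4)) = true := h
    rw [Bool.and_eq_true] at h'
    exact good_a (hs _ _ _ _ _ _ _ _ h'.1) (ht _ _ _ _ _ _ _ _ h'.2)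
  | b s t hs ht =>
    intro l1 w1 l2 w2 l3 w3 l4 w4 h
    have h' : (and (chk test s l1 w1 l2 (Nat.shiftRight w2 1) l3 w3 l4 w4)
        (chk test t l1 w1 (Nat.add l2 (Nat.shiftRight w2 1)) (Nat.sub w2 (Nat.shiftRight w2 1)) l3 w3 l4 w4)) = true := h
    rw [Bool.and_eq_true] at h'
    exact good_b (hs _ _ _ _ _ _ _ _ h'.1) (ht _ _ _ _ _ _ _ _ h'.2)
  | c s t hs ht =>
    intro l1 w1 l2 w2 l3 w3 l4 w4 h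
    have h' : (and (chk test s l1 w1 l2 w2 l3 (Nat.shiftRight w3 1) l4 w4)
        (chk test t l1 w1 l2 w2 (Nat.add l3 (Nat.shiftRight w3 1)) (Nat.sub w3 (Nat.shiftRight w3 1)) l4 w4)) = true := h
    rw [Bool.and_eq_true] at h'
    exact good_c (hs _ _ _ _ _ _ _ _ h'.1) (ht _ _ _ _ _ _ _ _ h'.2)
  | d s t hs ht =>
    intro l1 w1 l2 w2 l3 w3 l4 w4 h
    have h' : (and (chk test s l1 w1 l2 w2 l3 w3 l4 (Nat.shiftRight w4 1))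
        (chk test t l1 w1 l2 w2 l3 w3 (Nat.add l4 (Nat.shiftRight w4 1)) (Nat.sub w4 (Nat.shiftRight w4 1)))) = true := h
    rw [Bool.and_eq_true] at h'
    exact good_d (hs _ _ _ _ _ _ _ _ h'.1) (ht _ _ _ _ _ _ _ _ h'.2)

/-- What the checker establishes for `F1`. -/
def PhiF (R X Q Y : ℝ) : Prop :=
  0 < (progFR R X Q Y).1 ∧ 0 < (progFR R X Q Y).2.1 ∧ 0 < (progFR R X Q Y).2.2.1 ∧
  0 < (progFR R X Q Y).2.2.2.1 ∧ 0 < (progFR R X Q Y).2.2.2.2.1 ∧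
  0 < (progFR R X Q Y).2.2.2.2.2.1 ∧ 0 < (progFR R X Q Y).2.2.2.2.2.2.1 ∧
  0 ≤ (progFR R X Q Y).2.2.2.2.2.2.2

/-- What the checker establishes for `G2`. -/
def PhiG (R X Q Y : ℝ) : Prop :=
  0 < (progGR R X Q Y).1 ∧ 0 < (progGR R X Q Y).2.1 ∧ 0 < (progGR R X Q Y).2.2.1 ∧
  0 < (progGR R X Q Y).2.2.2.1 ∧ 0 < (progGR R X Q Y).2.2.2.2.1 ∧
  0 < (progGR R X Q Y).2.2.2.2.2.1 ∧ 0 < (progGR R X Q Y).2.2.2.2.2.2.1 ∧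
  0 ≤ (progGR R X Q Y).2.2.2.2.2.2.2

theorem testF_sound (l1 w1 l2 w2 l3 w3 l4 w4 : ℕ) (h : testF l1 w1 l2 w2 l3 w3 l4 w4 = true) :
    Good PhiF l1 w1 l2 w2 l3 w3 l4 w4 := by
  rintro v1 v2 v3 v4 ⟨a1, a2, b1, b2, c1, c2, d1, d2⟩
  obtain ⟨P, h1, h2, h3, h4⟩ := pt_exists l1 w1 l2 w2 l3 w3 l4 w4 v1 v2 v3 v4 a1 a2 b1 b2 c1 c2 d1 d2
  unfold testF at h
  simp only [Bool.and_eq_true] at h
  obtain ⟨p0, p1, p2, p3, p4, p5, p6, p7⟩ := h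
  obtain ⟨m0, m1, m2, m3, m4, m5, m6, m7⟩ := mem_progF h1 h2 h3 h4 p0 p1 p2 p3 p4 p5 p6
  exact ⟨mem_pos m0 p0, mem_pos m1 p1, mem_pos m2 p2, mem_pos m3 p3, mem_pos m4 p4, mem_pos m5 p5,
    mem_pos m6 p6, mem_nonneg m7 p7⟩

theorem testG_sound (l1 w1 l2 w2 l3 w3 l4 w4 : ℕ) (h : testG l1 w1 l2 w2 l3 w3 l4 w4 = true) :
    Good PhiG l1 w1 l2 w2 l3 w3 l4 w4 := by
  rintro v1 v2 v3 v4 ⟨a1, a2, b1, b2, c1, c2, d1, d2⟩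
  obtain ⟨P, h1, h2, h3, h4⟩ := pt_exists l1 w1 l2 w2 l3 w3 l4 w4 v1 v2 v3 v4 a1 a2 b1 b2 c1 c2 d1 d2
  unfold testG at h
  simp only [Bool.and_eq_true] at h
  obtain ⟨p0, p1, p2, p3, p4, p5, p6, p7⟩ := h
  obtain ⟨m0, m1, m2, m3, m4, m5, m6, m7⟩ := mem_progG h1 h2 h3 h4 p0 p1 p2 p3 p4 p5 p6
  exact ⟨mem_pos m0 p0, mem_pos m1 p1, mem_pos m2 p2, mem_pos m3 p3, mem_pos m4 p4, mem_pos m5 p5,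
    mem_pos m6 p6, mem_nonneg m7 p7⟩

/-- Scaling of the top box. -/
lemma inBox_top {R X Q Y : ℝ} (h1 : 0 ≤ R) (h2 : R ≤ 1) (h3 : 0 ≤ X) (h4 : X ≤ 3 / 2)
    (h5 : 0 ≤ Q) (h6 : Q ≤ 725 / 1024) (h7 : 0 ≤ Y) (h8 : Y ≤ 3 / 2) :
    InBox 0 1099511627776 0 1649267441664 0 778462822400 0 1649267441664 R X Q Y := by
  unfold InBox DD
  norm_num
  exact ⟨h1, by linarith, h3, by linarith, h5, by linarith, h7, by linarith⟩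

end Vale.Agent.Lib.P154
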