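import Mathlib
import Vale.Agent.Lib.P154.TMCheck
import Vale.Agent.Lib.P154.ChkF0
import Vale.Agent.Lib.P154.ChkF1
import Vale.Agent.Lib.P154.ChkF2
import Vale.Agent.Lib.P154.ChkF3
import Vale.Agent.Lib.P154.ChkF4
import Vale.Agent.Lib.P154.ChkF5
import Vale.Agent.Lib.P154.ChkF6
import Vale.Agent.Lib.P154.ChkF7
import Vale.Agent.Lib.P154.ChkG0
import Vale.Agent.Lib.P154.ChkG1
import Vale.Agent.Lib.P154.ChkG2
import Vale.Agent.Lib.P154.ChkG3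
import Vale.Agent.Lib.P154.ChkG4

/-!
Generated: assembling the box checks.
-/

namespace Vale.Agent.Lib.P154

theorem goodF_top : Good PhiF 0 1099511627776 0 1649267441664 0 778462822400 0 1649267441664 :=
  (good_c (good_d (good_d (chk_sound testF_sound _ _ _ _ _ _ _ _ _ chkF_0) (chk_sound testF_sound _ _ _ _ _ _ _ _ _ chkF_1)) (good_a (chk_sound testF_sound _ _ _ _ _ _ _ _ _ chkF_2) (good_b (chk_sound testF_sound _ _ _ _ _ _ _ _ _ chkF_3) (good_d (chk_sound testF_sound _ _ _ _ _ _ _ _ _ chkF_4) (chk_sound testF_sound _ _ _ _ _ _ _ _ _ chkF_5))))) (good_d (good_b (chk_sound testF_sound _ _ _ _ _ _ _ _ _ chkF_6) (good_a (chk_sound testF_sound _ _ _ _ _ _ _ _ _ chkF_7) (good_d (chk_sound testF_sound _ _ _ _ _ _ _ _ _ chkF_8) (good_a (chk_sound testF_sound _ _ _ _ _ _ _ _ _ chkF_9) (chk_sound testF_sound _ _ _ _ _ _ _ _ _ chkF_10))))) (good_a (good_d (good_b (chk_sound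 testF_sound _ _ _ _ _ _ _ _ _ chkF_11) (chk_sound testF_sound _ _ _ _ _ _ _ _ _ chkF_12)) (good_a (chk_sound testF_sound _ _ _ _ _ _ _ _ _ chkF_13) (good_b (chk_sound testF_sound _ _ _ _ _ _ _ _ _ chkF_14) (chk_sound testF_sound _ _ _ _ _ _ _ _ _ chkF_15)))) (good_b (good_d (chk_sound testF_sound _ _ _ _ _ _ _ _ _ chkF_16) (good_b (chk_sound testF_sound _ _ _ _ _ _ _ _ _ chkF_17) (chk_sound testF_sound _ _ _ _ _ _ _ _ _ chkF_18))) (good_d (good_a (chk_sound testF_sound _ _ _ _ _ _ _ _ _ chkF_19) (chk_sound testF_sound _ _ _ _ _ _ _ _ _ chkF_20)) (good_a (good_b (chk_sound testF_sound _ _ _ _ _ _ _ _ _ chkF_21) (chk_sound testF_sound _ _ _ _ _ _ _ _ _ chkF_22)) (good_b (chk_sound testF_sound _ _ _ _ _ _ _ _ _ chkF_23) (good_a (chk_sound testF_sound _ _ _ _ _ _ _ _ _ chkF_24) (chk_sound testF_sound _ _ _ _ _ _ _ _ _ chkF_25)))))))))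

theorem goodG_top : Good PhiG 0 1099511627776 0 1649267441664 0 778462822400 0 1649267441664 :=
  (good_c (good_d (chk_sound testG_sound _ _ _ _ _ _ _ _ _ chkG_0) (chk_sound testG_sound _ _ _ _ _ _ _ _ _ chkG_1)) (good_d (good_d (good_b (chk_sound testG_sound _ _ _ _ _ _ _ _ _ chkG_2) (chk_sound testG_sound _ _ _ _ _ _ _ _ _ chkG_3)) (good_b (chk_sound testG_sound _ _ _ _ _ _ _ _ _ chkG_4) (chk_sound testG_sound _ _ _ _ _ _ _ _ _ chkG_5))) (good_a (good_d (chk_sound testG_sound _ _ _ _ _ _ _ _ _ chkG_6) (good_a (chk_sound testG_sound _ _ _ _ _ _ _ _ _ chkG_7) (chk_sound testG_sound _ _ _ _ _ _ _ _ _ chkG_8))) (good_d (good_b (good_b (chk_sound testG_sound _ _ _ _ _ _ _ _ _ chkG_9) (chk_sound testG_sound _ _ _ _ _ _ _ _ _ chkG_10)) (chk_sound testG_sound _ _ _ _ _ _ _ _ _ chkG_11)) (good_b (good_b (good_a (chk_sound testG_sound _ _ _ _ _ _ _ _ _ chkG_12) (good_b (chk_sound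 testG_sound _ _ _ _ _ _ _ _ _ chkG_13) (chk_sound testG_sound _ _ _ _ _ _ _ _ _ chkG_14))) (chk_sound testG_sound _ _ _ _ _ _ _ _ _ chkG_15)) (good_a (chk_sound testG_sound _ _ _ _ _ _ _ _ _ chkG_16) (chk_sound testG_sound _ _ _ _ _ _ _ _ _ chkG_17)))))))

/-- The verified bounds for `F1`. -/
theorem phiF_box {R X Q Y : ℝ} (h1 : 0 ≤ R) (h2 : R ≤ 1) (h3 : 0 ≤ X) (h4 : X ≤ 3 / 2)
    (h5 : 0 ≤ Q) (h6 : Q ≤ 725 / 1024) (h7 : 0 ≤ Y) (h8 : Y ≤ 3 / 2) : PhiF R X Q Y :=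
  goodF_top R X Q Y (inBox_top h1 h2 h3 h4 h5 h6 h7 h8)

/-- The verified bounds for `G2`. -/
theorem phiG_box {R X Q Y : ℝ} (h1 : 0 ≤ R) (h2 : R ≤ 1) (h3 : 0 ≤ X) (h4 : X ≤ 3 / 2)
    (h5 : 0 ≤ Q) (h6 : Q ≤ 725 / 1024) (h7 : 0 ≤ Y) (h8 : Y ≤ 3 / 2) : PhiG R X Q Y :=
  goodG_top R X Q Y (inBox_top h1 h2 h3 h4 h5 h6 h7 h8)

end Vale.Agent.Lib.P154
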