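import Mathlib
import Vale.Agent.Lib.P154.TMBox
import Vale.Agent.Lib.P154.ChartCore
import Vale.Agent.Lib.P154.ChartMirror

/-!
The inequalities (I) and (II) in the sorted chart.
-/

namespace Vale.Agent.Lib.P154

open Finset BigOperators

/-- The message in chart coordinates. -/
noncomputable def chartV (ρ x : ℝ) : Fin 3 → ℝ := ![-ρ, ρ * (1 / 2 - x), ρ * (1 / 2 + x)]

lemma sS_chart (ρ x : ℝ) : sS (chartV ρ x) = ssC ρ x := by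
  simp only [sS, chartV, ssC, sigC, Fin.sum_univ_three]
  simp
  ring

lemma cC_chart (ρ x : ℝ) : cC (chartV ρ x) = 3 * c3C ρ x := by
  simp only [cC, chartV, c3C, rg3C, Fin.sum_univ_three]
  simp
  ring

lemma gG_chart (ρ x : ℝ) : gG (chartV ρ x) = 1 - ssC ρ x / 2 + c3C ρ x := by
  simp only [gG, chartV, ssC, c3C, sigC, rg3C, Fin.prod_univ_three]
  simp
  ring

lemma sum_chart (ρ x : ℝ) : ∑ i, chartV ρ x i = 0 := by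
  simp only [chartV, Fin.sum_univ_three]
  simp
  ring

/-- The value of one merge term in the chart. -/
lemma term_bounds (ρ x r v0 v1 v2 GG : ℝ) (w : Fin 3 → ℝ) (h0 : w 0 = r * v0) (h1 : w 1 = r * v1)
    (h2 : w 2 = r * v2) (hv : v0 + v1 + v2 = 0) (hm : 0 < 1 + (r * ρ) * alC x v0 v1 v2)
    (hG : ((1 - ρ) * (1 + ρ * (1 / 2 - x)) * (1 + ρ * (1 / 2 + x))) *
      ((1 + r * v0) * (1 + r * v1) * (1 + r * v2)) = GG) :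
    mM (chartV ρ x) w = 1 + (r * ρ) * alC x v0 v1 v2 ∧
    sS (vV (chartV ρ x) w) = ssC ρ x + (1 + (r * ρ) * alC x v0 v1 v2)⁻¹ *
      (2 * ((r * ρ) * LC ρ x v0 v1 v2) + (1 + (r * ρ) * alC x v0 v1 v2)⁻¹ * (r ^ 2 * QC ρ x v0 v1 v2)) ∧
    Tval GG (1 + (r * ρ) * alC x v0 v1 v2) (1 + (r * ρ) * alC x v0 v1 v2)⁻¹
      (2 * ((r * ρ) * LC ρ x v0 v1 v2) + (1 + (r * ρ) * alC x v0 v1 v2)⁻¹ * (r ^ 2 * QC ρ x v0 v1 v2))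
      (ssC ρ x) ≤
    (1 + (r * ρ) * alC x v0 v1 v2) * xX (vV (chartV ρ x) w) := by
  set A := alC x v0 v1 v2 with hA
  set m := 1 + (r * ρ) * A with hmdef
  have hib : m * m⁻¹ = 1 := mul_inv_cancel₀ hm.ne'
  set ib := m⁻¹ with hibdef
  have hmM : mM (chartV ρ x) w = m := by
    simp only [mM, chartV, Fin.sum_univ_three, h0, h1, h2]
    simp
    rw [hmdef, hA, alC]
    ring
  have hV : ∀ i, vV (chartV ρ x) w i = (1 + chartV ρ x i) * (1 + w i) * ib - 1 := by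
    intro i
    simp only [vV, hmM, div_eq_mul_inv, hibdef]
  have hU0 : chartV ρ x 0 = -ρ := by simp [chartV]
  have hU1 : chartV ρ x 1 = ρ * (1 / 2 - x) := by simp [chartV]
  have hU2 : chartV ρ x 2 = ρ * (1 / 2 + x) := by simp [chartV]
  obtain ⟨ev1, ev2⟩ := merge_vals (-ρ) (ρ * (1 / 2 - x)) (ρ * (1 / 2 + x)) (r * v0) (r * v1) (r * v2) m ib
    (by ring) (by linear_combination r * hv) (by rw [hmdef, hA, alC]; ring) hib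
  have hm1 : m - 1 = (r * ρ) * A := by rw [hmdef]; ring
  rw [hm1] at ev1
  have hss : sS (vV (chartV ρ x) w) = ssC ρ x + ib *
      (2 * ((r * ρ) * LC ρ x v0 v1 v2) + ib * (r ^ 2 * QC ρ x v0 v1 v2)) := by
    simp only [sS, Fin.sum_univ_three, hV, h0, h1, h2, hU0, hU1, hU2]
    rw [ev1]
    simp only [ssC, sigC, LC, QC, ← hA]
    ring
  have hcc : cC (vV (chartV ρ x) w) = 3 * GG * ib ^ 3 - 3 + (3 / 2) * sS (vV (chartV ρ x) w) := by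
    simp only [cC, sS, Fin.sum_univ_three, hV, h0, h1, h2, hU0, hU1, hU2]
    rw [ev2, ← hG]
    ring
  have hs0 : 0 ≤ ssC ρ x := by
    rw [← sS_chart]
    exact Finset.sum_nonneg (fun i _ => sq_nonneg _)
  have hs' : 0 ≤ sS (vV (chartV ρ x) w) := Finset.sum_nonneg (fun i _ => sq_nonneg _)
  refine ⟨hmM, hss, ?_⟩
  have := merge_lower (GG := GG) hm hib hs0 hs' hss hcc
  exact this

/-- The first functional at the chart point. -/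
lemma xX_chart (ρ x : ℝ) : xX (chartV ρ x) =
    3 * c3C ρ x - (3 / 64) * ssC ρ x ^ 2 * (1 - (3 / 64) * ssC ρ x) := by
  rw [xX, sS_chart, cC_chart]

lemma wv0 (ρ' y : ℝ) (g : Equiv.Perm (Fin 3)) (i : Fin 3) (h : g i = 0) :
    (fun i => eps0 * chartV ρ' y (g i)) i = (128 / 181 * ρ') * (-1) := by
  simp only [h, eps0, chartV]; simp

lemma wv1 (ρ' y : ℝ) (g : Equiv.Perm (Fin 3)) (i : Fin 3) (h : g i = 1) :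
    (fun i => eps0 * chartV ρ' y (g i)) i = (128 / 181 * ρ') * (1 / 2 - y) := by
  simp only [h, eps0, chartV]; simp; ring

lemma wv2 (ρ' y : ℝ) (g : Equiv.Perm (Fin 3)) (i : Fin 3) (h : g i = 2) :
    (fun i => eps0 * chartV ρ' y (g i)) i = (128 / 181 * ρ') * (1 / 2 + y) := by
  simp only [h, eps0, chartV]; simp; ring

lemma eps3_xX (ρ' y r τ fS : ℝ) (hr : r = 128 / 181 * ρ') (hσ : 0 < sigC y)
    (hτ : τ = ((3 : ℕ) : ℝ) * (r * (y ^ 2 - 1 / 4) * (sigC y)⁻¹))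
    (hfS : fS = (543 / 8192) * (r ^ 2 * sigC y * (1 - (98283 / 1048576) * (r ^ 2 * sigC y)))) :
    eps0 ^ 3 * xX (chartV ρ' y) = r ^ 2 * sigC y * τ - r ^ 2 * sigC y * fS := by
  have h1 : r ^ 2 * sigC y * τ = 3 * r ^ 3 * (y ^ 2 - 1 / 4) := by
    rw [hτ]
    push_cast
    field_simp
  rw [h1, hfS, xX_chart, hr, eps0]
  simp only [c3C, ssC, rg3C]
  ring

lemma Gw_gen (ρ x r y τ v0 v1 v2 : ℝ) (hτσ : r ^ 2 * (r * (y ^ 2 - 1 / 4)) = r ^ 2 * sigC y * τ / 3)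
    (h1 : v0 + v1 + v2 = 0) (h2 : v0 ^ 2 + v1 ^ 2 + v2 ^ 2 = sigC y)
    (h3 : v0 ^ 3 + v1 ^ 3 + v2 ^ 3 = 3 * (y ^ 2 - 1 / 4)) :
    ((1 - ρ) * (1 + ρ * (1 / 2 - x)) * (1 + ρ * (1 / 2 + x))) *
      ((1 + r * v0) * (1 + r * v1) * (1 + r * v2)) =
      (1 - ρ ^ 2 * sigC x / 2 + ρ ^ 2 * rg3C ρ x) * (1 - r ^ 2 * sigC y / 2 + r ^ 2 * sigC y * τ / 3) := by
  have e1 : (1 - ρ) * (1 + ρ * (1 / 2 - x)) * (1 + ρ * (1 / 2 + x)) =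
      1 - ρ ^ 2 * sigC x / 2 + ρ ^ 2 * rg3C ρ x := by
    simp only [sigC, rg3C]; ring
  have e2 : (1 + r * v0) * (1 + r * v1) * (1 + r * v2) =
      1 - r ^ 2 * sigC y / 2 + r ^ 2 * sigC y * τ / 3 := by
    have hv2 : v2 = -v0 - v1 := by linarith
    rw [← hτσ, ← h2]
    have : r ^ 2 * (r * (y ^ 2 - 1 / 4)) = r ^ 3 * ((v0 ^ 3 + v1 ^ 3 + v2 ^ 3) / 3) := by
      rw [h3]; ring
    rw [this, hv2]
    ring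
  rw [e1, e2]

lemma sig_bounds {y : ℝ} (h6 : 0 ≤ y) (h7 : y ≤ 3 / 2) : 0 < sigC y ∧ sigC y ≤ 6 := by
  rw [sigC]
  constructor <;> nlinarith

lemma F0_nonneg {r σ : ℝ} (hr0 : 0 ≤ r) (hr1 : r ≤ 725 / 1024) (hσ : 0 < σ) (hσ1 : σ ≤ 6) :
    0 ≤ (543 / 8192) * (r ^ 2 * σ * (1 - (98283 / 1048576) * (r ^ 2 * σ))) - (3 / 64) * (r ^ 2 * σ) := by
  have hS0 : 0 ≤ r ^ 2 * σ := mul_nonneg (sq_nonneg _) hσ.le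
  have hS1 : r ^ 2 * σ ≤ 302 / 100 := by
    have h : r ^ 2 ≤ (725 / 1024) ^ 2 := pow_le_pow_left₀ hr0 hr1 2
    have h2 : r ^ 2 * σ ≤ (725 / 1024) ^ 2 * 6 :=
      mul_le_mul h hσ1 hσ.le (by positivity)
    linarith [h2, (by norm_num : ((725 : ℝ) / 1024) ^ 2 * 6 ≤ 302 / 100)]
  have : (543 / 8192) * (r ^ 2 * σ * (1 - (98283 / 1048576) * (r ^ 2 * σ))) - (3 / 64) * (r ^ 2 * σ) =
      (r ^ 2 * σ) * ((543 / 8192) * (1 - (98283 / 1048576) * (r ^ 2 * σ)) - 3 / 64) := by ring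
  rw [this]
  apply mul_nonneg hS0
  linarith

/-- The conversion of `F1`. -/
lemma finalF_form (sig rg3 p Hr Lam1 h31 h61 h71 r2 S τ fS r4 B1 B2 B4 B5 B6 : ℝ) :
    finalFR sig rg3 p (p * sig) (1 - (p * sig) / 2 + p * rg3) Hr Lam1 (sig * (p * sig) * (1 - (3 / 64) * (p * sig)))
      h31 h61 h71 r2 S (S * τ / 3) (1 - S / 2 + S * τ / 3) fS r4 τ B1 B2 B4 B5 B6 =
    Fform p S τ sig rg3 Hr Lam1 h31 h61 h71 B1 B2 B4 B5 B6 fS r2 r4 := by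
  rw [finalF_eq, Fform]
  ring

set_option maxHeartbeats 2000000 in
/-- Inequality (I) in the sorted chart. -/
theorem chart_I (ρ x ρ' y : ℝ) (h0 : 0 ≤ ρ) (h1 : ρ ≤ 1) (h2 : 0 ≤ x) (h3 : x ≤ 3 / 2)
    (h4 : 0 ≤ ρ') (h5 : ρ' ≤ 1) (h6 : 0 ≤ y) (h7 : y ≤ 3 / 2) :
    (1 - (5 / 16) * eps0 ^ 2 * sS (chartV ρ' y)) * xX (chartV ρ x) +
        eps0 ^ 3 * gG (chartV ρ x) * (1 - (5 / 32) * sS (chartV ρ x)) * xX (chartV ρ' y) ≤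
      (1 / 6) * ∑ g : Equiv.Perm (Fin 3),
        mM (chartV ρ x) (fun i => eps0 * chartV ρ' y (g i)) *
          xX (vV (chartV ρ x) (fun i => eps0 * chartV ρ' y (g i))) := by
  obtain ⟨r, hr⟩ : ∃ r, r = 128 / 181 * ρ' := ⟨_, rfl⟩
  have hr0 : 0 ≤ r := by rw [hr]; positivity
  have hr1 : r ≤ 725 / 1024 := by rw [hr]; linarith
  obtain ⟨hσ, hσ1⟩ := sig_bounds h6 h7
  have phi := phiF_box h0 h1 h2 h3 hr0 hr1 h6 h7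
  unfold PhiF at phi
  rw [progF_eq] at phi
  dsimp only at phi
  obtain ⟨hm0, hm1, hm2, hm3, hm4, hm5, -, hF⟩ := phi
  have ee0 : 1 + r * (ρ * alC x (-1) (1 / 2 - y) (1 / 2 + y)) = 1 + (r * ρ) * alC x (-1) (1 / 2 - y) (1 / 2 + y) := by ring
  rw [ee0] at hm0
  have ee1 : 1 + r * (ρ * alC x (-1) (1 / 2 + y) (1 / 2 - y)) = 1 + (r * ρ) * alC x (-1) (1 / 2 + y) (1 / 2 - y) := by ring
  rw [ee1] at hm1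
  have ee2 : 1 + r * (ρ * alC x (1 / 2 - y) (-1) (1 / 2 + y)) = 1 + (r * ρ) * alC x (1 / 2 - y) (-1) (1 / 2 + y) := by ring
  rw [ee2] at hm2
  have ee3 : 1 + r * (ρ * alC x (1 / 2 - y) (1 / 2 + y) (-1)) = 1 + (r * ρ) * alC x (1 / 2 - y) (1 / 2 + y) (-1) := by ring
  rw [ee3] at hm3
  have ee4 : 1 + r * (ρ * alC x (1 / 2 + y) (-1) (1 / 2 - y)) = 1 + (r * ρ) * alC x (1 / 2 + y) (-1) (1 / 2 - y) := by ring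
  rw [ee4] at hm4
  have ee5 : 1 + r * (ρ * alC x (1 / 2 + y) (1 / 2 - y) (-1)) = 1 + (r * ρ) * alC x (1 / 2 + y) (1 / 2 - y) (-1) := by ring
  rw [ee5] at hm5
  simp only [ee0, ee1, ee2, ee3, ee4, ee5] at hF
  obtain ⟨τ, hτ⟩ : ∃ τ, τ = ((3 : ℕ) : ℝ) * (r * (y ^ 2 - 1 / 4) * (sigC y)⁻¹) := ⟨_, rfl⟩
  obtain ⟨fS, hfS⟩ : ∃ fS, fS = (543 / 8192) * (r ^ 2 * sigC y * (1 - (98283 / 1048576) * (r ^ 2 * sigC y))) := ⟨_, rfl⟩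
  have hτσ : r * gamC y = τ * sigC y := by
    rw [hτ, gamC]; push_cast; field_simp; (try ring)
  have hC3 : r ^ 2 * (r * (y ^ 2 - 1 / 4)) = r ^ 2 * sigC y * τ / 3 := by
    have e : gamC y = 3 * (y ^ 2 - 1 / 4) := by rw [gamC]; ring
    rw [e] at hτσ
    linear_combination (r ^ 2 / 3) * hτσ
  have hXv := eps3_xX ρ' y r τ fS hr hσ hτ hfS
  have hSv : eps0 ^ 2 * sS (chartV ρ' y) = r ^ 2 * sigC y := by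
    rw [sS_chart, hr, eps0, ssC]; ring
  rw [← hτ, ← hfS, hC3] at hF
  obtain ⟨me0, se0, te0⟩ := term_bounds ρ x r (-1) (1 / 2 - y) (1 / 2 + y) ((1 - ρ ^ 2 * sigC x / 2 + ρ ^ 2 * rg3C ρ x) * (1 - r ^ 2 * sigC y / 2 + r ^ 2 * sigC y * τ / 3))
    (fun i => eps0 * chartV ρ' y (gP 0 i)) (by rw [hr]; exact wv0 ρ' y (gP 0) 0 (by decide))
    (by rw [hr]; exact wv1 ρ' y (gP 0) 1 (by decide)) (by rw [hr]; exact wv2 ρ' y (gP 0) 2 (by decide)) (by ring) hm0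
    (Gw_gen ρ x r y τ _ _ _ hC3 (by ring) (by simp only [sigC]; ring) (by ring))
  obtain ⟨me1, se1, te1⟩ := term_bounds ρ x r (-1) (1 / 2 + y) (1 / 2 - y) ((1 - ρ ^ 2 * sigC x / 2 + ρ ^ 2 * rg3C ρ x) * (1 - r ^ 2 * sigC y / 2 + r ^ 2 * sigC y * τ / 3))
    (fun i => eps0 * chartV ρ' y (gP 1 i)) (by rw [hr]; exact wv0 ρ' y (gP 1) 0 (by decide))
    (by rw [hr]; exact wv2 ρ' y (gP 1) 1 (by decide)) (by rw [hr]; exact wv1 ρ' y (gP 1) 2 (by decide)) (by ring) hm1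
    (Gw_gen ρ x r y τ _ _ _ hC3 (by ring) (by simp only [sigC]; ring) (by ring))
  obtain ⟨me2, se2, te2⟩ := term_bounds ρ x r (1 / 2 - y) (-1) (1 / 2 + y) ((1 - ρ ^ 2 * sigC x / 2 + ρ ^ 2 * rg3C ρ x) * (1 - r ^ 2 * sigC y / 2 + r ^ 2 * sigC y * τ / 3))
    (fun i => eps0 * chartV ρ' y (gP 2 i)) (by rw [hr]; exact wv1 ρ' y (gP 2) 0 (by decide))
    (by rw [hr]; exact wv0 ρ' y (gP 2) 1 (by decide)) (by rw [hr]; exact wv2 ρ' y (gP 2) 2 (by decide)) (by ring) hm2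
    (Gw_gen ρ x r y τ _ _ _ hC3 (by ring) (by simp only [sigC]; ring) (by ring))
  obtain ⟨me3, se3, te3⟩ := term_bounds ρ x r (1 / 2 - y) (1 / 2 + y) (-1) ((1 - ρ ^ 2 * sigC x / 2 + ρ ^ 2 * rg3C ρ x) * (1 - r ^ 2 * sigC y / 2 + r ^ 2 * sigC y * τ / 3))
    (fun i => eps0 * chartV ρ' y (gP 3 i)) (by rw [hr]; exact wv1 ρ' y (gP 3) 0 (by decide))
    (by rw [hr]; exact wv2 ρ' y (gP 3) 1 (by decide)) (by rw [hr]; exact wv0 ρ' y (gP 3) 2 (by decide)) (by ring) hm3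
    (Gw_gen ρ x r y τ _ _ _ hC3 (by ring) (by simp only [sigC]; ring) (by ring))
  obtain ⟨me4, se4, te4⟩ := term_bounds ρ x r (1 / 2 + y) (-1) (1 / 2 - y) ((1 - ρ ^ 2 * sigC x / 2 + ρ ^ 2 * rg3C ρ x) * (1 - r ^ 2 * sigC y / 2 + r ^ 2 * sigC y * τ / 3))
    (fun i => eps0 * chartV ρ' y (gP 4 i)) (by rw [hr]; exact wv2 ρ' y (gP 4) 0 (by decide))
    (by rw [hr]; exact wv0 ρ' y (gP 4) 1 (by decide)) (by rw [hr]; exact wv1 ρ' y (gP 4) 2 (by decide)) (by ring) hm4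
    (Gw_gen ρ x r y τ _ _ _ hC3 (by ring) (by simp only [sigC]; ring) (by ring))
  obtain ⟨me5, se5, te5⟩ := term_bounds ρ x r (1 / 2 + y) (1 / 2 - y) (-1) ((1 - ρ ^ 2 * sigC x / 2 + ρ ^ 2 * rg3C ρ x) * (1 - r ^ 2 * sigC y / 2 + r ^ 2 * sigC y * τ / 3))
    (fun i => eps0 * chartV ρ' y (gP 5 i)) (by rw [hr]; exact wv2 ρ' y (gP 5) 0 (by decide))
    (by rw [hr]; exact wv1 ρ' y (gP 5) 1 (by decide)) (by rw [hr]; exact wv0 ρ' y (gP 5) 2 (by decide)) (by ring) hm5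
    (Gw_gen ρ x r y τ _ _ _ hC3 (by ring) (by simp only [sigC]; ring) (by ring))
  have hσ6 : ∀ A : ℝ, A = 6 * sigC y * (((sigC y)⁻¹ / 2 ^ 1 / 3) * A) := by
    intro A
    have hne := hσ.ne'
    have e6 : 6 * sigC y * ((sigC y)⁻¹ / 2 ^ 1 / 3) = 1 := by
      field_simp
      norm_num
    rw [← mul_assoc, e6, one_mul]
  obtain ⟨B1, hB1⟩ : ∃ B1, B1 = ((sigC y)⁻¹ / 2 ^ 1 / 3) * (alC x (-1) (1 / 2 - y) (1 / 2 + y) ^ 2 * QC ρ x (-1) (1 / 2 - y) (1 / 2 + y) * (1 + (r * ρ) * alC x (-1) (1 / 2 - y) (1 / 2 + y))⁻¹ + alC x (-1) (1 / 2 + y) (1 / 2 - y) ^ 2 * QC ρ x (-1) (1 / 2 + y) (1 / 2 - y) * (1 + (r * ρ) * alC x (-1) (1 / 2 + y) (1 / 2 - y))⁻¹ + alC x (1 / 2 - y) (-1) (1 / 2 + y) ^ 2 * QC ρ x (1 / 2 - y) (-1) (1 / 2 + y) * (1 + (r * ρ) * alC x (1 / 2 - y) (-1) (1 / 2 + y))⁻¹ + alC x (1 / 2 - y)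 (1 / 2 + y) (-1) ^ 2 * QC ρ x (1 / 2 - y) (1 / 2 + y) (-1) * (1 + (r * ρ) * alC x (1 / 2 - y) (1 / 2 + y) (-1))⁻¹ + alC x (1 / 2 + y) (-1) (1 / 2 - y) ^ 2 * QC ρ x (1 / 2 + y) (-1) (1 / 2 - y) * (1 + (r * ρ) * alC x (1 / 2 + y) (-1) (1 / 2 - y))⁻¹ + alC x (1 / 2 + y) (1 / 2 - y) (-1) ^ 2 * QC ρ x (1 / 2 + y) (1 / 2 - y) (-1) * (1 + (r * ρ) * alC x (1 / 2 + y) (1 / 2 - y) (-1))⁻¹) := ⟨_, rfl⟩
  obtain ⟨B2, hB2⟩ : ∃ B2, B2 = ((sigC y)⁻¹ / 2 ^ 1 / 3) * (alC x (-1) (1 / 2 - y) (1 / 2 + y) ^ 2 * ((1 + (r * ρ) * alC x (-1) (1 / 2 - y) (1 / 2 + y))⁻¹ ^ 2 + 2 * (1 + (r * ρ) * alC x (-1) (1 / 2 - y) (1 / 2 + y))⁻¹) + alC x (-1) (1 / 2 + y) (1 / 2 - y) ^ 2 * ((1 + (r * ρ) * alC x (-1) (1 / 2 + y) (1 / 2 - y))⁻¹ ^ 2 + 2 * (1 + (r * ρ) * alC x (-1) (1 / 2 + y) (1 / 2 - y))⁻¹) + alC x (1 / 2 - y) (-1)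 (1 / 2 + y) ^ 2 * ((1 + (r * ρ) * alC x (1 / 2 - y) (-1) (1 / 2 + y))⁻¹ ^ 2 + 2 * (1 + (r * ρ) * alC x (1 / 2 - y) (-1) (1 / 2 + y))⁻¹) + alC x (1 / 2 - y) (1 / 2 + y) (-1) ^ 2 * ((1 + (r * ρ) * alC x (1 / 2 - y) (1 / 2 + y) (-1))⁻¹ ^ 2 + 2 * (1 + (r * ρ) * alC x (1 / 2 - y) (1 / 2 + y) (-1))⁻¹) + alC x (1 / 2 + y) (-1) (1 / 2 - y) ^ 2 * ((1 + (r * ρ) * alC x (1 / 2 + y) (-1) (1 / 2 - y))⁻¹ ^ 2 + 2 * (1 + (r * ρ) * alC x (1 / 2 + y) (-1) (1 / 2 - y))⁻¹) + alC x (1 / 2 + y) (1 / 2 - y) (-1) ^ 2 * ((1 + (r * ρ) * alC x (1 / 2 + y) (1 / 2 - y) (-1))⁻¹ ^ 2 + 2 * (1 + (r * ρ) * alC x (1 / 2 + y) (1 / 2 - y) (-1))⁻¹)) := ⟨_, rfl⟩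
  obtain ⟨B6, hB6⟩ : ∃ B6, B6 = ((sigC y)⁻¹ / 2 ^ 1 / 3) * ((1 + (r * ρ) * alC x (-1) (1 / 2 - y) (1 / 2 + y))⁻¹ * LC ρ x (-1) (1 / 2 - y) (1 / 2 + y) ^ 2 + (1 + (r * ρ) * alC x (-1) (1 / 2 + y) (1 / 2 - y))⁻¹ * LC ρ x (-1) (1 / 2 + y) (1 / 2 - y) ^ 2 + (1 + (r * ρ) * alC x (1 / 2 - y) (-1) (1 / 2 + y))⁻¹ * LC ρ x (1 / 2 - y) (-1) (1 / 2 + y) ^ 2 + (1 + (r * ρ) * alC x (1 / 2 - y) (1 / 2 + y) (-1))⁻¹ * LC ρ x (1 / 2 - y) (1 / 2 + y) (-1) ^ 2 + (1 + (r * ρ) * alC x (1 / 2 + y) (-1) (1 / 2 - y))⁻¹ * LC ρ x (1 / 2 + y) (-1) (1 / 2 - y) ^ 2 + (1 + (r * ρ) * alC x (1 / 2 + y) (1 / 2 - y) (-1))⁻¹ * LC ρ x (1 / 2 + y) (1 / 2 - y) (-1) ^ 2) := ⟨_, rfl⟩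
  obtain ⟨B4, hB4⟩ : ∃ B4, B4 = ((sigC y)⁻¹ / 2 ^ 1 / 3) * (alC x (-1) (1 / 2 - y) (1 / 2 + y) * LC ρ x (-1) (1 / 2 - y) (1 / 2 + y) * (QC ρ x (-1) (1 / 2 - y) (1 / 2 + y) * ((1 + (r * ρ) * alC x (-1) (1 / 2 - y) (1 / 2 + y))⁻¹ ^ 2 + (1 + (r * ρ) * alC x (-1) (1 / 2 - y) (1 / 2 + y))⁻¹)) + alC x (-1) (1 / 2 + y) (1 / 2 - y) * LC ρ x (-1) (1 / 2 + y) (1 / 2 - y) * (QC ρ x (-1) (1 / 2 + y) (1 / 2 - y) * ((1 + (r * ρ) * alC x (-1) (1 / 2 + y) (1 / 2 - y))⁻¹ ^ 2 + (1 + (r * ρ) * alC x (-1) (1 / 2 + y) (1 / 2 - y))⁻¹)) + alC x (1 / 2 - y) (-1) (1 / 2 + y) * LC ρ x (1 / 2 - y) (-1) (1 / 2 + y) * (QC ρ x (1 / 2 - y) (-1) (1 / 2 + y) * ((1 + (r * ρ) * alC x (1 / 2 - y) (-1) (1 / 2 + y))⁻¹ ^ 2 + (1 + (r * ρ) * alC x (1 / 2 - y) (-1) (1 / 2 + y))⁻¹)) + alC x (1 / 2 - y) (1 / 2 + y) (-1) * LC ρ x (1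 / 2 - y) (1 / 2 + y) (-1) * (QC ρ x (1 / 2 - y) (1 / 2 + y) (-1) * ((1 + (r * ρ) * alC x (1 / 2 - y) (1 / 2 + y) (-1))⁻¹ ^ 2 + (1 + (r * ρ) * alC x (1 / 2 - y) (1 / 2 + y) (-1))⁻¹)) + alC x (1 / 2 + y) (-1) (1 / 2 - y) * LC ρ x (1 / 2 + y) (-1) (1 / 2 - y) * (QC ρ x (1 / 2 + y) (-1) (1 / 2 - y) * ((1 + (r * ρ) * alC x (1 / 2 + y) (-1) (1 / 2 - y))⁻¹ ^ 2 + (1 + (r * ρ) * alC x (1 / 2 + y) (-1) (1 / 2 - y))⁻¹)) + alC x (1 / 2 + y) (1 / 2 - y) (-1) * LC ρ x (1 / 2 + y) (1 / 2 - y) (-1) * (QC ρ x (1 / 2 + y) (1 / 2 - y) (-1) * ((1 + (r * ρ) * alC x (1 / 2 + y) (1 / 2 - y) (-1))⁻¹ ^ 2 + (1 + (r * ρ) * alC x (1 / 2 + y) (1 / 2 - y) (-1))⁻¹))) := ⟨_, rfl⟩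
  obtain ⟨B5, hB5⟩ : ∃ B5, B5 = ((sigC y)⁻¹ / 2 ^ 1 / 3) * (alC x (-1) (1 / 2 - y) (1 / 2 + y) ^ 2 * QC ρ x (-1) (1 / 2 - y) (1 / 2 + y) * QC ρ x (-1) (1 / 2 - y) (1 / 2 + y) * ((1 + (r * ρ) * alC x (-1) (1 / 2 - y) (1 / 2 + y))⁻¹ ^ 3 + 2 * (1 + (r * ρ) * alC x (-1) (1 / 2 - y) (1 / 2 + y))⁻¹ ^ 2 + 3 * (1 + (r * ρ) * alC x (-1) (1 / 2 - y) (1 / 2 + y))⁻¹) + alC x (-1) (1 / 2 + y) (1 / 2 - y) ^ 2 * QC ρ x (-1) (1 / 2 + y) (1 / 2 - y) * QC ρ x (-1) (1 / 2 + y) (1 / 2 - y) * ((1 + (r * ρ) * alC x (-1) (1 / 2 + y) (1 / 2 - y))⁻¹ ^ 3 + 2 * (1 + (r * ρ) * alC x (-1) (1 / 2 + y) (1 / 2 - y))⁻¹ ^ 2 + 3 * (1 + (r * ρ) * alC x (-1) (1 / 2 + y) (1 / 2 - y))⁻¹) + alC x (1 / 2 - y) (-1) (1 / 2 + y) ^ 2 * QC ρ x (1 / 2 - y) (-1) (1 / 2 + y) * QC ρ x (1 / 2 - y) (-1) (1 / 2 + y) * ((1 + (r * ρ) * alC x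 (1 / 2 - y) (-1) (1 / 2 + y))⁻¹ ^ 3 + 2 * (1 + (r * ρ) * alC x (1 / 2 - y) (-1) (1 / 2 + y))⁻¹ ^ 2 + 3 * (1 + (r * ρ) * alC x (1 / 2 - y) (-1) (1 / 2 + y))⁻¹) + alC x (1 / 2 - y) (1 / 2 + y) (-1) ^ 2 * QC ρ x (1 / 2 - y) (1 / 2 + y) (-1) * QC ρ x (1 / 2 - y) (1 / 2 + y) (-1) * ((1 + (r * ρ) * alC x (1 / 2 - y) (1 / 2 + y) (-1))⁻¹ ^ 3 + 2 * (1 + (r * ρ) * alC x (1 / 2 - y) (1 / 2 + y) (-1))⁻¹ ^ 2 + 3 * (1 + (r * ρ) * alC x (1 / 2 - y) (1 / 2 + y) (-1))⁻¹) + alC x (1 / 2 + y) (-1) (1 / 2 - y) ^ 2 * QC ρ x (1 / 2 + y) (-1) (1 / 2 - y) * QC ρ x (1 / 2 + y) (-1) (1 / 2 - y) * ((1 + (r * ρ) * alC x (1 / 2 + y) (-1) (1 / 2 - y))⁻¹ ^ 3 + 2 * (1 + (r * ρ) * alC x (1 / 2 + y) (-1) (1 / 2 - y))⁻¹ ^ 2 + 3 * (1 + (r * ρ) * alC x (1 / 2 + y) (-1) (1 / 2 - y))⁻¹) + alC x (1 / 2 + y) (1 / 2 - y) (-1) ^ 2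 * QC ρ x (1 / 2 + y) (1 / 2 - y) (-1) * QC ρ x (1 / 2 + y) (1 / 2 - y) (-1) * ((1 + (r * ρ) * alC x (1 / 2 + y) (1 / 2 - y) (-1))⁻¹ ^ 3 + 2 * (1 + (r * ρ) * alC x (1 / 2 + y) (1 / 2 - y) (-1))⁻¹ ^ 2 + 3 * (1 + (r * ρ) * alC x (1 / 2 + y) (1 / 2 - y) (-1))⁻¹)) := ⟨_, rfl⟩
  rw [← hB1, ← hB2, ← hB6, ← hB4, ← hB5] at hF
  have hss : ssC ρ x = ρ ^ 2 * sigC x := rfl
  have hcc : c3C ρ x = ρ ^ 2 * rg3C ρ x := rfl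
  rw [hss, hcc] at hF
  rw [finalF_form] at hF
  rw [hss] at te0 te1 te2 te3 te4 te5
  have main := abstract_I r ρ τ fS (sigC y) (sigC x) (rg3C ρ x) (hrC ρ x) (lamC ρ x) (h31C ρ x) (h61C ρ x) (h71C ρ x)
    (gamC y) B1 B2 B4 B5 B6
    (alC x (-1) (1 / 2 - y) (1 / 2 + y)) (alC x (-1) (1 / 2 + y) (1 / 2 - y)) (alC x (1 / 2 - y) (-1) (1 / 2 + y)) (alC x (1 / 2 - y) (1 / 2 + y) (-1)) (alC x (1 / 2 + y) (-1) (1 / 2 - y)) (alC x (1 / 2 + y) (1 / 2 - y) (-1))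
    ((1 + (r * ρ) * alC x (-1) (1 / 2 - y) (1 / 2 + y))⁻¹) ((1 + (r * ρ) * alC x (-1) (1 / 2 + y) (1 / 2 - y))⁻¹) ((1 + (r * ρ) * alC x (1 / 2 - y) (-1) (1 / 2 + y))⁻¹) ((1 + (r * ρ) * alC x (1 / 2 - y) (1 / 2 + y) (-1))⁻¹) ((1 + (r * ρ) * alC x (1 / 2 + y) (-1) (1 / 2 - y))⁻¹) ((1 + (r * ρ) * alC x (1 / 2 + y) (1 / 2 - y) (-1))⁻¹)
    (QC ρ x (-1) (1 / 2 - y) (1 / 2 + y)) (QC ρ x (-1) (1 / 2 + y) (1 / 2 - y)) (QC ρ x (1 / 2 - y) (-1) (1 / 2 + y)) (QC ρ x (1 / 2 - y) (1 / 2 + y) (-1)) (QC ρ x (1 / 2 + y) (-1) (1 / 2 - y)) (QC ρ x (1 / 2 + y) (1 / 2 - y) (-1))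
    (LC ρ x (-1) (1 / 2 - y) (1 / 2 + y)) (LC ρ x (-1) (1 / 2 + y) (1 / 2 - y)) (LC ρ x (1 / 2 - y) (-1) (1 / 2 + y)) (LC ρ x (1 / 2 - y) (1 / 2 + y) (-1)) (LC ρ x (1 / 2 + y) (-1) (1 / 2 - y)) (LC ρ x (1 / 2 + y) (1 / 2 - y) (-1))
    _ _ _ _ _ _
    (mul_inv_cancel₀ hm0.ne') (mul_inv_cancel₀ hm1.ne') (mul_inv_cancel₀ hm2.ne')
    (mul_inv_cancel₀ hm3.ne') (mul_inv_cancel₀ hm4.ne') (mul_inv_cancel₀ hm5.ne')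
    (sum_al ρ x y) (sum_L ρ x y) (sum_Q ρ x y) (sum_aQ ρ x y) (sum_LQ ρ x y) (sum_QQ ρ x y) (sum_aQQ ρ x y)
    hτσ (by rw [hB1]; exact (hσ6 _).symm ▸ rfl) (by rw [hB2]; exact (hσ6 _).symm ▸ rfl) (by rw [hB6]; exact (hσ6 _).symm ▸ rfl)
    (by rw [hB4]; exact (hσ6 _).symm ▸ rfl) (by rw [hB5]; exact (hσ6 _).symm ▸ rfl)
    (mul_nonneg (sq_nonneg _) hσ.le) (by rw [hfS]; exact F0_nonneg hr0 hr1 hσ hσ1) hF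
    te0 te1 te2 te3 te4 te5
  rw [sum_perm3]
  simp only [me0, me1, me2, me3, me4, me5]
  have e : (1 - (5 / 16) * eps0 ^ 2 * sS (chartV ρ' y)) * xX (chartV ρ x) +
        eps0 ^ 3 * gG (chartV ρ x) * (1 - (5 / 32) * sS (chartV ρ x)) * xX (chartV ρ' y) =
      (1 - (5 / 16) * (eps0 ^ 2 * sS (chartV ρ' y))) * xX (chartV ρ x) +
        gG (chartV ρ x) * (1 - (5 / 32) * sS (chartV ρ x)) * (eps0 ^ 3 * xX (chartV ρ' y)) := by ring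
  rw [e, hSv, hXv, xX_chart, gG_chart, sS_chart, hss, hcc]
  exact main

set_option maxHeartbeats 2000000 in
/-- Inequality (II) in the sorted chart. -/
theorem chart_II (ρ x ρ' y : ℝ) (h0 : 0 ≤ ρ) (h1 : ρ ≤ 1) (h2 : 0 ≤ x) (h3 : x ≤ 3 / 2)
    (h4 : 0 ≤ ρ') (h5 : ρ' ≤ 1) (h6 : 0 ≤ y) (h7 : y ≤ 3 / 2) :
    (1 / 6) * ∑ g : Equiv.Perm (Fin 3),
        mM (chartV ρ x) (fun i => eps0 * chartV ρ' y (g i)) *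
          sS (vV (chartV ρ x) (fun i => eps0 * chartV ρ' y (g i))) ≤
    sS (chartV ρ x) + eps0 ^ 2 * sS (chartV ρ' y) - (3 / 16) * (eps0 ^ 2 * sS (chartV ρ' y)) * xX (chartV ρ x)
      - eps0 ^ 3 * lL (chartV ρ x) * xX (chartV ρ' y) - (1 / 1024) * (eps0 ^ 2 * sS (chartV ρ' y)) * sS (chartV ρ x) := by
  obtain ⟨r, hr⟩ : ∃ r, r = 128 / 181 * ρ' := ⟨_, rfl⟩
  have hr0 : 0 ≤ r := by rw [hr]; positivity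
  have hr1 : r ≤ 725 / 1024 := by rw [hr]; linarith
  obtain ⟨hσ, hσ1⟩ := sig_bounds h6 h7
  have phi := phiG_box h0 h1 h2 h3 hr0 hr1 h6 h7
  unfold PhiG at phi
  rw [progG_eq] at phi
  dsimp only at phi
  obtain ⟨hm0, hm1, hm2, hm3, hm4, hm5, -, hF⟩ := phi
  have ee0 : 1 + r * (ρ * alC x (-1) (1 / 2 - y) (1 / 2 + y)) = 1 + (r * ρ) * alC x (-1) (1 / 2 - y) (1 / 2 + y) := by ring
  rw [ee0] at hm0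
  have ee1 : 1 + r * (ρ * alC x (-1) (1 / 2 + y) (1 / 2 - y)) = 1 + (r * ρ) * alC x (-1) (1 / 2 + y) (1 / 2 - y) := by ring
  rw [ee1] at hm1
  have ee2 : 1 + r * (ρ * alC x (1 / 2 - y) (-1) (1 / 2 + y)) = 1 + (r * ρ) * alC x (1 / 2 - y) (-1) (1 / 2 + y) := by ring
  rw [ee2] at hm2
  have ee3 : 1 + r * (ρ * alC x (1 / 2 - y) (1 / 2 + y) (-1)) = 1 + (r * ρ) * alC x (1 / 2 - y) (1 / 2 + y) (-1) := by ring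
  rw [ee3] at hm3
  have ee4 : 1 + r * (ρ * alC x (1 / 2 + y) (-1) (1 / 2 - y)) = 1 + (r * ρ) * alC x (1 / 2 + y) (-1) (1 / 2 - y) := by ring
  rw [ee4] at hm4
  have ee5 : 1 + r * (ρ * alC x (1 / 2 + y) (1 / 2 - y) (-1)) = 1 + (r * ρ) * alC x (1 / 2 + y) (1 / 2 - y) (-1) := by ring
  rw [ee5] at hm5
  simp only [ee0, ee1, ee2, ee3, ee4, ee5] at hF
  obtain ⟨τ, hτ⟩ : ∃ τ, τ = ((3 : ℕ) : ℝ) * (r * (y ^ 2 - 1 / 4) * (sigC y)⁻¹) := ⟨_, rfl⟩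
  obtain ⟨fS, hfS⟩ : ∃ fS, fS = (543 / 8192) * (r ^ 2 * sigC y * (1 - (98283 / 1048576) * (r ^ 2 * sigC y))) := ⟨_, rfl⟩
  have hτσ : r * gamC y = τ * sigC y := by
    rw [hτ, gamC]; push_cast; field_simp; (try ring)
  have hC3 : r ^ 2 * (r * (y ^ 2 - 1 / 4)) = r ^ 2 * sigC y * τ / 3 := by
    have e : gamC y = 3 * (y ^ 2 - 1 / 4) := by rw [gamC]; ring
    rw [e] at hτσ
    linear_combination (r ^ 2 / 3) * hτσ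
  have hXv := eps3_xX ρ' y r τ fS hr hσ hτ hfS
  have hSv : eps0 ^ 2 * sS (chartV ρ' y) = r ^ 2 * sigC y := by
    rw [sS_chart, hr, eps0, ssC]; ring
  rw [← hfS] at hF
  obtain ⟨me0, se0, te0⟩ := term_bounds ρ x r (-1) (1 / 2 - y) (1 / 2 + y) ((1 - ρ ^ 2 * sigC x / 2 + ρ ^ 2 * rg3C ρ x) * (1 - r ^ 2 * sigC y / 2 + r ^ 2 * sigC y * τ / 3))
    (fun i => eps0 * chartV ρ' y (gP 0 i)) (by rw [hr]; exact wv0 ρ' y (gP 0) 0 (by decide))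
    (by rw [hr]; exact wv1 ρ' y (gP 0) 1 (by decide)) (by rw [hr]; exact wv2 ρ' y (gP 0) 2 (by decide)) (by ring) hm0
    (Gw_gen ρ x r y τ _ _ _ hC3 (by ring) (by simp only [sigC]; ring) (by ring))
  obtain ⟨me1, se1, te1⟩ := term_bounds ρ x r (-1) (1 / 2 + y) (1 / 2 - y) ((1 - ρ ^ 2 * sigC x / 2 + ρ ^ 2 * rg3C ρ x) * (1 - r ^ 2 * sigC y / 2 + r ^ 2 * sigC y * τ / 3))
    (fun i => eps0 * chartV ρ' y (gP 1 i)) (by rw [hr]; exact wv0 ρ' y (gP 1) 0 (by decide))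
    (by rw [hr]; exact wv2 ρ' y (gP 1) 1 (by decide)) (by rw [hr]; exact wv1 ρ' y (gP 1) 2 (by decide)) (by ring) hm1
    (Gw_gen ρ x r y τ _ _ _ hC3 (by ring) (by simp only [sigC]; ring) (by ring))
  obtain ⟨me2, se2, te2⟩ := term_bounds ρ x r (1 / 2 - y) (-1) (1 / 2 + y) ((1 - ρ ^ 2 * sigC x / 2 + ρ ^ 2 * rg3C ρ x) * (1 - r ^ 2 * sigC y / 2 + r ^ 2 * sigC y * τ / 3))
    (fun i => eps0 * chartV ρ' y (gP 2 i)) (by rw [hr]; exact wv1 ρ' y (gP 2) 0 (by decide))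
    (by rw [hr]; exact wv0 ρ' y (gP 2) 1 (by decide)) (by rw [hr]; exact wv2 ρ' y (gP 2) 2 (by decide)) (by ring) hm2
    (Gw_gen ρ x r y τ _ _ _ hC3 (by ring) (by simp only [sigC]; ring) (by ring))
  obtain ⟨me3, se3, te3⟩ := term_bounds ρ x r (1 / 2 - y) (1 / 2 + y) (-1) ((1 - ρ ^ 2 * sigC x / 2 + ρ ^ 2 * rg3C ρ x) * (1 - r ^ 2 * sigC y / 2 + r ^ 2 * sigC y * τ / 3))
    (fun i => eps0 * chartV ρ' y (gP 3 i)) (by rw [hr]; exact wv1 ρ' y (gP 3) 0 (by decide))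
    (by rw [hr]; exact wv2 ρ' y (gP 3) 1 (by decide)) (by rw [hr]; exact wv0 ρ' y (gP 3) 2 (by decide)) (by ring) hm3
    (Gw_gen ρ x r y τ _ _ _ hC3 (by ring) (by simp only [sigC]; ring) (by ring))
  obtain ⟨me4, se4, te4⟩ := term_bounds ρ x r (1 / 2 + y) (-1) (1 / 2 - y) ((1 - ρ ^ 2 * sigC x / 2 + ρ ^ 2 * rg3C ρ x) * (1 - r ^ 2 * sigC y / 2 + r ^ 2 * sigC y * τ / 3))
    (fun i => eps0 * chartV ρ' y (gP 4 i)) (by rw [hr]; exact wv2 ρ' y (gP 4) 0 (by decide))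
    (by rw [hr]; exact wv0 ρ' y (gP 4) 1 (by decide)) (by rw [hr]; exact wv1 ρ' y (gP 4) 2 (by decide)) (by ring) hm4
    (Gw_gen ρ x r y τ _ _ _ hC3 (by ring) (by simp only [sigC]; ring) (by ring))
  obtain ⟨me5, se5, te5⟩ := term_bounds ρ x r (1 / 2 + y) (1 / 2 - y) (-1) ((1 - ρ ^ 2 * sigC x / 2 + ρ ^ 2 * rg3C ρ x) * (1 - r ^ 2 * sigC y / 2 + r ^ 2 * sigC y * τ / 3))
    (fun i => eps0 * chartV ρ' y (gP 5 i)) (by rw [hr]; exact wv2 ρ' y (gP 5) 0 (by decide))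
    (by rw [hr]; exact wv1 ρ' y (gP 5) 1 (by decide)) (by rw [hr]; exact wv0 ρ' y (gP 5) 2 (by decide)) (by ring) hm5
    (Gw_gen ρ x r y τ _ _ _ hC3 (by ring) (by simp only [sigC]; ring) (by ring))
  have hσ6 : ∀ A : ℝ, A = 6 * sigC y * (((sigC y)⁻¹ / 2 ^ 1 / 3) * A) := by
    intro A
    have hne := hσ.ne'
    have e6 : 6 * sigC y * ((sigC y)⁻¹ / 2 ^ 1 / 3) = 1 := by
      field_simp
      norm_num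
    rw [← mul_assoc, e6, one_mul]
  obtain ⟨B1, hB1⟩ : ∃ B1, B1 = ((sigC y)⁻¹ / 2 ^ 1 / 3) * (alC x (-1) (1 / 2 - y) (1 / 2 + y) ^ 2 * QC ρ x (-1) (1 / 2 - y) (1 / 2 + y) * (1 + (r * ρ) * alC x (-1) (1 / 2 - y) (1 / 2 + y))⁻¹ + alC x (-1) (1 / 2 + y) (1 / 2 - y) ^ 2 * QC ρ x (-1) (1 / 2 + y) (1 / 2 - y) * (1 + (r * ρ) * alC x (-1) (1 / 2 + y) (1 / 2 - y))⁻¹ + alC x (1 / 2 - y) (-1) (1 / 2 + y) ^ 2 * QC ρ x (1 / 2 - y) (-1) (1 / 2 + y) * (1 + (r * ρ) * alC x (1 / 2 - y) (-1) (1 / 2 + y))⁻¹ + alC x (1 / 2 - y) (1 / 2 + y) (-1) ^ 2 * QC ρ x (1 / 2 - y) (1 / 2 + y) (-1) * (1 + (r * ρ) * alC x (1 / 2 - y) (1 / 2 + y) (-1))⁻¹ + alC x (1 / 2 + y) (-1) (1 / 2 - y) ^ 2 * QC ρ x (1 / 2 + y) (-1) (1 / 2 - y) * (1 + (r * ρ) * alC x (1 / 2 + y) (-1) (1 / 2 - y))⁻¹ + alC x (1 / 2 + y) (1 / 2 - y) (-1)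 ^ 2 * QC ρ x (1 / 2 + y) (1 / 2 - y) (-1) * (1 + (r * ρ) * alC x (1 / 2 + y) (1 / 2 - y) (-1))⁻¹) := ⟨_, rfl⟩
  rw [← hB1] at hF
  have hss : ssC ρ x = ρ ^ 2 * sigC x := rfl
  have hcc : c3C ρ x = ρ ^ 2 * rg3C ρ x := rfl
  rw [hss] at hF se0 se1 se2 se3 se4 se5
  have hG : 0 ≤ -hrC ρ x - (3 / 16) * (3 * rg3C ρ x - (3 / 64) * (sigC x * (ρ ^ 2 * sigC x) * (1 - (3 / 64) * (ρ ^ 2 * sigC x)))) -
      sigC x / 1024 + fS * lamC ρ x - r ^ 2 * B1 := by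
    refine le_of_le_of_eq hF ?_
    push_cast
    ring
  have hT : ∀ m ib s s' M : ℝ, m * ib = 1 → s' = s + ib * M → m * s' = m * s + M := by
    intro m ib s s' M h e
    rw [e]
    linear_combination M * h
  have main := abstract_II r ρ τ fS (sigC y) (sigC x) (rg3C ρ x) (hrC ρ x) (lamC ρ x) (gamC y) B1
    (alC x (-1) (1 / 2 - y) (1 / 2 + y)) (alC x (-1) (1 / 2 + y) (1 / 2 - y)) (alC x (1 / 2 - y) (-1) (1 / 2 + y)) (alC x (1 / 2 - y) (1 / 2 + y) (-1)) (alC x (1 / 2 + y) (-1) (1 / 2 - y)) (alC x (1 / 2 + y) (1 / 2 - y) (-1))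
    ((1 + (r * ρ) * alC x (-1) (1 / 2 - y) (1 / 2 + y))⁻¹) ((1 + (r * ρ) * alC x (-1) (1 / 2 + y) (1 / 2 - y))⁻¹) ((1 + (r * ρ) * alC x (1 / 2 - y) (-1) (1 / 2 + y))⁻¹) ((1 + (r * ρ) * alC x (1 / 2 - y) (1 / 2 + y) (-1))⁻¹) ((1 + (r * ρ) * alC x (1 / 2 + y) (-1) (1 / 2 - y))⁻¹) ((1 + (r * ρ) * alC x (1 / 2 + y) (1 / 2 - y) (-1))⁻¹)
    (QC ρ x (-1) (1 / 2 - y) (1 / 2 + y)) (QC ρ x (-1) (1 / 2 + y) (1 / 2 - y)) (QC ρ x (1 / 2 - y) (-1) (1 / 2 + y)) (QC ρ x (1 / 2 - y) (1 / 2 + y) (-1)) (QC ρ x (1 / 2 + y) (-1) (1 / 2 - y)) (QC ρ x (1 / 2 + y) (1 / 2 - y) (-1))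
    (LC ρ x (-1) (1 / 2 - y) (1 / 2 + y)) (LC ρ x (-1) (1 / 2 + y) (1 / 2 - y)) (LC ρ x (1 / 2 - y) (-1) (1 / 2 + y)) (LC ρ x (1 / 2 - y) (1 / 2 + y) (-1)) (LC ρ x (1 / 2 + y) (-1) (1 / 2 - y)) (LC ρ x (1 / 2 + y) (1 / 2 - y) (-1))
    _ _ _ _ _ _
    (mul_inv_cancel₀ hm0.ne') (mul_inv_cancel₀ hm1.ne') (mul_inv_cancel₀ hm2.ne')
    (mul_inv_cancel₀ hm3.ne') (mul_inv_cancel₀ hm4.ne') (mul_inv_cancel₀ hm5.ne')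
    (sum_al ρ x y) (sum_L ρ x y) (sum_Q ρ x y) (sum_aQ ρ x y)
    hτσ (by rw [hB1]; exact (hσ6 _).symm ▸ rfl)
    (mul_nonneg (sq_nonneg _) hσ.le) hG
    (hT _ _ _ _ _ (mul_inv_cancel₀ hm0.ne') se0) (hT _ _ _ _ _ (mul_inv_cancel₀ hm1.ne') se1)
    (hT _ _ _ _ _ (mul_inv_cancel₀ hm2.ne') se2) (hT _ _ _ _ _ (mul_inv_cancel₀ hm3.ne') se3)
    (hT _ _ _ _ _ (mul_inv_cancel₀ hm4.ne') se4) (hT _ _ _ _ _ (mul_inv_cancel₀ hm5.ne') se5)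
  rw [sum_perm3]
  simp only [me0, me1, me2, me3, me4, me5]
  have e : sS (chartV ρ x) + eps0 ^ 2 * sS (chartV ρ' y) - (3 / 16) * (eps0 ^ 2 * sS (chartV ρ' y)) * xX (chartV ρ x)
      - eps0 ^ 3 * lL (chartV ρ x) * xX (chartV ρ' y) - (1 / 1024) * (eps0 ^ 2 * sS (chartV ρ' y)) * sS (chartV ρ x) =
      sS (chartV ρ x) + (eps0 ^ 2 * sS (chartV ρ' y)) - (3 / 16) * (eps0 ^ 2 * sS (chartV ρ' y)) * xX (chartV ρ x)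
      - lL (chartV ρ x) * (eps0 ^ 3 * xX (chartV ρ' y)) - (1 / 1024) * (eps0 ^ 2 * sS (chartV ρ' y)) * sS (chartV ρ x) := by ring
  have hLam : lL (chartV ρ x) = ρ ^ 2 * lamC ρ x := by
    rw [lL, sS_chart, cC_chart, lamC, hss, hcc]
    ring
  rw [e, hSv, hXv, hLam, xX_chart, sS_chart, hss, hcc]
  exact main

end Vale.Agent.Lib.P154
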