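import Mathlib
import Vale.Agent.Lib.P154.ChartMain

/-!
The pointwise inequalities (I) and (II) in general, by sorting the two messages.
-/

namespace Vale.Agent.Lib.P154

open Finset BigOperators

lemma sS_perm (v : Fin 3 → ℝ) (π : Equiv.Perm (Fin 3)) : sS (fun i => v (π i)) = sS v :=
  Equiv.sum_comp π (fun i => v i ^ 2)

lemma cC_perm (v : Fin 3 → ℝ) (π : Equiv.Perm (Fin 3)) : cC (fun i => v (π i)) = cC v :=
  Equiv.sum_comp π (fun i => v i ^ 3)

lemma gG_perm (v : Fin 3 → ℝ) (π : Equiv.Perm (Fin 3)) : gG (fun i => v (π i)) = gG v :=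
  Equiv.prod_comp π (fun i => 1 + v i)

lemma xX_perm (v : Fin 3 → ℝ) (π : Equiv.Perm (Fin 3)) : xX (fun i => v (π i)) = xX v := by
  rw [xX, xX, sS_perm, cC_perm]

lemma lL_perm (v : Fin 3 → ℝ) (π : Equiv.Perm (Fin 3)) : lL (fun i => v (π i)) = lL v := by
  rw [lL, lL, sS_perm, cC_perm]

lemma mM_perm (u w : Fin 3 → ℝ) (π : Equiv.Perm (Fin 3)) :
    mM (fun i => u (π i)) (fun i => w (π i)) = mM u w := by
  unfold mM
  congr 2
  exact Equiv.sum_comp π (fun i => u i * w i)

lemma vV_perm (u w : Fin 3 → ℝ) (π : Equiv.Perm (Fin 3)) :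
    vV (fun i => u (π i)) (fun i => w (π i)) = fun i => vV u w (π i) := by
  funext i
  unfold vV
  rw [mM_perm]

/-- The average over permutations is unchanged when both messages are reordered. -/
lemma sum_reindex (u v : Fin 3 → ℝ) (π π' : Equiv.Perm (Fin 3)) (Φ : (Fin 3 → ℝ) → ℝ)
    (hΦ : ∀ (f : Fin 3 → ℝ) (σ : Equiv.Perm (Fin 3)), Φ (fun i => f (σ i)) = Φ f) :
    ∑ g : Equiv.Perm (Fin 3), mM (fun i => u (π i)) (fun i => eps0 * v (π' (g i))) *
        Φ (vV (fun i => u (π i)) (fun i => eps0 * v (π' (g i)))) =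
      ∑ g : Equiv.Perm (Fin 3), mM u (fun i => eps0 * v (g i)) * Φ (vV u (fun i => eps0 * v (g i))) := by
  have key : ∀ g : Equiv.Perm (Fin 3),
      mM (fun i => u (π i)) (fun i => eps0 * v (π' (g i))) *
        Φ (vV (fun i => u (π i)) (fun i => eps0 * v (π' (g i)))) =
      mM u (fun i => eps0 * v ((π' * g * π⁻¹) i)) * Φ (vV u (fun i => eps0 * v ((π' * g * π⁻¹) i))) := by
    intro g
    have e : (fun i => eps0 * v (π' (g i))) =
        fun i => (fun j => eps0 * v ((π' * g * π⁻¹) j)) (π i) := by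
      funext i
      simp [Equiv.Perm.mul_apply]
    rw [e, mM_perm u (fun j => eps0 * v ((π' * g * π⁻¹) j)) π, vV_perm u (fun j => eps0 * v ((π' * g * π⁻¹) j)) π, hΦ]
  rw [Finset.sum_congr rfl (fun g _ => key g)]
  exact Equiv.sum_comp ((Equiv.mulLeft π').trans (Equiv.mulRight π⁻¹))
    (fun h => mM u (fun i => eps0 * v (h i)) * Φ (vV u (fun i => eps0 * v (h i))))

/-- Every message is, after a permutation, a chart point. -/
lemma exists_chart (v : Fin 3 → ℝ) (hv : inT v) :
    ∃ (π : Equiv.Perm (Fin 3)) (ρ x : ℝ), 0 ≤ ρ ∧ ρ ≤ 1 ∧ 0 ≤ x ∧ x ≤ 3 / 2 ∧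
      (fun i => v (π i)) = chartV ρ x := by
  obtain ⟨hs, hb⟩ := hv
  set π := Tuple.sort v with hπ
  have hm : Monotone (v ∘ π) := Tuple.monotone_sort v
  have hs' : v (π 0) + v (π 1) + v (π 2) = 0 := by
    have : ∑ i, v (π i) = ∑ i, v i := Equiv.sum_comp π v
    rw [hs, Fin.sum_univ_three] at this
    exact this
  have h01 : v (π 0) ≤ v (π 1) := hm (by decide : (0 : Fin 3) ≤ 1)
  have h12 : v (π 1) ≤ v (π 2) := hm (by decide : (1 : Fin 3) ≤ 2)
  set a := v (π 0) with ha
  set b := v (π 1) with hb'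
  set c := v (π 2) with hc
  have ha1 : -1 ≤ a := hb _
  by_cases h0 : a = 0
  · have hb0 : b = 0 := by linarith
    have hc0 : c = 0 := by linarith
    refine ⟨π, 0, 0, le_refl _, by norm_num, le_refl _, by norm_num, ?_⟩
    funext i
    fin_cases i
    · simp [chartV]; exact h0
    · simp [chartV]; exact hb0
    · simp [chartV]; exact hc0
  · have hneg : a < 0 := by
      have : a ≤ 0 := by linarith
      exact lt_of_le_of_ne this h0
    have hρ : 0 < -a := by linarith
    refine ⟨π, -a, (c - b) / (2 * (-a)), hρ.le, by linarith, ?_, ?_, ?_⟩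
    · apply div_nonneg (by linarith) (by linarith)
    · rw [div_le_iff₀ (by linarith)]
      linarith
    · have hne : -a ≠ 0 := hρ.ne'
      funext i
      fin_cases i
      · simp [chartV]
        exact ha.symm ▸ rfl
      · simp [chartV]
        show b = _
        field_simp
        linarith
      · simp [chartV]
        show c = _
        field_simp
        linarith

/-- Inequality (I). -/
theorem ineqI : IneqI := by
  intro u v hu hv
  obtain ⟨π, ρ, x, h0, h1, h2, h3, eu⟩ := exists_chart u hu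
  obtain ⟨π', ρ', y, h4, h5, h6, h7, ev⟩ := exists_chart v hv
  have main := chart_I ρ x ρ' y h0 h1 h2 h3 h4 h5 h6 h7
  rw [← eu, ← ev] at main
  rw [sS_perm, sS_perm, xX_perm, xX_perm, gG_perm] at main
  have hs := sum_reindex u v π π' xX xX_perm
  rw [hs] at main
  exact main

/-- Inequality (II). -/
theorem ineqII : IneqII := by
  intro u v hu hv
  obtain ⟨π, ρ, x, h0, h1, h2, h3, eu⟩ := exists_chart u hu
  obtain ⟨π', ρ', y, h4, h5, h6, h7, ev⟩ := exists_chart v hv
  have main := chart_II ρ x ρ' y h0 h1 h2 h3 h4 h5 h6 h7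
  rw [← eu, ← ev] at main
  rw [sS_perm, sS_perm, xX_perm, xX_perm, lL_perm] at main
  have hs := sum_reindex u v π π' sS sS_perm
  rw [hs] at main
  exact main

end Vale.Agent.Lib.P154
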