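import Mathlib

/-!
Definitions for P154: the three-state Potts channel on the rooted `d`-ary tree.
-/

namespace Vale.Agent.Lib.P154

open Finset BigOperators

/-- Spin configurations on the leaves (level `n`) of the rooted `d`-ary tree of depth `n`:
depth `0` is one vertex with a spin in `Fin 3`; depth `n + 1` is one configuration per child. -/
def LeafSpins (d : ℕ) : ℕ → Type
  | 0 => Fin 3
  | n + 1 => Fin d → LeafSpins d n

/-- `LeafSpins d n` is finite. -/
noncomputable instance instFintypeLeafSpins (d : ℕ) : (n : ℕ) → Fintype (LeafSpins d n)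
  | 0 => inferInstanceAs (Fintype (Fin 3))
  | n + 1 => by
      haveI := instFintypeLeafSpins d n
      exact inferInstanceAs (Fintype (Fin d → LeafSpins d n))

/-- The three-state Potts channel `P_lam (j | i) = lam 1_{i = j} + (1 - lam) / 3`. -/
noncomputable def potts (lam : ℝ) (i j : Fin 3) : ℝ :=
  (if i = j then lam else 0) + (1 - lam) / 3

/-- A depth-`0` configuration is just the spin of the single vertex. -/
def spinZero {d : ℕ} (η : LeafSpins d 0) : Fin 3 := η

/-- `lik lam d n i η` is the probability of the leaf configuration `η` given root spin `i`. -/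
noncomputable def lik (lam : ℝ) (d : ℕ) : (n : ℕ) → Fin 3 → LeafSpins d n → ℝ
  | 0, i, η => if i = spinZero η then 1 else 0
  | n + 1, i, η => ∏ c : Fin d, ∑ j : Fin 3, potts lam i j * lik lam d n j (η c)

/-- The reconstruction quantity `a_n` of the problem for the `d`-ary tree with uniform root:
`a_n = ∑_η (1/2) ∑_i | P(σ_ρ = i, σ_L = η) - (1/3) P(σ_L = η) |`. -/
noncomputable def recon (lam : ℝ) (d n : ℕ) : ℝ :=
  ∑ η : LeafSpins d n, (1 / 2) * ∑ i : Fin 3,
    |(1 / 3) * lik lam d n i η - (1 / 3) * ((1 / 3) * ∑ j : Fin 3, lik lam d n j η)|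

end Vale.Agent.Lib.P154
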