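import Vale.Agent.Lib.P154.Pointwise

/-!
Abstract framework for P154: sequential merging of independent messages, from the pointwise
inequalities `IneqI`, `IneqII` to `recon → 0`.
-/

namespace Vale.Agent.Lib.P154

open Finset BigOperators Filter Topology

/-! ### Elementary facts on the message simplex -/

lemma inT_sum {v : Fin 3 → ℝ} (h : inT v) : v 0 + v 1 + v 2 = 0 := by
  have := h.1; simpa [Fin.sum_univ_three] using this

lemma sS_eq (v : Fin 3 → ℝ) : sS v = v 0 ^ (2 : ℕ) + v 1 ^ (2 : ℕ) + v 2 ^ (2 : ℕ) := by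
  simp [sS, Fin.sum_univ_three]

lemma cC_eq (v : Fin 3 → ℝ) : cC v = v 0 ^ (3 : ℕ) + v 1 ^ (3 : ℕ) + v 2 ^ (3 : ℕ) := by
  simp [cC, Fin.sum_univ_three]

lemma sS_nonneg (v : Fin 3 → ℝ) : 0 ≤ sS v := by
  rw [sS_eq]; positivity

lemma sS_le_six {v : Fin 3 → ℝ} (h : inT v) : sS v ≤ 6 := by
  rw [sS_eq]
  have h0 := inT_sum h
  have h1 := h.2 0
  have h2 := h.2 1
  have h3 := h.2 2
  have u0 : v 0 ≤ 2 := by linarith
  have u1 : v 1 ≤ 2 := by linarith
  have u2 : v 2 ≤ 2 := by linarith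
  nlinarith [mul_nonneg (by linarith : 0 ≤ v 0 + 1) (by linarith : 0 ≤ 2 - v 0),
    mul_nonneg (by linarith : 0 ≤ v 1 + 1) (by linarith : 0 ≤ 2 - v 1),
    mul_nonneg (by linarith : 0 ≤ v 2 + 1) (by linarith : 0 ≤ 2 - v 2)]

lemma sS_sub_cC_nonneg {v : Fin 3 → ℝ} (h : inT v) : 0 ≤ sS v - cC v := by
  rw [sS_eq, cC_eq]
  have h0 := inT_sum h
  have hx : 0 ≤ 1 + v 0 := by linarith [h.2 0]
  have hy : 0 ≤ 1 + v 1 := by linarith [h.2 1]
  have hz : 0 ≤ 1 + v 2 := by linarith [h.2 2]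
  have e2 : v 2 = - v 0 - v 1 := by linarith
  have key : (v 0 ^ (2 : ℕ) + v 1 ^ (2 : ℕ) + v 2 ^ (2 : ℕ)) - (v 0 ^ (3 : ℕ) + v 1 ^ (3 : ℕ) + v 2 ^ (3 : ℕ))
      = (1 / 3) * ((1 + v 0) * (v 1 - v 2) ^ (2 : ℕ) + (1 + v 1) * (v 0 - v 2) ^ (2 : ℕ)
        + (1 + v 2) * (v 0 - v 1) ^ (2 : ℕ)) := by
    rw [e2]; ring
  rw [key]
  positivity

lemma lL_nonneg {v : Fin 3 → ℝ} (h : inT v) : 0 ≤ lL v := by
  unfold lL
  have h1 := sS_sub_cC_nonneg h
  have h2 := sS_le_six h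
  have : 0 ≤ 6 - sS v := by linarith
  positivity

lemma gG_nonneg {v : Fin 3 → ℝ} (h : inT v) : 0 ≤ gG v := by
  unfold gG
  apply Finset.prod_nonneg
  intro i _
  linarith [h.2 i]

lemma inT_smul {v : Fin 3 → ℝ} (h : inT v) {r : ℝ} (h0 : 0 ≤ r) (h1 : r ≤ 1) :
    inT (fun i => r * v i) := by
  refine ⟨?_, fun i => ?_⟩
  · rw [← Finset.mul_sum, h.1, mul_zero]
  · have := h.2 i
    nlinarith

lemma sS_smul (v : Fin 3 → ℝ) (r : ℝ) : sS (fun i => r * v i) = r ^ (2 : ℕ) * sS v := by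
  simp only [sS, mul_pow, Finset.mul_sum]

lemma cC_smul (v : Fin 3 → ℝ) (r : ℝ) : cC (fun i => r * v i) = r ^ (3 : ℕ) * cC v := by
  simp only [cC, mul_pow, Finset.mul_sum]

/-- The channel inequality `X(ρ v) ≥ ρ^3 X(v)`. -/
lemma xX_smul_ge {v : Fin 3 → ℝ} (h : inT v) {r : ℝ} (h0 : 0 ≤ r) (h1 : r ≤ 1) :
    r ^ (3 : ℕ) * xX v ≤ xX (fun i => r * v i) := by
  unfold xX
  rw [sS_smul, cC_smul]
  have hs0 := sS_nonneg v
  have hs6 := sS_le_six h
  set s := sS v with hs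
  have key : (r ^ (3 : ℕ) * cC v - (3 / 64) * (r ^ (2 : ℕ) * s) ^ (2 : ℕ) * (1 - (3 / 64) * (r ^ (2 : ℕ) * s)))
      - r ^ (3 : ℕ) * (cC v - (3 / 64) * s ^ (2 : ℕ) * (1 - (3 / 64) * s))
      = (3 / 64) * r ^ (3 : ℕ) * s ^ (2 : ℕ) * (1 - r) * (1 - (3 / 64) * s * (1 + r + r ^ (2 : ℕ))) := by
    ring
  have hr2 : r ^ (2 : ℕ) ≤ 1 := by nlinarith
  have hq : 0 ≤ 1 - (3 / 64) * s * (1 + r + r ^ (2 : ℕ)) := by
    have : (1 + r + r ^ (2 : ℕ)) ≤ 3 := by linarith
    have h3 : s * (1 + r + r ^ (2 : ℕ)) ≤ 6 * 3 := by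
      apply mul_le_mul hs6 this (by positivity) (by norm_num)
    nlinarith
  have hfin : 0 ≤ (3 / 64) * r ^ (3 : ℕ) * s ^ (2 : ℕ) * (1 - r) * (1 - (3 / 64) * s * (1 + r + r ^ (2 : ℕ))) := by
    have : 0 ≤ 1 - r := by linarith
    positivity
  linarith

/-! ### Sequential merging -/

section Abstract

variable {Ω : Type*} [Fintype Ω] (P : Ω → ℝ) (v : Ω → Fin 3 → ℝ) (lam : ℝ)

/-- product weights of `k` independent messages. -/
noncomputable def wt {k : ℕ} (η : Fin k → Ω) (i : Fin 3) : ℝ := ∏ c, (1 + lam * v (η c) i)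

/-- normaliser. -/
noncomputable def zz {k : ℕ} (η : Fin k → Ω) : ℝ := (1 / 3) * ∑ i, wt v lam η i

/-- merged message. -/
noncomputable def uu {k : ℕ} (η : Fin k → Ω) (i : Fin 3) : ℝ := wt v lam η i / zz v lam η - 1

/-- weighted expectation of a test function of the merged message. -/
noncomputable def Ak (k : ℕ) (F : (Fin 3 → ℝ) → ℝ) : ℝ :=
  ∑ η : Fin k → Ω, (∏ c, P (η c)) * zz v lam η * F (uu v lam η)

variable {v lam}

lemma factor_pos (hv : ∀ ω, inT (v ω)) (h0 : 0 ≤ lam) (h1 : lam < 1) (ω : Ω) (i : Fin 3) :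
    0 < 1 + lam * v ω i := by
  have := (hv ω).2 i
  nlinarith

lemma wt_pos (hv : ∀ ω, inT (v ω)) (h0 : 0 ≤ lam) (h1 : lam < 1) {k : ℕ} (η : Fin k → Ω)
    (i : Fin 3) : 0 < wt v lam η i :=
  Finset.prod_pos fun c _ => factor_pos hv h0 h1 (η c) i

lemma zz_pos (hv : ∀ ω, inT (v ω)) (h0 : 0 ≤ lam) (h1 : lam < 1) {k : ℕ} (η : Fin k → Ω) :
    0 < zz v lam η := by
  unfold zz
  have : 0 < ∑ i, wt v lam η i :=
    Finset.sum_pos (fun i _ => wt_pos hv h0 h1 η i) ⟨0, Finset.mem_univ _⟩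
  positivity

lemma uu_inT (hv : ∀ ω, inT (v ω)) (h0 : 0 ≤ lam) (h1 : lam < 1) {k : ℕ} (η : Fin k → Ω) :
    inT (uu v lam η) := by
  have hz := zz_pos hv h0 h1 η
  refine ⟨?_, fun i => ?_⟩
  · unfold uu
    rw [Finset.sum_sub_distrib, ← Finset.sum_div]
    have : ∑ i, wt v lam η i = 3 * zz v lam η := by unfold zz; ring
    rw [this]
    simp only [Finset.sum_const, Finset.card_univ, Fintype.card_fin, nsmul_eq_mul]
    field_simp
    norm_num
  · unfold uu
    have := div_pos (wt_pos hv h0 h1 η i) hz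
    linarith

lemma wt_cons {k : ℕ} (ω : Ω) (η : Fin k → Ω) (i : Fin 3) :
    wt v lam (Fin.cons ω η : Fin (k + 1) → Ω) i = (1 + lam * v ω i) * wt v lam η i := by
  unfold wt
  rw [Fin.prod_univ_succ]
  simp

lemma zz_cons (hv : ∀ ω, inT (v ω)) (h0 : 0 ≤ lam) (h1 : lam < 1) {k : ℕ} (ω : Ω)
    (η : Fin k → Ω) :
    zz v lam (Fin.cons ω η : Fin (k + 1) → Ω)
      = zz v lam η * mM (uu v lam η) (fun i => lam * v ω i) := by
  have hz := zz_pos hv h0 h1 η
  have hu := uu_inT hv h0 h1 η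
  have hsu := hu.1
  have hsv := (hv ω).1
  unfold mM
  have hw : ∀ i, wt v lam η i = zz v lam η * (1 + uu v lam η i) := by
    intro i
    unfold uu
    field_simp
    ring
  have : zz v lam (Fin.cons ω η : Fin (k + 1) → Ω)
      = (1 / 3) * ∑ i, (1 + lam * v ω i) * (zz v lam η * (1 + uu v lam η i)) := by
    unfold zz
    congr 1
    apply Finset.sum_congr rfl
    intro i _
    rw [wt_cons]
    congr 1
    exact hw i
  rw [this]
  simp only [Fin.sum_univ_three] at hsu hsv ⊢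
  have e1 : uu v lam η 0 + uu v lam η 1 + uu v lam η 2 = 0 := hsu
  have e2 : v ω 0 + v ω 1 + v ω 2 = 0 := hsv
  have e3 : v ω 2 = - v ω 0 - v ω 1 := by linarith
  have e4 : uu v lam η 2 = - uu v lam η 0 - uu v lam η 1 := by linarith
  rw [e3, e4]
  ring

lemma uu_cons (hv : ∀ ω, inT (v ω)) (h0 : 0 ≤ lam) (h1 : lam < 1) {k : ℕ} (ω : Ω)
    (η : Fin k → Ω) :
    uu v lam (Fin.cons ω η : Fin (k + 1) → Ω)
      = vV (uu v lam η) (fun i => lam * v ω i) := by
  funext i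
  have hz := zz_pos hv h0 h1 η
  have hz' := zz_pos hv h0 h1 (Fin.cons ω η : Fin (k + 1) → Ω)
  have hzc := zz_cons hv h0 h1 ω η
  have hm : 0 < mM (uu v lam η) (fun i => lam * v ω i) := by
    rw [hzc] at hz'
    exact (pos_iff_pos_of_mul_pos hz').mp hz
  have hw : 1 + uu v lam η i = wt v lam η i / zz v lam η := by
    unfold uu; ring
  unfold vV
  rw [hw]
  conv_lhs => unfold uu
  rw [wt_cons, hzc]
  field_simp

/-- One merging step for the functional `Ak`. -/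
lemma Ak_succ (hv : ∀ ω, inT (v ω)) (h0 : 0 ≤ lam) (h1 : lam < 1) (k : ℕ)
    (F : (Fin 3 → ℝ) → ℝ) :
    Ak P v lam (k + 1) F = Ak P v lam k (fun u =>
      ∑ ω, P ω * (mM u (fun i => lam * v ω i) * F (vV u (fun i => lam * v ω i)))) := by
  unfold Ak
  rw [← (Fin.consEquiv (fun _ : Fin (k + 1) => Ω)).sum_comp, Fintype.sum_prod_type]
  have hc : ∀ (ω : Ω) (η : Fin k → Ω),
      (Fin.consEquiv (fun _ : Fin (k + 1) => Ω)) (ω, η) = (Fin.cons ω η : Fin (k + 1) → Ω) :=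
    fun _ _ => rfl
  simp only [hc]
  rw [Finset.sum_comm]
  apply Finset.sum_congr rfl
  intro η _
  rw [Finset.mul_sum]
  apply Finset.sum_congr rfl
  intro ω _
  rw [Fin.prod_univ_succ, zz_cons hv h0 h1, uu_cons hv h0 h1]
  simp only [Fin.cons_zero, Fin.cons_succ]
  ring

/-- Monotonicity of `Ak` on the message simplex. -/
lemma Ak_mono (hP : ∀ ω, 0 ≤ P ω) (hv : ∀ ω, inT (v ω)) (h0 : 0 ≤ lam) (h1 : lam < 1) (k : ℕ)
    {F G : (Fin 3 → ℝ) → ℝ} (h : ∀ u, inT u → F u ≤ G u) :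
    Ak P v lam k F ≤ Ak P v lam k G := by
  unfold Ak
  apply Finset.sum_le_sum
  intro η _
  apply mul_le_mul_of_nonneg_left (h _ (uu_inT hv h0 h1 η))
  exact mul_nonneg (Finset.prod_nonneg fun c _ => hP _) (zz_pos hv h0 h1 η).le

lemma Ak_zero (F : (Fin 3 → ℝ) → ℝ) : Ak P v lam 0 F = F 0 := by
  unfold Ak
  have hu : ∀ η : Fin 0 → Ω, uu v lam η = 0 := by
    intro η
    funext i
    simp [uu, zz, wt]
  have hz : ∀ η : Fin 0 → Ω, zz v lam η = 1 := by
    intro η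
    simp [zz, wt]
  simp [hu, hz]

variable {P}

lemma Ak_add (k : ℕ) (F G : (Fin 3 → ℝ) → ℝ) :
    Ak P v lam k (fun u => F u + G u) = Ak P v lam k F + Ak P v lam k G := by
  unfold Ak
  rw [← Finset.sum_add_distrib]
  apply Finset.sum_congr rfl
  intro η _
  ring

lemma Ak_const_mul (k : ℕ) (c : ℝ) (F : (Fin 3 → ℝ) → ℝ) :
    Ak P v lam k (fun u => c * F u) = c * Ak P v lam k F := by
  unfold Ak
  rw [Finset.mul_sum]
  apply Finset.sum_congr rfl
  intro η _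
  ring

lemma sum_mM (hP1 : ∑ ω, P ω = 1) (hm : ∀ i, ∑ ω, P ω * v ω i = 0) (u : Fin 3 → ℝ) :
    ∑ ω, P ω * mM u (fun i => lam * v ω i) = 1 := by
  have h : ∀ ω, P ω * mM u (fun i => lam * v ω i)
      = P ω + (1 / 3) * lam * (u 0 * (P ω * v ω 0) + u 1 * (P ω * v ω 1) + u 2 * (P ω * v ω 2)) := by
    intro ω
    unfold mM
    simp only [Fin.sum_univ_three]
    ring
  simp_rw [h]
  rw [Finset.sum_add_distrib, hP1, ← Finset.mul_sum, Finset.sum_add_distrib,
    Finset.sum_add_distrib, ← Finset.mul_sum, ← Finset.mul_sum, ← Finset.mul_sum, hm, hm, hm]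
  ring

lemma Ak_one (hv : ∀ ω, inT (v ω)) (h0 : 0 ≤ lam) (h1 : lam < 1) (hP1 : ∑ ω, P ω = 1)
    (hm : ∀ i, ∑ ω, P ω * v ω i = 0) (k : ℕ) : Ak P v lam k (fun _ => 1) = 1 := by
  induction k with
  | zero => rw [Ak_zero]
  | succ k ih =>
    rw [Ak_succ P hv h0 h1]
    have : (fun u : Fin 3 → ℝ => ∑ ω, P ω * (mM u (fun i => lam * v ω i) * (fun _ => (1 : ℝ))
        (vV u (fun i => lam * v ω i)))) = fun _ => 1 := by
      funext u
      simp only [mul_one]
      exact sum_mM hP1 hm u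
    rw [this, ih]

/-- Averaging over the symmetry group. -/
lemma sum_avg (hP1 : ∑ ω, P ω = 1)
    (hsym : ∀ (g : Equiv.Perm (Fin 3)) (H : (Fin 3 → ℝ) → ℝ),
      ∑ ω, P ω * H (fun i => v ω (g i)) = ∑ ω, P ω * H (v ω))
    (H : (Fin 3 → ℝ) → ℝ) :
    ∑ ω, P ω * H (v ω)
      = ∑ ω, P ω * ((1 / 6) * ∑ g : Equiv.Perm (Fin 3), H (fun i => v ω (g i))) := by
  have h1 : ∑ ω, P ω * ((1 / 6) * ∑ g : Equiv.Perm (Fin 3), H (fun i => v ω (g i)))
      = (1 / 6) * ∑ g : Equiv.Perm (Fin 3), ∑ ω, P ω * H (fun i => v ω (g i)) := by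
    calc _ = ∑ ω, ∑ g : Equiv.Perm (Fin 3), (1 / 6) * (P ω * H (fun i => v ω (g i))) := by
          apply Finset.sum_congr rfl
          intro ω _
          rw [Finset.mul_sum, Finset.mul_sum]
          apply Finset.sum_congr rfl
          intro g _
          ring
      _ = ∑ g : Equiv.Perm (Fin 3), ∑ ω, (1 / 6) * (P ω * H (fun i => v ω (g i))) :=
          Finset.sum_comm
      _ = _ := by
          rw [Finset.mul_sum]
          apply Finset.sum_congr rfl
          intro g _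
          rw [Finset.mul_sum]
  rw [h1]
  simp_rw [hsym]
  rw [Finset.sum_const, Finset.card_univ, Fintype.card_perm, Fintype.card_fin]
  simp only [Nat.factorial, nsmul_eq_mul]
  push_cast
  ring

lemma eps0_sq : eps0 ^ (2 : ℕ) = 16384 / 32761 := by
  unfold eps0; norm_num

lemma eps0_pos : 0 < eps0 := by
  unfold eps0; norm_num

lemma lam_le_eps0 (h0 : 0 ≤ lam) (hl : lam ^ (2 : ℕ) ≤ 1 / 2) : lam ≤ eps0 := by
  by_contra hc
  push Not at hc
  have h1 := eps0_sq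
  have h2 := eps0_pos
  nlinarith

lemma lam_lt_one (h0 : 0 ≤ lam) (hl : lam ^ (2 : ℕ) ≤ 1 / 2) : lam < 1 := by
  by_contra hc
  push Not at hc
  nlinarith

lemma sum_S_nonneg (hP : ∀ ω, 0 ≤ P ω) : 0 ≤ ∑ ω, P ω * sS (v ω) :=
  Finset.sum_nonneg fun ω _ => mul_nonneg (hP ω) (sS_nonneg _)

lemma sum_S_le (hP : ∀ ω, 0 ≤ P ω) (hP1 : ∑ ω, P ω = 1) (hv : ∀ ω, inT (v ω)) :
    ∑ ω, P ω * sS (v ω) ≤ 6 := by
  calc ∑ ω, P ω * sS (v ω) ≤ ∑ ω, P ω * 6 :=
        Finset.sum_le_sum fun ω _ => mul_le_mul_of_nonneg_left (sS_le_six (hv ω)) (hP ω)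
    _ = 6 := by rw [← Finset.sum_mul, hP1, one_mul]

/-- The averaged form of (I). -/
lemma TX_ge (hI : IneqI) (h0 : 0 ≤ lam) (hl : lam ^ (2 : ℕ) ≤ 1 / 2) (hP : ∀ ω, 0 ≤ P ω)
    (hP1 : ∑ ω, P ω = 1) (hv : ∀ ω, inT (v ω))
    (hsym : ∀ (g : Equiv.Perm (Fin 3)) (H : (Fin 3 → ℝ) → ℝ),
      ∑ ω, P ω * H (fun i => v ω (g i)) = ∑ ω, P ω * H (v ω))
    (u : Fin 3 → ℝ) (hu : inT u) :
    (1 - (5 / 16) * lam ^ (2 : ℕ) * ∑ ω, P ω * sS (v ω)) * xX u
        + lam ^ (3 : ℕ) * gG u * (1 - (5 / 32) * sS u) * ∑ ω, P ω * xX (v ω)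
      ≤ ∑ ω, P ω * (mM u (fun i => lam * v ω i) * xX (vV u (fun i => lam * v ω i))) := by
  have hep := eps0_pos
  set ρ := lam / eps0 with hρdef
  have hρ0 : 0 ≤ ρ := div_nonneg h0 hep.le
  have hρ1 : ρ ≤ 1 := (div_le_one hep).2 (lam_le_eps0 h0 hl)
  have hρe : eps0 * ρ = lam := by rw [hρdef]; field_simp
  have hB : 0 ≤ lam ^ (3 : ℕ) * gG u * (1 - (5 / 32) * sS u) := by
    have h1 := gG_nonneg hu
    have h2 := sS_le_six hu
    have h3 : 0 ≤ 1 - (5 / 32) * sS u := by linarith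
    positivity
  have hB' : 0 ≤ gG u * (1 - (5 / 32) * sS u) := by
    have h1 := gG_nonneg hu
    have h2 := sS_le_six hu
    have h3 : 0 ≤ 1 - (5 / 32) * sS u := by linarith
    positivity
  have key : ∀ ω, (1 - (5 / 16) * lam ^ (2 : ℕ) * sS (v ω)) * xX u
        + lam ^ (3 : ℕ) * gG u * (1 - (5 / 32) * sS u) * xX (v ω)
      ≤ (1 / 6) * ∑ g : Equiv.Perm (Fin 3), (mM u (fun i => lam * v ω (g i))
          * xX (vV u (fun i => lam * v ω (g i)))) := by
    intro ω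
    have I := hI u (fun i => ρ * v ω i) hu (inT_smul (hv ω) hρ0 hρ1)
    have e : ∀ g : Equiv.Perm (Fin 3),
        (fun i => eps0 * (fun i => ρ * v ω i) (g i)) = (fun i => lam * v ω (g i)) := by
      intro g
      funext i
      show eps0 * (ρ * v ω (g i)) = _
      rw [← mul_assoc, hρe]
    simp only [e] at I
    refine le_trans ?_ I
    rw [sS_smul]
    have e2 : eps0 ^ (2 : ℕ) * (ρ ^ (2 : ℕ) * sS (v ω)) = lam ^ (2 : ℕ) * sS (v ω) := by
      rw [← hρe]; ring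
    have e3 : (5 / 16) * eps0 ^ (2 : ℕ) * (ρ ^ (2 : ℕ) * sS (v ω)) = (5 / 16) * lam ^ (2 : ℕ) * sS (v ω) := by
      linear_combination (5 / 16) * e2
    rw [e3]
    have hx := xX_smul_ge (hv ω) hρ0 hρ1
    have e4 : lam ^ (3 : ℕ) = eps0 ^ (3 : ℕ) * ρ ^ (3 : ℕ) := by rw [← hρe]; ring
    have : eps0 ^ (3 : ℕ) * (gG u * (1 - (5 / 32) * sS u)) * (ρ ^ (3 : ℕ) * xX (v ω))
        ≤ eps0 ^ (3 : ℕ) * (gG u * (1 - (5 / 32) * sS u)) * xX (fun i => ρ * v ω i) :=
      mul_le_mul_of_nonneg_left hx (by positivity)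
    have e5 : lam ^ (3 : ℕ) * gG u * (1 - (5 / 32) * sS u) * xX (v ω)
        = eps0 ^ (3 : ℕ) * (gG u * (1 - (5 / 32) * sS u)) * (ρ ^ (3 : ℕ) * xX (v ω)) := by
      rw [e4]; ring
    have e6 : eps0 ^ (3 : ℕ) * gG u * (1 - (5 / 32) * sS u) * xX (fun i => ρ * v ω i)
        = eps0 ^ (3 : ℕ) * (gG u * (1 - (5 / 32) * sS u)) * xX (fun i => ρ * v ω i) := by ring
    rw [e5, e6]
    linarith
  have ha := sum_avg hP1 hsym
    (fun w => mM u (fun i => lam * w i) * xX (vV u (fun i => lam * w i)))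
  simp only at ha
  rw [ha]
  calc _ = ∑ ω, P ω * ((1 - (5 / 16) * lam ^ (2 : ℕ) * sS (v ω)) * xX u
        + lam ^ (3 : ℕ) * gG u * (1 - (5 / 32) * sS u) * xX (v ω)) := by
          have h : ∀ ω, P ω * ((1 - (5 / 16) * lam ^ (2 : ℕ) * sS (v ω)) * xX u
              + lam ^ (3 : ℕ) * gG u * (1 - (5 / 32) * sS u) * xX (v ω))
              = P ω * xX u - (5 / 16) * lam ^ (2 : ℕ) * xX u * (P ω * sS (v ω))
                + lam ^ (3 : ℕ) * gG u * (1 - (5 / 32) * sS u) * (P ω * xX (v ω)) := by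
            intro ω; ring
          simp_rw [h]
          rw [Finset.sum_add_distrib, Finset.sum_sub_distrib, ← Finset.sum_mul, hP1,
            ← Finset.mul_sum, ← Finset.mul_sum]
          ring
    _ ≤ _ := Finset.sum_le_sum fun ω _ => mul_le_mul_of_nonneg_left (key ω) (hP ω)

/-- The averaged form of (II). -/
lemma TS_le (hII : IneqII) (h0 : 0 ≤ lam) (hl : lam ^ (2 : ℕ) ≤ 1 / 2) (hP : ∀ ω, 0 ≤ P ω)
    (hP1 : ∑ ω, P ω = 1) (hv : ∀ ω, inT (v ω))
    (hsym : ∀ (g : Equiv.Perm (Fin 3)) (H : (Fin 3 → ℝ) → ℝ),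
      ∑ ω, P ω * H (fun i => v ω (g i)) = ∑ ω, P ω * H (v ω))
    (u : Fin 3 → ℝ) (hu : inT u) :
    ∑ ω, P ω * (mM u (fun i => lam * v ω i) * sS (vV u (fun i => lam * v ω i)))
      ≤ sS u + lam ^ (2 : ℕ) * (∑ ω, P ω * sS (v ω))
        - (3 / 16) * (lam ^ (2 : ℕ) * ∑ ω, P ω * sS (v ω)) * xX u
        - lam ^ (3 : ℕ) * lL u * ∑ ω, P ω * xX (v ω)
        - (1 / 1024) * (lam ^ (2 : ℕ) * ∑ ω, P ω * sS (v ω)) * sS u := by
  have hep := eps0_pos
  set ρ := lam / eps0 with hρdef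
  have hρ0 : 0 ≤ ρ := div_nonneg h0 hep.le
  have hρ1 : ρ ≤ 1 := (div_le_one hep).2 (lam_le_eps0 h0 hl)
  have hρe : eps0 * ρ = lam := by rw [hρdef]; field_simp
  have hLn := lL_nonneg hu
  have key : ∀ ω, (1 / 6) * ∑ g : Equiv.Perm (Fin 3), (mM u (fun i => lam * v ω (g i))
          * sS (vV u (fun i => lam * v ω (g i))))
      ≤ sS u + lam ^ (2 : ℕ) * sS (v ω) - (3 / 16) * (lam ^ (2 : ℕ) * sS (v ω)) * xX u
        - lam ^ (3 : ℕ) * lL u * xX (v ω) - (1 / 1024) * (lam ^ (2 : ℕ) * sS (v ω)) * sS u := by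
    intro ω
    have I := hII u (fun i => ρ * v ω i) hu (inT_smul (hv ω) hρ0 hρ1)
    have e : ∀ g : Equiv.Perm (Fin 3),
        (fun i => eps0 * (fun i => ρ * v ω i) (g i)) = (fun i => lam * v ω (g i)) := by
      intro g
      funext i
      show eps0 * (ρ * v ω (g i)) = _
      rw [← mul_assoc, hρe]
    simp only [e] at I
    refine le_trans I ?_
    rw [sS_smul]
    have e2 : eps0 ^ (2 : ℕ) * (ρ ^ (2 : ℕ) * sS (v ω)) = lam ^ (2 : ℕ) * sS (v ω) := by
      rw [← hρe]; ring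
    rw [e2]
    have hx := xX_smul_ge (hv ω) hρ0 hρ1
    have e4 : lam ^ (3 : ℕ) = eps0 ^ (3 : ℕ) * ρ ^ (3 : ℕ) := by rw [← hρe]; ring
    have : eps0 ^ (3 : ℕ) * lL u * (ρ ^ (3 : ℕ) * xX (v ω))
        ≤ eps0 ^ (3 : ℕ) * lL u * xX (fun i => ρ * v ω i) :=
      mul_le_mul_of_nonneg_left hx (by positivity)
    have e5 : lam ^ (3 : ℕ) * lL u * xX (v ω) = eps0 ^ (3 : ℕ) * lL u * (ρ ^ (3 : ℕ) * xX (v ω)) := by
      rw [e4]; ring
    rw [e5]
    linarith
  have ha := sum_avg hP1 hsym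
    (fun w => mM u (fun i => lam * w i) * sS (vV u (fun i => lam * w i)))
  simp only at ha
  rw [ha]
  calc _ ≤ ∑ ω, P ω * (sS u + lam ^ (2 : ℕ) * sS (v ω) - (3 / 16) * (lam ^ (2 : ℕ) * sS (v ω)) * xX u
        - lam ^ (3 : ℕ) * lL u * xX (v ω) - (1 / 1024) * (lam ^ (2 : ℕ) * sS (v ω)) * sS u) :=
        Finset.sum_le_sum fun ω _ => mul_le_mul_of_nonneg_left (key ω) (hP ω)
    _ = _ := by
          have h : ∀ ω, P ω * (sS u + lam ^ (2 : ℕ) * sS (v ω) - (3 / 16) * (lam ^ (2 : ℕ) * sS (v ω)) * xX u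
              - lam ^ (3 : ℕ) * lL u * xX (v ω) - (1 / 1024) * (lam ^ (2 : ℕ) * sS (v ω)) * sS u)
              = P ω * sS u + (lam ^ (2 : ℕ) * (1 - (3 / 16) * xX u - (1 / 1024) * sS u)) * (P ω * sS (v ω))
                - (lam ^ (3 : ℕ) * lL u) * (P ω * xX (v ω)) := by
            intro ω; ring
          simp_rw [h]
          rw [Finset.sum_sub_distrib, Finset.sum_add_distrib, ← Finset.sum_mul, hP1,
            ← Finset.mul_sum, ← Finset.mul_sum]
          ring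

lemma xX_zero : xX (0 : Fin 3 → ℝ) = 0 := by
  simp [xX, sS, cC]

lemma sS_zero : sS (0 : Fin 3 → ℝ) = 0 := by
  simp [sS]

/-- The conclusion of the two inductions over the number of merged messages. -/
theorem Ak_bounds (hI : IneqI) (hII : IneqII) (h0 : 0 ≤ lam) (hl : lam ^ (2 : ℕ) ≤ 1 / 2)
    (hP : ∀ ω, 0 ≤ P ω) (hP1 : ∑ ω, P ω = 1) (hv : ∀ ω, inT (v ω))
    (hm : ∀ i, ∑ ω, P ω * v ω i = 0)
    (hsym : ∀ (g : Equiv.Perm (Fin 3)) (H : (Fin 3 → ℝ) → ℝ),
      ∑ ω, P ω * H (fun i => v ω (g i)) = ∑ ω, P ω * H (v ω))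
    (hx : 0 ≤ ∑ ω, P ω * xX (v ω)) (k : ℕ) :
    0 ≤ Ak P v lam k xX ∧
      Ak P v lam (k + 1) sS ≤ (1 - (1 / 1024) * (lam ^ (2 : ℕ) * ∑ ω, P ω * sS (v ω)))
          * Ak P v lam k sS + lam ^ (2 : ℕ) * ∑ ω, P ω * sS (v ω) := by
  have h1 := lam_lt_one h0 hl
  set y := ∑ ω, P ω * sS (v ω) with hy
  set x := ∑ ω, P ω * xX (v ω) with hxd
  have hy0 : 0 ≤ y := sum_S_nonneg hP
  have hy6 : y ≤ 6 := sum_S_le hP hP1 hv
  have hX : ∀ k, 0 ≤ Ak P v lam k xX := by
    intro k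
    induction k with
    | zero => rw [Ak_zero, xX_zero]
    | succ k ih =>
      rw [Ak_succ P hv h0 h1]
      have hc : 0 ≤ 1 - (5 / 16) * lam ^ (2 : ℕ) * y := by nlinarith [mul_nonneg (sq_nonneg lam) hy0]
      have hm1 : Ak P v lam k (fun u => (1 - (5 / 16) * lam ^ (2 : ℕ) * y) * xX u)
          ≤ Ak P v lam k (fun u => ∑ ω, P ω * (mM u (fun i => lam * v ω i)
              * xX (vV u (fun i => lam * v ω i)))) := by
        apply Ak_mono P hP hv h0 h1
        intro u hu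
        refine le_trans ?_ (TX_ge hI h0 hl hP hP1 hv hsym u hu)
        have hB : 0 ≤ lam ^ (3 : ℕ) * gG u * (1 - (5 / 32) * sS u) * x := by
          have h1 := gG_nonneg hu
          have h2 := sS_le_six hu
          have h3 : 0 ≤ 1 - (5 / 32) * sS u := by linarith
          positivity
        linarith
      rw [Ak_const_mul] at hm1
      exact le_trans (mul_nonneg hc ih) hm1
  refine ⟨hX k, ?_⟩
  rw [Ak_succ P hv h0 h1]
  have hm1 : Ak P v lam k (fun u => ∑ ω, P ω * (mM u (fun i => lam * v ω i)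
              * sS (vV u (fun i => lam * v ω i))))
      ≤ Ak P v lam k (fun u => (1 - (1 / 1024) * (lam ^ (2 : ℕ) * y)) * sS u
          + ((lam ^ (2 : ℕ) * y) * (fun _ => (1 : ℝ)) u + (-((3 / 16) * (lam ^ (2 : ℕ) * y))) * xX u)) := by
    apply Ak_mono P hP hv h0 h1
    intro u hu
    refine le_trans (TS_le hII h0 hl hP hP1 hv hsym u hu) ?_
    have hB : 0 ≤ lam ^ (3 : ℕ) * lL u * x := by
      have := lL_nonneg hu
      positivity
    simp only [← hy, ← hxd]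
    linarith
  rw [Ak_add, Ak_add, Ak_const_mul, Ak_const_mul, Ak_const_mul, Ak_one hv h0 h1 hP1 hm] at hm1
  have hXk := hX k
  have : 0 ≤ (3 / 16) * (lam ^ (2 : ℕ) * y) * Ak P v lam k xX := by positivity
  nlinarith

/-- The bound on `A_k(s)` for `k ≥ 2`. -/
theorem Ak_sS_le (hI : IneqI) (hII : IneqII) (h0 : 0 ≤ lam) (hl : lam ^ (2 : ℕ) ≤ 1 / 2)
    (hP : ∀ ω, 0 ≤ P ω) (hP1 : ∑ ω, P ω = 1) (hv : ∀ ω, inT (v ω))
    (hm : ∀ i, ∑ ω, P ω * v ω i = 0)
    (hsym : ∀ (g : Equiv.Perm (Fin 3)) (H : (Fin 3 → ℝ) → ℝ),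
      ∑ ω, P ω * H (fun i => v ω (g i)) = ∑ ω, P ω * H (v ω))
    (hx : 0 ≤ ∑ ω, P ω * xX (v ω)) (k : ℕ) :
    Ak P v lam (k + 2) sS ≤ ((k : ℝ) + 2) * (lam ^ (2 : ℕ) * ∑ ω, P ω * sS (v ω))
      - (1 / 1024) * (lam ^ (2 : ℕ) * ∑ ω, P ω * sS (v ω)) ^ (2 : ℕ) := by
  have hb := Ak_bounds hI hII h0 hl hP hP1 hv hm hsym hx
  set y := ∑ ω, P ω * sS (v ω) with hy
  have hy0 : 0 ≤ y := sum_S_nonneg hP
  have hy6 : y ≤ 6 := sum_S_le hP hP1 hv
  set a := lam ^ (2 : ℕ) * y with ha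
  have ha0 : 0 ≤ a := mul_nonneg (sq_nonneg _) hy0
  have ha3 : a ≤ 3 := by nlinarith
  have h1 : 0 ≤ 1 - (1 / 1024) * a := by linarith
  have hA0 : Ak P v lam 0 sS = 0 := by rw [Ak_zero, sS_zero]
  have hA1 : Ak P v lam 1 sS ≤ a := by
    have := (hb 0).2
    rw [hA0] at this
    simpa using this
  induction k with
  | zero =>
    have := (hb 1).2
    have h2 : (1 - (1 / 1024) * a) * Ak P v lam 1 sS ≤ (1 - (1 / 1024) * a) * a :=
      mul_le_mul_of_nonneg_left hA1 h1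
    norm_num at this ⊢
    nlinarith
  | succ k ih =>
    have := (hb (k + 2)).2
    have h2 : (1 - (1 / 1024) * a) * Ak P v lam (k + 2) sS
        ≤ (1 - (1 / 1024) * a) * (((k : ℝ) + 2) * a - (1 / 1024) * a ^ (2 : ℕ)) :=
      mul_le_mul_of_nonneg_left ih h1
    have h3 : 0 ≤ ((k : ℝ) + 2) * a - (1 / 1024) * a ^ (2 : ℕ) := by
      have : (0 : ℝ) ≤ k := Nat.cast_nonneg k
      nlinarith [mul_nonneg this ha0]
    have h4 : (1 - (1 / 1024) * a) * (((k : ℝ) + 2) * a - (1 / 1024) * a ^ (2 : ℕ))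
        ≤ ((k : ℝ) + 2) * a - (1 / 1024) * a ^ (2 : ℕ) := by
      nlinarith [mul_nonneg ha0 h3]
    have e : k + 1 + 2 = k + 2 + 1 := by ring
    rw [e]
    push_cast
    linarith

end Abstract

/-! ### The tree -/

section Concrete

variable (lam : ℝ) (d : ℕ)

/-- Marginal probability of a leaf configuration. -/
noncomputable def marg (n : ℕ) (η : LeafSpins d n) : ℝ := (1 / 3) * ∑ j, lik lam d n j η

/-- The message of a leaf configuration. -/
noncomputable def msg (n : ℕ) (η : LeafSpins d n) (i : Fin 3) : ℝ :=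
  lik lam d n i η / marg lam d n η - 1

lemma potts_sum (i : Fin 3) (a : Fin 3 → ℝ) :
    ∑ j, potts lam i j * a j = lam * a i + (1 - lam) * ((1 / 3) * ∑ j, a j) := by
  simp only [potts, Fin.sum_univ_three]
  fin_cases i <;> simp <;> ring

lemma lik_zero (i : Fin 3) (η : LeafSpins d 0) :
    lik lam d 0 i η = if i = spinZero η then 1 else 0 := rfl

lemma lik_succ (n : ℕ) (i : Fin 3) (η : LeafSpins d (n + 1)) :
    lik lam d (n + 1) i η = ∏ c : Fin d, ∑ j : Fin 3, potts lam i j * lik lam d n j (η c) := rfl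

lemma sum_leaf_zero (f : LeafSpins d 0 → ℝ) : ∑ η, f η = ∑ η : Fin 3, f η := rfl

lemma sum_leaf_succ (n : ℕ) (f : LeafSpins d (n + 1) → ℝ) :
    ∑ η, f η = ∑ η : Fin d → LeafSpins d n, f η := rfl

variable {lam d}

lemma lik_marg_pos (h0 : 0 ≤ lam) (h1 : lam < 1) (n : ℕ) (η : LeafSpins d n) :
    (∀ i, 0 ≤ lik lam d n i η) ∧ 0 < marg lam d n η := by
  induction n with
  | zero =>
    constructor
    · intro i
      rw [lik_zero]
      split_ifs <;> norm_num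
    · unfold marg
      have : ∑ j, lik lam d 0 j η = 1 := by
        simp only [lik_zero]
        simp
      rw [this]
      norm_num
  | succ n ih =>
    have hpos : ∀ i, 0 < lik lam d (n + 1) i η := by
      intro i
      rw [lik_succ]
      apply Finset.prod_pos
      intro c _
      rw [potts_sum]
      have h2 := (ih (η c)).1 i
      have h3 := (ih (η c)).2
      have : 0 < (1 - lam) * marg lam d n (η c) := mul_pos (by linarith) h3
      unfold marg at this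
      have h4 : 0 ≤ lam * lik lam d n i (η c) := mul_nonneg h0 h2
      linarith
    refine ⟨fun i => (hpos i).le, ?_⟩
    unfold marg
    have : 0 < ∑ j, lik lam d (n + 1) j η :=
      Finset.sum_pos (fun i _ => hpos i) ⟨0, Finset.mem_univ _⟩
    positivity

lemma marg_pos (h0 : 0 ≤ lam) (h1 : lam < 1) {n : ℕ} (η : LeafSpins d n) :
    0 < marg lam d n η := (lik_marg_pos h0 h1 n η).2

lemma msg_inT (h0 : 0 ≤ lam) (h1 : lam < 1) {n : ℕ} (η : LeafSpins d n) :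
    inT (msg lam d n η) := by
  have hz := marg_pos h0 h1 η
  refine ⟨?_, fun i => ?_⟩
  · unfold msg
    rw [Finset.sum_sub_distrib, ← Finset.sum_div]
    have : ∑ i, lik lam d n i η = 3 * marg lam d n η := by unfold marg; ring
    rw [this]
    simp only [Finset.sum_const, Finset.card_univ, Fintype.card_fin, nsmul_eq_mul]
    field_simp
    norm_num
  · unfold msg
    have := div_nonneg ((lik_marg_pos h0 h1 n η).1 i) hz.le
    linarith

/-- Key identity: the channel acts on the message by multiplication with `lam`. -/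
lemma potts_lik (h0 : 0 ≤ lam) (h1 : lam < 1) {n : ℕ} (i : Fin 3) (ω : LeafSpins d n) :
    ∑ j, potts lam i j * lik lam d n j ω = marg lam d n ω * (1 + lam * msg lam d n ω i) := by
  rw [potts_sum]
  have hz := marg_pos h0 h1 ω
  have e : (1 / 3) * ∑ j, lik lam d n j ω = marg lam d n ω := rfl
  rw [e]
  unfold msg
  field_simp
  ring

lemma lik_sum (n : ℕ) (i : Fin 3) : ∑ η, lik lam d n i η = 1 := by
  induction n generalizing i with
  | zero =>
    show ∑ η : Fin 3, (if i = η then (1 : ℝ) else 0) = 1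
    simp
  | succ n ih =>
    show ∑ η : Fin d → LeafSpins d n, ∏ c : Fin d, ∑ j : Fin 3,
      potts lam i j * lik lam d n j (η c) = 1
    have := (Finset.prod_univ_sum (fun _ : Fin d => (Finset.univ : Finset (LeafSpins d n)))
      (fun _ ω => ∑ j : Fin 3, potts lam i j * lik lam d n j ω))
    rw [Fintype.piFinset_univ] at this
    rw [← this]
    apply Finset.prod_eq_one
    intro c _
    rw [Finset.sum_comm]
    simp_rw [← Finset.mul_sum, ih, mul_one]
    simp only [potts, Fin.sum_univ_three]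
    fin_cases i <;> simp <;> ring

lemma marg_sum (n : ℕ) : ∑ η, marg lam d n η = 1 := by
  unfold marg
  rw [← Finset.mul_sum, Finset.sum_comm]
  simp_rw [lik_sum]
  simp

lemma msg_mean (h0 : 0 ≤ lam) (h1 : lam < 1) (n : ℕ) (i : Fin 3) :
    ∑ η, marg lam d n η * msg lam d n η i = 0 := by
  have : ∀ η, marg lam d n η * msg lam d n η i = lik lam d n i η - marg lam d n η := by
    intro η
    have hz := marg_pos h0 h1 η
    unfold msg
    field_simp
  simp_rw [this]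
  rw [Finset.sum_sub_distrib, lik_sum, marg_sum]
  simp

/-- Symmetric group action on leaf configurations. -/
def act (g : Equiv.Perm (Fin 3)) : (n : ℕ) → LeafSpins d n → LeafSpins d n
  | 0, η => (g (spinZero η) : Fin 3)
  | n + 1, η => fun c => act g n (η c)

lemma act_inv (g : Equiv.Perm (Fin 3)) (n : ℕ) (η : LeafSpins d n) :
    act g⁻¹ n (act g n η) = η := by
  induction n with
  | zero =>
    exact g.symm_apply_apply η
  | succ n ih =>
    funext c
    exact ih (η c)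

lemma act_bij (g : Equiv.Perm (Fin 3)) (n : ℕ) :
    Function.Bijective (act g n : LeafSpins d n → LeafSpins d n) := by
  constructor
  · intro a b h
    have := congrArg (act g⁻¹ n) h
    rwa [act_inv, act_inv] at this
  · intro b
    refine ⟨act g⁻¹ n b, ?_⟩
    have := act_inv g⁻¹ n b
    rwa [inv_inv] at this

lemma potts_act (g : Equiv.Perm (Fin 3)) (i j : Fin 3) : potts lam (g i) (g j) = potts lam i j := by
  simp [potts, g.injective.eq_iff]

lemma lik_act (g : Equiv.Perm (Fin 3)) (n : ℕ) (i : Fin 3) (η : LeafSpins d n) :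
    lik lam d n (g i) (act g n η) = lik lam d n i η := by
  induction n generalizing i with
  | zero =>
    rw [lik_zero, lik_zero]
    show (if g i = g (spinZero η) then (1 : ℝ) else 0) = _
    simp [g.injective.eq_iff]
  | succ n ih =>
    rw [lik_succ, lik_succ]
    apply Finset.prod_congr rfl
    intro c _
    rw [← Equiv.sum_comp g]
    apply Finset.sum_congr rfl
    intro j _
    rw [potts_act]
    congr 1
    exact ih j (η c)

lemma marg_act (g : Equiv.Perm (Fin 3)) (n : ℕ) (η : LeafSpins d n) :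
    marg lam d n (act g n η) = marg lam d n η := by
  unfold marg
  rw [← Equiv.sum_comp g]
  simp_rw [lik_act]

lemma msg_act (g : Equiv.Perm (Fin 3)) (n : ℕ) (η : LeafSpins d n) (i : Fin 3) :
    msg lam d n (act g⁻¹ n η) i = msg lam d n η (g i) := by
  unfold msg
  rw [marg_act]
  congr 2
  have := lik_act (lam := lam) g⁻¹ n (g i) η
  simpa using this

lemma msg_sym (g : Equiv.Perm (Fin 3)) (n : ℕ) (H : (Fin 3 → ℝ) → ℝ) :
    ∑ ω, marg lam d n ω * H (fun i => msg lam d n ω (g i))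
      = ∑ ω, marg lam d n ω * H (msg lam d n ω) := by
  rw [← (act_bij (d := d) g⁻¹ n).sum_comp (fun ω => marg lam d n ω * H (msg lam d n ω))]
  apply Finset.sum_congr rfl
  intro ω _
  rw [marg_act]
  congr 2
  funext i
  exact (msg_act g n ω i).symm

/-- Expectation under the tree of depth `n + 1` is the merging of `d` independent messages. -/
lemma lik_succ_wt (h0 : 0 ≤ lam) (h1 : lam < 1) (n : ℕ) (i : Fin 3) (η : LeafSpins d (n + 1)) :
    lik lam d (n + 1) i η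
      = (∏ c, marg lam d n (η c)) * wt (msg lam d n) lam (η : Fin d → LeafSpins d n) i := by
  rw [lik_succ]
  unfold wt
  rw [← Finset.prod_mul_distrib]
  apply Finset.prod_congr rfl
  intro c _
  exact potts_lik h0 h1 i (η c)

lemma marg_succ_zz (h0 : 0 ≤ lam) (h1 : lam < 1) (n : ℕ) (η : LeafSpins d (n + 1)) :
    marg lam d (n + 1) η
      = (∏ c, marg lam d n (η c)) * zz (msg lam d n) lam (η : Fin d → LeafSpins d n) := by
  have e : marg lam d (n + 1) η = (1 / 3) * ∑ j, lik lam d (n + 1) j η := rfl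
  rw [e]
  unfold zz
  simp_rw [lik_succ_wt h0 h1]
  rw [← Finset.mul_sum]
  ring

lemma msg_succ_uu (h0 : 0 ≤ lam) (h1 : lam < 1) (n : ℕ) (η : LeafSpins d (n + 1)) :
    msg lam d (n + 1) η = uu (msg lam d n) lam (η : Fin d → LeafSpins d n) := by
  funext i
  have e1 : msg lam d (n + 1) η i = lik lam d (n + 1) i η / marg lam d (n + 1) η - 1 := rfl
  have e2 : uu (msg lam d n) lam (η : Fin d → LeafSpins d n) i
      = wt (msg lam d n) lam (η : Fin d → LeafSpins d n) i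
        / zz (msg lam d n) lam (η : Fin d → LeafSpins d n) - 1 := rfl
  rw [e1, e2, marg_succ_zz h0 h1, lik_succ_wt h0 h1]
  have hp : 0 < ∏ c, marg lam d n (η c) := Finset.prod_pos fun c _ => marg_pos h0 h1 (η c)
  have hz := zz_pos (fun ω => msg_inT h0 h1 ω) h0 h1 (η : Fin d → LeafSpins d n)
  field_simp

lemma expect_succ (h0 : 0 ≤ lam) (h1 : lam < 1) (n : ℕ) (F : (Fin 3 → ℝ) → ℝ) :
    ∑ η, marg lam d (n + 1) η * F (msg lam d (n + 1) η)
      = Ak (marg lam d n) (msg lam d n) lam d F := by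
  rw [sum_leaf_succ]
  unfold Ak
  apply Finset.sum_congr rfl
  intro η _
  have e1 := marg_succ_zz (lam := lam) h0 h1 n η
  have e2 := msg_succ_uu (lam := lam) h0 h1 n η
  rw [e1, e2]

/-- `y_n`. -/
noncomputable def yy (lam : ℝ) (d n : ℕ) : ℝ := ∑ η, marg lam d n η * sS (msg lam d n η)

/-- `x_n`. -/
noncomputable def xx (lam : ℝ) (d n : ℕ) : ℝ := ∑ η, marg lam d n η * xX (msg lam d n η)

lemma yy_nonneg (h0 : 0 ≤ lam) (h1 : lam < 1) (n : ℕ) : 0 ≤ yy lam d n :=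
  Finset.sum_nonneg fun η _ => mul_nonneg (marg_pos h0 h1 η).le (sS_nonneg _)

lemma msg_zero (η : LeafSpins d 0) (i : Fin 3) :
    msg lam d 0 η i = if i = spinZero η then 2 else -1 := by
  unfold msg marg
  simp only [lik_zero]
  have : ∑ j : Fin 3, (if j = spinZero η then (1 : ℝ) else 0) = 1 := by simp
  rw [this]
  split_ifs <;> norm_num

lemma xX_msg_zero (η : LeafSpins d 0) : 0 ≤ xX (msg lam d 0 η) := by
  have hs : sS (msg lam d 0 η) = 6 := by
    unfold sS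
    simp only [msg_zero, Fin.sum_univ_three]
    generalize spinZero η = t
    fin_cases t <;> simp <;> norm_num
  have hc : cC (msg lam d 0 η) = 6 := by
    unfold cC
    simp only [msg_zero, Fin.sum_univ_three]
    generalize spinZero η = t
    fin_cases t <;> simp <;> norm_num
  unfold xX
  rw [hs, hc]
  norm_num

lemma xx_nonneg (h0 : 0 ≤ lam) (h1 : lam < 1) (hI : IneqI) (hII : IneqII)
    (hl : lam ^ (2 : ℕ) ≤ 1 / 2) (n : ℕ) : 0 ≤ xx lam d n := by
  induction n with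
  | zero =>
    exact Finset.sum_nonneg fun η _ => mul_nonneg (marg_pos h0 h1 η).le (xX_msg_zero η)
  | succ n ih =>
    unfold xx
    rw [expect_succ h0 h1]
    exact (Ak_bounds hI hII h0 hl (fun ω => (marg_pos h0 h1 ω).le) (marg_sum n)
      (fun ω => msg_inT h0 h1 ω) (msg_mean h0 h1 n) (fun g H => msg_sym g n H) ih d).1

/-- The recursion for `y_n`. -/
lemma yy_succ (hI : IneqI) (hII : IneqII) (hd : 2 ≤ d) (h0 : 0 ≤ lam)
    (h : (d : ℝ) * lam ^ (2 : ℕ) ≤ 1) (n : ℕ) :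
    yy lam d (n + 1) ≤ yy lam d n - (1 / 1024) * (lam ^ (2 : ℕ) * yy lam d n) ^ (2 : ℕ) := by
  have hd2 : (2 : ℝ) ≤ d := by exact_mod_cast hd
  have hl : lam ^ (2 : ℕ) ≤ 1 / 2 := by nlinarith [sq_nonneg lam]
  have h1 := lam_lt_one h0 hl
  obtain ⟨k, rfl⟩ : ∃ k, d = k + 2 := ⟨d - 2, by omega⟩
  have hb := Ak_sS_le (P := marg lam (k + 2) n) (v := msg lam (k + 2) n) hI hII h0 hl
      (fun ω => (marg_pos h0 h1 ω).le) (marg_sum n)
      (fun ω => msg_inT h0 h1 ω) (msg_mean h0 h1 n) (fun g H => msg_sym g n H)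
      (xx_nonneg h0 h1 hI hII hl n) k
  unfold yy
  rw [expect_succ h0 h1]
  refine le_trans hb ?_
  have hy := yy_nonneg (d := k + 2) h0 h1 n
  unfold yy at hy
  set y := ∑ η, marg lam (k + 2) n η * sS (msg lam (k + 2) n η)
  have e : ((k : ℝ) + 2) * (lam ^ (2 : ℕ) * y) = ((((k + 2 : ℕ) : ℝ)) * lam ^ (2 : ℕ)) * y := by
    push_cast; ring
  rw [e]
  have : ((((k + 2 : ℕ) : ℝ)) * lam ^ (2 : ℕ)) * y ≤ 1 * y := mul_le_mul_of_nonneg_right h hy
  linarith

lemma yy_tendsto (hI : IneqI) (hII : IneqII) (hd : 2 ≤ d) (h0 : 0 ≤ lam)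
    (h : (d : ℝ) * lam ^ (2 : ℕ) ≤ 1) : Tendsto (yy lam d) atTop (𝓝 0) := by
  have hd2 : (2 : ℝ) ≤ d := by exact_mod_cast hd
  have hl : lam ^ (2 : ℕ) ≤ 1 / 2 := by nlinarith [sq_nonneg lam]
  have h1 := lam_lt_one h0 hl
  have hy := fun n => yy_nonneg (d := d) h0 h1 n
  have hs := yy_succ hI hII hd h0 h
  have hanti : Antitone (yy lam d) := by
    apply antitone_nat_of_succ_le
    intro n
    have := hs n
    nlinarith [sq_nonneg (lam ^ (2 : ℕ) * yy lam d n)]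
  rcases eq_or_lt_of_le h0 with rfl | hpos
  · -- `lam = 0`: the first step kills everything.
    have hz : ∀ n, yy 0 d (n + 1) = 0 := by
      intro n
      apply le_antisymm _ (hy _)
      have hk : 2 ≤ d := hd
      obtain ⟨k, rfl⟩ : ∃ k, d = k + 2 := ⟨d - 2, by omega⟩
      have hb := Ak_sS_le (P := marg 0 (k + 2) n) (v := msg 0 (k + 2) n) hI hII (le_refl (0 : ℝ)) hl
        (fun ω => (marg_pos h0 h1 ω).le)
        (marg_sum n) (fun ω => msg_inT h0 h1 ω) (msg_mean h0 h1 n) (fun g H => msg_sym g n H)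
        (xx_nonneg h0 h1 hI hII hl n) k
      unfold yy
      rw [expect_succ h0 h1]
      refine le_trans hb ?_
      simp
    rw [← tendsto_add_atTop_iff_nat 1]
    simp only [hz]
    exact tendsto_const_nhds
  · have hbdd : BddBelow (Set.range (yy lam d)) := ⟨0, by rintro _ ⟨n, rfl⟩; exact hy n⟩
    have hlim := tendsto_atTop_ciInf hanti hbdd
    set L := ⨅ n, yy lam d n with hL
    have hL0 : 0 ≤ L := le_ciInf hy
    have hlim1 : Tendsto (fun n => yy lam d (n + 1)) atTop (𝓝 L) :=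
      (tendsto_add_atTop_iff_nat 1).2 hlim
    have hlim2 : Tendsto (fun n => yy lam d n - (1 / 1024) * (lam ^ (2 : ℕ) * yy lam d n) ^ (2 : ℕ)) atTop
        (𝓝 (L - (1 / 1024) * (lam ^ (2 : ℕ) * L) ^ (2 : ℕ))) :=
      hlim.sub (((hlim.const_mul _).pow 2).const_mul _)
    have hle := le_of_tendsto_of_tendsto' hlim1 hlim2 hs
    have hq : (lam ^ (2 : ℕ) * L) ^ (2 : ℕ) ≤ 0 := by nlinarith
    have hq' : lam ^ (2 : ℕ) * L = 0 := by
      have := sq_nonneg (lam ^ (2 : ℕ) * L)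
      exact pow_eq_zero_iff (by norm_num) |>.1 (le_antisymm hq this)
    have hLz : L = 0 := by
      have hlp : lam ^ (2 : ℕ) ≠ 0 := by positivity
      exact (mul_eq_zero.1 hq').resolve_left hlp
    rw [hLz] at hlim
    exact hlim

lemma recon_eq (h0 : 0 ≤ lam) (h1 : lam < 1) (n : ℕ) :
    recon lam d n = (1 / 6) * ∑ η, marg lam d n η * ∑ i, |msg lam d n η i| := by
  unfold recon
  rw [Finset.mul_sum]
  apply Finset.sum_congr rfl
  intro η _
  have hz := marg_pos h0 h1 η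
  have h : ∀ i, |(1 / 3) * lik lam d n i η - (1 / 3) * ((1 / 3) * ∑ j : Fin 3, lik lam d n j η)|
      = (1 / 3) * marg lam d n η * |msg lam d n η i| := by
    intro i
    have e : (1 / 3) * lik lam d n i η - (1 / 3) * ((1 / 3) * ∑ j : Fin 3, lik lam d n j η)
        = (1 / 3) * marg lam d n η * msg lam d n η i := by
      have e' : (1 / 3) * ∑ j : Fin 3, lik lam d n j η = marg lam d n η := rfl
      rw [e']
      unfold msg
      field_simp
    rw [e, abs_mul, abs_of_pos (by positivity : 0 < (1 / 3) * marg lam d n η)]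
  simp_rw [h]
  rw [← Finset.mul_sum]
  ring

lemma sum_abs_sq_le (v : Fin 3 → ℝ) : (∑ i, |v i|) ^ (2 : ℕ) ≤ 3 * sS v := by
  rw [sS_eq]
  simp only [Fin.sum_univ_three]
  have h0 := sq_abs (v 0)
  have h1 := sq_abs (v 1)
  have h2 := sq_abs (v 2)
  nlinarith [sq_nonneg (|v 0| - |v 1|), sq_nonneg (|v 0| - |v 2|), sq_nonneg (|v 1| - |v 2|)]

lemma recon_sq_le (h0 : 0 ≤ lam) (h1 : lam < 1) (n : ℕ) :
    recon lam d n ^ (2 : ℕ) ≤ yy lam d n / 12 := by
  rw [recon_eq h0 h1]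
  set a : LeafSpins d n → ℝ := fun η => ∑ i, |msg lam d n η i| with ha
  set m := ∑ η, marg lam d n η * a η with hm
  have hv : 0 ≤ ∑ η, marg lam d n η * (a η - m) ^ (2 : ℕ) :=
    Finset.sum_nonneg fun η _ => mul_nonneg (marg_pos h0 h1 η).le (sq_nonneg _)
  have he : ∑ η, marg lam d n η * (a η - m) ^ (2 : ℕ)
      = ∑ η, marg lam d n η * a η ^ (2 : ℕ) - m ^ (2 : ℕ) := by
    have h : ∀ η, marg lam d n η * (a η - m) ^ (2 : ℕ)
        = marg lam d n η * a η ^ (2 : ℕ) - 2 * m * (marg lam d n η * a η) + m ^ (2 : ℕ) * marg lam d n η := by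
      intro η; ring
    simp_rw [h]
    rw [Finset.sum_add_distrib, Finset.sum_sub_distrib, ← Finset.mul_sum, ← Finset.mul_sum,
      marg_sum, ← hm]
    ring
  have hle : ∑ η, marg lam d n η * a η ^ (2 : ℕ) ≤ 3 * yy lam d n := by
    unfold yy
    rw [Finset.mul_sum]
    apply Finset.sum_le_sum
    intro η _
    have := mul_le_mul_of_nonneg_left (sum_abs_sq_le (msg lam d n η)) (marg_pos h0 h1 η).le
    simp only [ha]
    linarith
  nlinarith

/-- **Part A**: the pointwise inequalities imply nonreconstruction. -/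
theorem framework (hI : IneqI) (hII : IneqII) (hd : 2 ≤ d) (h0 : 0 ≤ lam)
    (h : (d : ℝ) * lam ^ (2 : ℕ) ≤ 1) : Tendsto (recon lam d) atTop (𝓝 0) := by
  have hd2 : (2 : ℝ) ≤ d := by exact_mod_cast hd
  have hl : lam ^ (2 : ℕ) ≤ 1 / 2 := by nlinarith [sq_nonneg lam]
  have h1 := lam_lt_one h0 hl
  have hy := yy_tendsto hI hII hd h0 h
  have hr0 : ∀ n, 0 ≤ recon lam d n := by
    intro n
    unfold recon
    exact Finset.sum_nonneg fun η _ => mul_nonneg (by norm_num)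
      (Finset.sum_nonneg fun i _ => abs_nonneg _)
  have hsq : Tendsto (fun n => Real.sqrt (yy lam d n / 12)) atTop (𝓝 0) := by
    have := (hy.div_const 12).sqrt
    simpa using this
  refine squeeze_zero hr0 (fun n => ?_) hsq
  exact Real.le_sqrt_of_sq_le (recon_sq_le h0 h1 n)

end Concrete

end Vale.Agent.Lib.P154
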