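/-!
First-order Taylor models in fixed point (40 fractional bits), written over `Nat` only,
for evaluation by the kernel.  A Taylor model stands for a real function on `[-1,1]^4`:
centre `(cp - cn)/2^40`, four gradient entries `(pi - ni)/2^40`, a bound `r` on the sum of the
absolute gradient entries and an error bound `e` (both scaled by `2^40`).
The soundness proofs are in `TMSound.lean`.
-/

namespace Vale.Agent.Lib.P154

/-- A fixed point first-order Taylor model in four variables. -/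
structure TM where
  cp : Nat
  cn : Nat
  p1 : Nat
  n1 : Nat
  p2 : Nat
  n2 : Nat
  p3 : Nat
  n3 : Nat
  p4 : Nat
  n4 : Nat
  r : Nat
  e : Nat

/-- Assemble a model, computing the exact gradient norm. -/
def mkT (cp cn p1 n1 p2 n2 p3 n3 p4 n4 e : Nat) : TM :=
  TM.mk cp cn p1 n1 p2 n2 p3 n3 p4 n4
    (Nat.add (Nat.add (Nat.sub p1 n1) (Nat.sub n1 p1))
      (Nat.add (Nat.add (Nat.sub p2 n2) (Nat.sub n2 p2))
        (Nat.add (Nat.add (Nat.sub p3 n3) (Nat.sub n3 p3))
          (Nat.add (Nat.sub p4 n4) (Nat.sub n4 p4))))) e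

/-- Core of the product: centre `(cp,cn)`, gradient `A * (x,z) + B * (y,w)`. -/
def mulCore (A B x1 z1 x2 z2 x3 z3 x4 z4 y1 w1 y2 w2 y3 w3 y4 w4 cp cn E : Nat) : TM :=
  mkT cp cn
    (Nat.shiftRight (Nat.add (Nat.mul A x1) (Nat.mul B y1)) 40)
    (Nat.shiftRight (Nat.add (Nat.mul A z1) (Nat.mul B w1)) 40)
    (Nat.shiftRight (Nat.add (Nat.mul A x2) (Nat.mul B y2)) 40)
    (Nat.shiftRight (Nat.add (Nat.mul A z2) (Nat.mul B w2)) 40)
    (Nat.shiftRight (Nat.add (Nat.mul A x3) (Nat.mul B y3)) 40)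
    (Nat.shiftRight (Nat.add (Nat.mul A z3) (Nat.mul B w3)) 40)
    (Nat.shiftRight (Nat.add (Nat.mul A x4) (Nat.mul B y4)) 40)
    (Nat.shiftRight (Nat.add (Nat.mul A z4) (Nat.mul B w4)) 40)
    E

/-- Error term of a product. -/
def mulErr (A B ra ea rb eb : Nat) : Nat :=
  Nat.add (Nat.shiftRight
    (Nat.add (Nat.mul A eb) (Nat.add (Nat.mul B ea) (Nat.mul (Nat.add ra ea) (Nat.add rb eb)))) 40) 6

/-- Product of Taylor models. -/
noncomputable def mulT (a b : TM) : TM :=
  TM.rec (motive := fun _ => TM) (fun acp acn ap1 an1 ap2 an2 ap3 an3 ap4 an4 ar ae =>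
    TM.rec (motive := fun _ => TM) (fun bcp bcn bp1 bn1 bp2 bn2 bp3 bn3 bp4 bn4 br be =>
      Bool.rec (motive := fun _ => TM)
        -- `a` negative
        ((fun A =>
          Bool.rec (motive := fun _ => TM)
            ((fun B => mulCore A B bn1 bp1 bn2 bp2 bn3 bp3 bn4 bp4 an1 ap1 an2 ap2 an3 ap3 an4 ap4
                (Nat.shiftRight (Nat.mul A B) 40) 0 (mulErr A B ar ae br be)) (Nat.sub bcn bcp))
            ((fun B => mulCore A B bn1 bp1 bn2 bp2 bn3 bp3 bn4 bp4 ap1 an1 ap2 an2 ap3 an3 ap4 an4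
                0 (Nat.shiftRight (Nat.mul A B) 40) (mulErr A B ar ae br be)) (Nat.sub bcp bcn))
            (Nat.ble bcn bcp)) (Nat.sub acn acp))
        -- `a` nonnegative
        ((fun A =>
          Bool.rec (motive := fun _ => TM)
            ((fun B => mulCore A B bp1 bn1 bp2 bn2 bp3 bn3 bp4 bn4 an1 ap1 an2 ap2 an3 ap3 an4 ap4
                0 (Nat.shiftRight (Nat.mul A B) 40) (mulErr A B ar ae br be)) (Nat.sub bcn bcp))
            ((fun B => mulCore A B bp1 bn1 bp2 bn2 bp3 bn3 bp4 bn4 ap1 an1 ap2 an2 ap3 an3 ap4 an4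
                (Nat.shiftRight (Nat.mul A B) 40) 0 (mulErr A B ar ae br be)) (Nat.sub bcp bcn))
            (Nat.ble bcn bcp)) (Nat.sub acp acn))
        (Nat.ble acn acp)) b) a

/-- Square, with the second order term recentred: centre `c^2 + R^2/2`, error `2|c|e + R^2/2`. -/
def sqCore (A Q x1 z1 x2 z2 x3 z3 x4 z4 e : Nat) : TM :=
  (fun A2 =>
  mkT (Nat.shiftRight (Nat.add (Nat.mul A A2) Q) 41) 0
    (Nat.shiftRight (Nat.mul A2 x1) 40) (Nat.shiftRight (Nat.mul A2 z1) 40)
    (Nat.shiftRight (Nat.mul A2 x2) 40) (Nat.shiftRight (Nat.mul A2 z2) 40)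
    (Nat.shiftRight (Nat.mul A2 x3) 40) (Nat.shiftRight (Nat.mul A2 z3) 40)
    (Nat.shiftRight (Nat.mul A2 x4) 40) (Nat.shiftRight (Nat.mul A2 z4) 40)
    (Nat.add (Nat.shiftRight (Nat.add (Nat.mul (Nat.add A2 A2) e) Q) 41) 6)) (Nat.add A A)

/-- Square of a Taylor model. -/
noncomputable def sqT (a : TM) : TM :=
  TM.rec (motive := fun _ => TM) (fun acp acn ap1 an1 ap2 an2 ap3 an3 ap4 an4 ar ae =>
    (fun Q =>
      Bool.rec (motive := fun _ => TM)
        (sqCore (Nat.sub acn acp) Q an1 ap1 an2 ap2 an3 ap3 an4 ap4 ae)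
        (sqCore (Nat.sub acp acn) Q ap1 an1 ap2 an2 ap3 an3 ap4 an4 ae)
        (Nat.ble acn acp)) ((fun R => Nat.mul R R) (Nat.add ar ae))) a

/-- Sum of Taylor models. -/
noncomputable def addT (a b : TM) : TM :=
  TM.rec (motive := fun _ => TM) (fun acp acn ap1 an1 ap2 an2 ap3 an3 ap4 an4 ar ae =>
    TM.rec (motive := fun _ => TM) (fun bcp bcn bp1 bn1 bp2 bn2 bp3 bn3 bp4 bn4 br be =>
      TM.mk (Nat.add acp bcp) (Nat.add acn bcn)
        (Nat.add ap1 bp1) (Nat.add an1 bn1) (Nat.add ap2 bp2) (Nat.add an2 bn2)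
        (Nat.add ap3 bp3) (Nat.add an3 bn3) (Nat.add ap4 bp4) (Nat.add an4 bn4)
        (Nat.add ar br) (Nat.add ae be)) b) a

/-- Difference of Taylor models. -/
noncomputable def subT (a b : TM) : TM :=
  TM.rec (motive := fun _ => TM) (fun acp acn ap1 an1 ap2 an2 ap3 an3 ap4 an4 ar ae =>
    TM.rec (motive := fun _ => TM) (fun bcp bcn bp1 bn1 bp2 bn2 bp3 bn3 bp4 bn4 br be =>
      TM.mk (Nat.add acp bcn) (Nat.add acn bcp)
        (Nat.add ap1 bn1) (Nat.add an1 bp1) (Nat.add ap2 bn2) (Nat.add an2 bp2)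
        (Nat.add ap3 bn3) (Nat.add an3 bp3) (Nat.add ap4 bn4) (Nat.add an4 bp4)
        (Nat.add ar br) (Nat.add ae be)) b) a

/-- Recompute the exact gradient norm. -/
noncomputable def nrmT (a : TM) : TM :=
  TM.rec (motive := fun _ => TM) (fun acp acn ap1 an1 ap2 an2 ap3 an3 ap4 an4 _ ae =>
    mkT acp acn ap1 an1 ap2 an2 ap3 an3 ap4 an4 ae) a

/-- Add the constant `q / 2^40`. -/
noncomputable def addC (q : Nat) (a : TM) : TM :=
  TM.rec (motive := fun _ => TM) (fun acp acn ap1 an1 ap2 an2 ap3 an3 ap4 an4 ar ae =>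
    TM.mk (Nat.add acp q) acn ap1 an1 ap2 an2 ap3 an3 ap4 an4 ar ae) a

/-- Subtract the constant `q / 2^40`. -/
noncomputable def subC (q : Nat) (a : TM) : TM :=
  TM.rec (motive := fun _ => TM) (fun acp acn ap1 an1 ap2 an2 ap3 an3 ap4 an4 ar ae =>
    TM.mk acp (Nat.add acn q) ap1 an1 ap2 an2 ap3 an3 ap4 an4 ar ae) a

/-- The constant `q / 2^40` minus `a`. -/
noncomputable def rsubC (q : Nat) (a : TM) : TM :=
  TM.rec (motive := fun _ => TM) (fun acp acn ap1 an1 ap2 an2 ap3 an3 ap4 an4 ar ae =>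
    TM.mk (Nat.add acn q) acp an1 ap1 an2 ap2 an3 ap3 an4 ap4 ar ae) a

/-- Negation. -/
noncomputable def negT (a : TM) : TM :=
  TM.rec (motive := fun _ => TM) (fun acp acn ap1 an1 ap2 an2 ap3 an3 ap4 an4 ar ae =>
    TM.mk acn acp an1 ap1 an2 ap2 an3 ap3 an4 ap4 ar ae) a

/-- Multiplication by the natural number `n`. -/
noncomputable def smulT (n : Nat) (a : TM) : TM :=
  TM.rec (motive := fun _ => TM) (fun acp acn ap1 an1 ap2 an2 ap3 an3 ap4 an4 ar ae =>
    TM.mk (Nat.mul n acp) (Nat.mul n acn)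
      (Nat.mul n ap1) (Nat.mul n an1) (Nat.mul n ap2) (Nat.mul n an2)
      (Nat.mul n ap3) (Nat.mul n an3) (Nat.mul n ap4) (Nat.mul n an4)
      (Nat.mul n ar) (Nat.mul n ae)) a

/-- Multiplication by `n / 2^j`. -/
noncomputable def scaleT (n j : Nat) (a : TM) : TM :=
  TM.rec (motive := fun _ => TM) (fun acp acn ap1 an1 ap2 an2 ap3 an3 ap4 an4 ar ae =>
    TM.mk (Nat.shiftRight (Nat.mul n acp) j) (Nat.shiftRight (Nat.mul n acn) j)
      (Nat.shiftRight (Nat.mul n ap1) j) (Nat.shiftRight (Nat.mul n an1) j)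
      (Nat.shiftRight (Nat.mul n ap2) j) (Nat.shiftRight (Nat.mul n an2) j)
      (Nat.shiftRight (Nat.mul n ap3) j) (Nat.shiftRight (Nat.mul n an3) j)
      (Nat.shiftRight (Nat.mul n ap4) j) (Nat.shiftRight (Nat.mul n an4) j)
      (Nat.add (Nat.shiftRight (Nat.mul n ar) j) 5)
      (Nat.add (Nat.shiftRight (Nat.mul n ae) j) 6)) a

/-- Division by `2^j`. -/
noncomputable def shrT (j : Nat) (a : TM) : TM :=
  TM.rec (motive := fun _ => TM) (fun acp acn ap1 an1 ap2 an2 ap3 an3 ap4 an4 ar ae =>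
    TM.mk (Nat.shiftRight acp j) (Nat.shiftRight acn j)
      (Nat.shiftRight ap1 j) (Nat.shiftRight an1 j)
      (Nat.shiftRight ap2 j) (Nat.shiftRight an2 j)
      (Nat.shiftRight ap3 j) (Nat.shiftRight an3 j)
      (Nat.shiftRight ap4 j) (Nat.shiftRight an4 j)
      (Nat.add (Nat.shiftRight ar j) 5)
      (Nat.add (Nat.shiftRight ae j) 6)) a

/-- Division by `3`: multiplication by `366503875925 / 2^40`, with the error of that constant. -/
noncomputable def thirdT (a : TM) : TM :=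
  TM.rec (motive := fun _ => TM) (fun acp acn ap1 an1 ap2 an2 ap3 an3 ap4 an4 ar ae =>
    TM.mk (Nat.shiftRight (Nat.mul 366503875925 acp) 40) (Nat.shiftRight (Nat.mul 366503875925 acn) 40)
      (Nat.shiftRight (Nat.mul 366503875925 ap1) 40) (Nat.shiftRight (Nat.mul 366503875925 an1) 40)
      (Nat.shiftRight (Nat.mul 366503875925 ap2) 40) (Nat.shiftRight (Nat.mul 366503875925 an2) 40)
      (Nat.shiftRight (Nat.mul 366503875925 ap3) 40) (Nat.shiftRight (Nat.mul 366503875925 an3) 40)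
      (Nat.shiftRight (Nat.mul 366503875925 ap4) 40) (Nat.shiftRight (Nat.mul 366503875925 an4) 40)
      (Nat.add (Nat.shiftRight (Nat.mul 366503875925 ar) 40) 5)
      (Nat.add (Nat.add (Nat.shiftRight (Nat.mul 366503875925 ae) 40) 7)
        (Nat.shiftRight (Nat.add acp (Nat.add acn (Nat.add ar ae))) 40))) a

/-- Inverse of a Taylor model with positive lower bound; see `posT`.
With `C` the centre, `R = r + e`, `L = C - R`: the centre is `1/C + q`, the gradient
`- g / C^2` and the error `e / C^2 + q`, where `q` is half of an upper bound of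
`R^2 / (C^2 L)`. -/
noncomputable def invT (a : TM) : TM :=
  TM.rec (motive := fun _ => TM) (fun acp acn ap1 an1 ap2 an2 ap3 an3 ap4 an4 ar ae =>
    (fun C R =>
      (fun J =>
        (fun J2 =>
          (fun J3 =>
            (fun Q =>
              TM.mk (Nat.add J Q) 0
                (Nat.shiftRight (Nat.mul J2 an1) 40) (Nat.shiftRight (Nat.mul J2 ap1) 40)
                (Nat.shiftRight (Nat.mul J2 an2) 40) (Nat.shiftRight (Nat.mul J2 ap2) 40)
                (Nat.shiftRight (Nat.mul J2 an3) 40) (Nat.shiftRight (Nat.mul J2 ap3) 40)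
                (Nat.shiftRight (Nat.mul J2 an4) 40) (Nat.shiftRight (Nat.mul J2 ap4) 40)
                (Nat.add (Nat.shiftRight (Nat.mul J3 ar) 40) 5)
                (Nat.add (Nat.add (Nat.shiftRight (Nat.mul J3 ae) 40) Q)
                  (Nat.add (Nat.shiftRight (Nat.mul (Nat.sub J3 J2) ar) 40) 8)))
              (Nat.shiftRight
                (Nat.add (Nat.div (Nat.mul (Nat.mul R R) J3)
                  (Nat.shiftLeft (Nat.sub C R) 40)) 2) 1))
            (Nat.add (Nat.add J2 2) (Nat.shiftRight (Nat.add (Nat.add J J) 1) 40)))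
          (Nat.shiftRight (Nat.mul J J) 40))
        (Nat.div 1208925819614629174706176 C))
      (Nat.sub acp acn) (Nat.add ar ae)) a

/-- The model is certified strictly positive. -/
def posT (a : TM) : Bool :=
  Nat.ble (Nat.add (Nat.add a.cn 1) (Nat.add a.r a.e)) a.cp

/-- The model is certified nonnegative, recomputing the gradient norm exactly. -/
def nonnegT (a : TM) : Bool :=
  Nat.ble
    (Nat.add a.cn (Nat.add a.e
      (Nat.add (Nat.add (Nat.sub a.p1 a.n1) (Nat.sub a.n1 a.p1))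
        (Nat.add (Nat.add (Nat.sub a.p2 a.n2) (Nat.sub a.n2 a.p2))
          (Nat.add (Nat.add (Nat.sub a.p3 a.n3) (Nat.sub a.n3 a.p3))
            (Nat.add (Nat.sub a.p4 a.n4) (Nat.sub a.n4 a.p4)))))))
    a.cp

/-- The variable on `[lo, lo + w]` (all scaled by `2^40`), along the first coordinate. -/
def var1 (lo w : Nat) : TM :=
  (fun h g => TM.mk (Nat.add lo h) 0 g 0 0 0 0 0 0 0 g 0) (Nat.shiftRight w 1) (Nat.sub w (Nat.shiftRight w 1))

/-- The variable on `[lo, lo + w]`, along the second coordinate. -/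
def var2 (lo w : Nat) : TM :=
  (fun h g => TM.mk (Nat.add lo h) 0 0 0 g 0 0 0 0 0 g 0) (Nat.shiftRight w 1) (Nat.sub w (Nat.shiftRight w 1))

/-- The variable on `[lo, lo + w]`, along the third coordinate. -/
def var3 (lo w : Nat) : TM :=
  (fun h g => TM.mk (Nat.add lo h) 0 0 0 0 0 g 0 0 0 g 0) (Nat.shiftRight w 1) (Nat.sub w (Nat.shiftRight w 1))

/-- The variable on `[lo, lo + w]`, along the fourth coordinate. -/
def var4 (lo w : Nat) : TM :=
  (fun h g => TM.mk (Nat.add lo h) 0 0 0 0 0 0 0 g 0 g 0) (Nat.shiftRight w 1) (Nat.sub w (Nat.shiftRight w 1))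

end Vale.Agent.Lib.P154
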