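import Mathlib
import Vale.Agent.Lib.P154.TMCore

/-!
Soundness of the fixed point Taylor models of `TMCore.lean`.
-/

namespace Vale.Agent.Lib.P154

/-- The fixed point scale `2^40`. -/
noncomputable def DD : ℝ := 1099511627776

lemma DD_pos : (0 : ℝ) < DD := by norm_num [DD]

lemma DD_eq : DD = 2 ^ (40 : ℕ) := by norm_num [DD]

/-- Value of a pair of naturals. -/
noncomputable def dv (p n : ℕ) : ℝ := ((p : ℝ) - n) / DD

lemma dv_swap (p n : ℕ) : dv n p = - dv p n := by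
  unfold dv; ring

lemma dv_add (a b c d : ℕ) : dv (Nat.add a b) (Nat.add c d) = dv a c + dv b d := by
  unfold dv
  simp only [Nat.add_eq, Nat.cast_add]
  ring

/-- A point of the cube `[-1,1]^4`. -/
structure Pt where
  x1 : ℝ
  x2 : ℝ
  x3 : ℝ
  x4 : ℝ
  h1 : |x1| ≤ 1
  h2 : |x2| ≤ 1
  h3 : |x3| ≤ 1
  h4 : |x4| ≤ 1

/-- The affine part of a Taylor model at a point. -/
noncomputable def aff (T : TM) (P : Pt) : ℝ :=
  dv T.cp T.cn + dv T.p1 T.n1 * P.x1 + dv T.p2 T.n2 * P.x2 + dv T.p3 T.n3 * P.x3 +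
    dv T.p4 T.n4 * P.x4

/-- The sum of absolute values of the gradient. -/
noncomputable def gsum (T : TM) : ℝ :=
  |dv T.p1 T.n1| + |dv T.p2 T.n2| + |dv T.p3 T.n3| + |dv T.p4 T.n4|

/-- `T` encloses the value `v` at the point `P`. -/
structure Mem (P : Pt) (T : TM) (v : ℝ) : Prop where
  gr : gsum T ≤ (T.r : ℝ) / DD
  er : |v - aff T P| ≤ (T.e : ℝ) / DD

lemma abs_lin_le (g : ℝ) (x : ℝ) (hx : |x| ≤ 1) : |g * x| ≤ |g| := by
  rw [abs_mul]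
  have := abs_nonneg g
  nlinarith

lemma abs_grad_le (T : TM) (P : Pt) :
    |dv T.p1 T.n1 * P.x1 + dv T.p2 T.n2 * P.x2 + dv T.p3 T.n3 * P.x3 + dv T.p4 T.n4 * P.x4| ≤
      gsum T := by
  have h1 := abs_lin_le (dv T.p1 T.n1) P.x1 P.h1
  have h2 := abs_lin_le (dv T.p2 T.n2) P.x2 P.h2
  have h3 := abs_lin_le (dv T.p3 T.n3) P.x3 P.h3
  have h4 := abs_lin_le (dv T.p4 T.n4) P.x4 P.h4
  unfold gsum
  calc _ ≤ |dv T.p1 T.n1 * P.x1| + |dv T.p2 T.n2 * P.x2| + |dv T.p3 T.n3 * P.x3| +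
        |dv T.p4 T.n4 * P.x4| := by
        refine (abs_add_le _ _).trans ?_
        gcongr
        refine (abs_add_le _ _).trans ?_
        gcongr
        exact abs_add_le _ _
    _ ≤ _ := by gcongr

/-- Rounding of a shift. -/
lemma shr_bounds (x j : ℕ) :
    ((Nat.shiftRight x j : ℕ) : ℝ) ≤ (x : ℝ) / 2 ^ j ∧ (x : ℝ) / 2 ^ j < (Nat.shiftRight x j : ℕ) + 1 := by
  have h2 : (0 : ℝ) < 2 ^ j := by positivity
  have hs : Nat.shiftRight x j = x / 2 ^ j := Nat.shiftRight_eq_div_pow x j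
  have hd := Nat.div_add_mod x (2 ^ j)
  have hm := Nat.mod_lt x (show 2 ^ j > 0 by positivity)
  rw [hs]
  constructor
  · rw [le_div_iff₀ h2]
    have : (x / 2 ^ j) * 2 ^ j ≤ x := Nat.div_mul_le_self _ _
    exact_mod_cast this
  · rw [div_lt_iff₀ h2]
    have : x < (x / 2 ^ j + 1) * 2 ^ j := by
      calc x = 2 ^ j * (x / 2 ^ j) + x % 2 ^ j := hd.symm
        _ < (x / 2 ^ j + 1) * 2 ^ j := by nlinarith
    exact_mod_cast this

lemma shr40_bounds (x : ℕ) :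
    ((Nat.shiftRight x 40 : ℕ) : ℝ) ≤ (x : ℝ) / DD ∧ (x : ℝ) / DD < (Nat.shiftRight x 40 : ℕ) + 1 := by
  have := shr_bounds x 40
  rwa [← DD_eq] at this

/-- Rounding of a pair: the value of the shifted pair is within one unit. -/
lemma dv_shr (P N j : ℕ) :
    |dv (Nat.shiftRight P j) (Nat.shiftRight N j) - ((P : ℝ) - N) / 2 ^ j / DD| ≤ 1 / DD := by
  obtain ⟨h1, h2⟩ := shr_bounds P j
  obtain ⟨h3, h4⟩ := shr_bounds N j
  have hD := DD_pos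
  have h2j : (0 : ℝ) < 2 ^ j := by positivity
  unfold dv
  have e : (((Nat.shiftRight P j : ℕ) : ℝ) - (Nat.shiftRight N j : ℕ)) / DD - ((P : ℝ) - N) / 2 ^ j / DD =
      (((Nat.shiftRight P j : ℕ) : ℝ) - (P : ℝ) / 2 ^ j - (((Nat.shiftRight N j : ℕ) : ℝ) - (N : ℝ) / 2 ^ j)) / DD := by
    field_simp
    ring
  rw [e, abs_div, abs_of_pos hD]
  apply div_le_div_of_nonneg_right _ hD.le
  rw [abs_le]
  constructor <;> linarith

/-! ### Sums and simple operations -/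

lemma addT_eq (a b : TM) : addT a b = TM.mk (Nat.add a.cp b.cp) (Nat.add a.cn b.cn)
    (Nat.add a.p1 b.p1) (Nat.add a.n1 b.n1) (Nat.add a.p2 b.p2) (Nat.add a.n2 b.n2)
    (Nat.add a.p3 b.p3) (Nat.add a.n3 b.n3) (Nat.add a.p4 b.p4) (Nat.add a.n4 b.n4)
    (Nat.add a.r b.r) (Nat.add a.e b.e) := by
  cases a; cases b; rfl

lemma cast_nadd (a b : ℕ) : ((Nat.add a b : ℕ) : ℝ) = a + b := by
  simp only [Nat.add_eq, Nat.cast_add]

theorem mem_add {P : Pt} {a b : TM} {x y : ℝ} (ha : Mem P a x) (hb : Mem P b y) :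
    Mem P (addT a b) (x + y) := by
  rw [addT_eq]
  have hD := DD_pos
  constructor
  · have h1 := ha.gr
    have h2 := hb.gr
    simp only [gsum, dv_add, cast_nadd] at *
    have e : ((a.r : ℝ) + b.r) / DD = a.r / DD + b.r / DD := by ring
    rw [e]
    have := abs_add_le (dv a.p1 a.n1) (dv b.p1 b.n1)
    have := abs_add_le (dv a.p2 a.n2) (dv b.p2 b.n2)
    have := abs_add_le (dv a.p3 a.n3) (dv b.p3 b.n3)
    have := abs_add_le (dv a.p4 a.n4) (dv b.p4 b.n4)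
    linarith
  · have h1 := ha.er
    have h2 := hb.er
    simp only [aff, dv_add, cast_nadd] at *
    have e : ((a.e : ℝ) + b.e) / DD = a.e / DD + b.e / DD := by ring
    rw [e]
    calc _ = |(x - (dv a.cp a.cn + dv a.p1 a.n1 * P.x1 + dv a.p2 a.n2 * P.x2 + dv a.p3 a.n3 * P.x3 +
            dv a.p4 a.n4 * P.x4)) + (y - (dv b.cp b.cn + dv b.p1 b.n1 * P.x1 + dv b.p2 b.n2 * P.x2 +
            dv b.p3 b.n3 * P.x3 + dv b.p4 b.n4 * P.x4))| := by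
          congr 1; ring
      _ ≤ _ := (abs_add_le _ _).trans (add_le_add h1 h2)

lemma negT_eq (a : TM) : negT a = TM.mk a.cn a.cp a.n1 a.p1 a.n2 a.p2 a.n3 a.p3 a.n4 a.p4 a.r a.e := by
  cases a; rfl

theorem mem_neg {P : Pt} {a : TM} {x : ℝ} (ha : Mem P a x) : Mem P (negT a) (-x) := by
  rw [negT_eq]
  constructor
  · have h1 := ha.gr
    simp only [gsum, dv_swap a.p1 a.n1, dv_swap a.p2 a.n2, dv_swap a.p3 a.n3, dv_swap a.p4 a.n4,
      abs_neg] at *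
    exact h1
  · have h1 := ha.er
    simp only [aff, dv_swap a.p1 a.n1, dv_swap a.p2 a.n2, dv_swap a.p3 a.n3, dv_swap a.p4 a.n4,
      dv_swap a.cp a.cn] at *
    calc _ = |x - (dv a.cp a.cn + dv a.p1 a.n1 * P.x1 + dv a.p2 a.n2 * P.x2 + dv a.p3 a.n3 * P.x3 +
            dv a.p4 a.n4 * P.x4)| := by
          rw [← abs_neg]; congr 1; ring
      _ ≤ _ := h1

lemma subT_eq (a b : TM) : subT a b = addT a (negT b) := by
  cases a; cases b; rfl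

theorem mem_sub {P : Pt} {a b : TM} {x y : ℝ} (ha : Mem P a x) (hb : Mem P b y) :
    Mem P (subT a b) (x - y) := by
  rw [subT_eq, sub_eq_add_neg]
  exact mem_add ha (mem_neg hb)

lemma addC_eq (q : ℕ) (a : TM) : addC q a = TM.mk (Nat.add a.cp q) a.cn a.p1 a.n1 a.p2 a.n2 a.p3 a.n3 a.p4 a.n4 a.r a.e := by
  cases a; rfl

theorem mem_addC {P : Pt} {a : TM} {x : ℝ} (q : ℕ) (ha : Mem P a x) :
    Mem P (addC q a) (x + (q : ℝ) / 2 ^ (40 : ℕ)) := by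
  rw [addC_eq]
  constructor
  · exact ha.gr
  · have h1 := ha.er
    have e : dv (Nat.add a.cp q) a.cn = dv a.cp a.cn + (q : ℝ) / 2 ^ (40 : ℕ) := by
      unfold dv; rw [cast_nadd, DD_eq]; ring
    simp only [aff, e] at *
    calc _ = |x - (dv a.cp a.cn + dv a.p1 a.n1 * P.x1 + dv a.p2 a.n2 * P.x2 + dv a.p3 a.n3 * P.x3 +
            dv a.p4 a.n4 * P.x4)| := by
          congr 1; ring
      _ ≤ _ := h1

lemma subC_eq (q : ℕ) (a : TM) : subC q a = negT (addC q (negT a)) := by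
  cases a; rfl

theorem mem_subC {P : Pt} {a : TM} {x : ℝ} (q : ℕ) (ha : Mem P a x) :
    Mem P (subC q a) (x - (q : ℝ) / 2 ^ (40 : ℕ)) := by
  rw [subC_eq]
  have := mem_neg (mem_addC q (mem_neg ha))
  convert this using 1
  ring

lemma rsubC_eq (q : ℕ) (a : TM) : rsubC q a = addC q (negT a) := by
  cases a; rfl

theorem mem_rsubC {P : Pt} {a : TM} {x : ℝ} (q : ℕ) (ha : Mem P a x) :
    Mem P (rsubC q a) ((q : ℝ) / 2 ^ (40 : ℕ) - x) := by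
  rw [rsubC_eq]
  have := mem_addC q (mem_neg ha)
  convert this using 1
  ring

lemma abs_sub_cast (p n : ℕ) : ((Nat.add (Nat.sub p n) (Nat.sub n p) : ℕ) : ℝ) = |(p : ℝ) - n| := by
  rcases le_total n p with h | h
  · have h' : (n : ℝ) ≤ p := by exact_mod_cast h
    rw [abs_of_nonneg (by linarith)]
    have : Nat.sub n p = 0 := Nat.sub_eq_zero_of_le h
    rw [this]
    simp only [Nat.add_eq, Nat.add_zero, Nat.sub_eq]
    rw [Nat.cast_sub h]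
  · have h' : (p : ℝ) ≤ n := by exact_mod_cast h
    rw [abs_of_nonpos (by linarith)]
    have : Nat.sub p n = 0 := Nat.sub_eq_zero_of_le h
    rw [this]
    simp only [Nat.add_eq, Nat.zero_add, Nat.sub_eq]
    rw [Nat.cast_sub h]
    ring

lemma abs_dv (p n : ℕ) : |dv p n| = ((Nat.add (Nat.sub p n) (Nat.sub n p) : ℕ) : ℝ) / DD := by
  rw [abs_sub_cast]
  unfold dv
  rw [abs_div, abs_of_pos DD_pos]

lemma gsum_mkT (cp cn p1 n1 p2 n2 p3 n3 p4 n4 e : ℕ) :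
    gsum (mkT cp cn p1 n1 p2 n2 p3 n3 p4 n4 e) = ((mkT cp cn p1 n1 p2 n2 p3 n3 p4 n4 e).r : ℝ) / DD := by
  simp only [gsum, mkT, abs_dv, cast_nadd]
  ring

lemma nrmT_eq (a : TM) : nrmT a = mkT a.cp a.cn a.p1 a.n1 a.p2 a.n2 a.p3 a.n3 a.p4 a.n4 a.e := by
  cases a; rfl

theorem mem_nrm {P : Pt} {a : TM} {x : ℝ} (ha : Mem P a x) : Mem P (nrmT a) x := by
  rw [nrmT_eq]
  refine ⟨(gsum_mkT _ _ _ _ _ _ _ _ _ _ _).le, ?_⟩
  exact ha.er

lemma smulT_eq (n : ℕ) (a : TM) : smulT n a = TM.mk (Nat.mul n a.cp) (Nat.mul n a.cn)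
    (Nat.mul n a.p1) (Nat.mul n a.n1) (Nat.mul n a.p2) (Nat.mul n a.n2)
    (Nat.mul n a.p3) (Nat.mul n a.n3) (Nat.mul n a.p4) (Nat.mul n a.n4)
    (Nat.mul n a.r) (Nat.mul n a.e) := by
  cases a; rfl

lemma cast_nmul (a b : ℕ) : ((Nat.mul a b : ℕ) : ℝ) = a * b := by
  simp only [Nat.mul_eq, Nat.cast_mul]

lemma dv_nmul (n p q : ℕ) : dv (Nat.mul n p) (Nat.mul n q) = (n : ℝ) * dv p q := by
  unfold dv; rw [cast_nmul, cast_nmul]; ring

theorem mem_smul {P : Pt} {a : TM} {x : ℝ} (n : ℕ) (ha : Mem P a x) :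
    Mem P (smulT n a) ((n : ℝ) * x) := by
  rw [smulT_eq]
  have hD := DD_pos
  have hn : (0 : ℝ) ≤ n := Nat.cast_nonneg n
  constructor
  · have h1 := ha.gr
    simp only [gsum, dv_nmul, cast_nmul, abs_mul, abs_of_nonneg hn] at *
    have e : (n : ℝ) * a.r / DD = n * (a.r / DD) := by ring
    rw [e]
    have h1' := mul_le_mul_of_nonneg_left h1 hn
    linarith
  · have h1 := ha.er
    simp only [aff, dv_nmul, cast_nmul] at *
    have e : (n : ℝ) * a.e / DD = n * (a.e / DD) := by ring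
    rw [e]
    calc _ = |(n : ℝ) * (x - (dv a.cp a.cn + dv a.p1 a.n1 * P.x1 + dv a.p2 a.n2 * P.x2 +
            dv a.p3 a.n3 * P.x3 + dv a.p4 a.n4 * P.x4))| := by
          congr 1; ring
      _ ≤ _ := by
          rw [abs_mul, abs_of_nonneg hn]
          exact mul_le_mul_of_nonneg_left h1 hn

lemma scaleT_eq (n j : ℕ) (a : TM) : scaleT n j a = TM.mk
    (Nat.shiftRight (Nat.mul n a.cp) j) (Nat.shiftRight (Nat.mul n a.cn) j)
    (Nat.shiftRight (Nat.mul n a.p1) j) (Nat.shiftRight (Nat.mul n a.n1) j)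
    (Nat.shiftRight (Nat.mul n a.p2) j) (Nat.shiftRight (Nat.mul n a.n2) j)
    (Nat.shiftRight (Nat.mul n a.p3) j) (Nat.shiftRight (Nat.mul n a.n3) j)
    (Nat.shiftRight (Nat.mul n a.p4) j) (Nat.shiftRight (Nat.mul n a.n4) j)
    (Nat.add (Nat.shiftRight (Nat.mul n a.r) j) 5)
    (Nat.add (Nat.shiftRight (Nat.mul n a.e) j) 6) := by
  cases a; rfl

/-- One scaled pair: value `κ * g + θ`. -/
lemma scale_pair (n j p q : ℕ) :
    |dv (Nat.shiftRight (Nat.mul n p) j) (Nat.shiftRight (Nat.mul n q) j) -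
      ((n : ℝ) / 2 ^ j) * dv p q| ≤ 1 / DD := by
  have h := dv_shr (Nat.mul n p) (Nat.mul n q) j
  rw [cast_nmul, cast_nmul] at h
  have hD := DD_pos
  have e : ((n : ℝ) * p - n * q) / 2 ^ j / DD = ((n : ℝ) / 2 ^ j) * dv p q := by
    unfold dv; ring
  rwa [e] at h

lemma abs_sum4_le (a b c d : ℝ) : |a + b + c + d| ≤ |a| + |b| + |c| + |d| := by
  refine (abs_add_le _ _).trans ?_
  gcongr
  refine (abs_add_le _ _).trans ?_
  gcongr
  exact abs_add_le _ _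

lemma abs_sum5_le (a b c d f : ℝ) : |a + b + c + d + f| ≤ |a| + |b| + |c| + |d| + |f| := by
  refine (abs_add_le _ _).trans ?_
  gcongr
  exact abs_sum4_le _ _ _ _

/-- Scaling, abstract form of the error estimate. -/
lemma scale_core {P : Pt} {a : TM} {x κ : ℝ} (hκ : 0 ≤ κ)
    {c' g1 g2 g3 g4 : ℝ}
    (hc : |c' - κ * dv a.cp a.cn| ≤ 1 / DD)
    (h1 : |g1 - κ * dv a.p1 a.n1| ≤ 1 / DD) (h2 : |g2 - κ * dv a.p2 a.n2| ≤ 1 / DD)
    (h3 : |g3 - κ * dv a.p3 a.n3| ≤ 1 / DD) (h4 : |g4 - κ * dv a.p4 a.n4| ≤ 1 / DD)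
    (ha : Mem P a x) :
    |g1| + |g2| + |g3| + |g4| ≤ κ * (a.r / DD) + 4 / DD ∧
    |κ * x - (c' + g1 * P.x1 + g2 * P.x2 + g3 * P.x3 + g4 * P.x4)| ≤ κ * (a.e / DD) + 5 / DD := by
  have hD := DD_pos
  constructor
  · have hg := ha.gr
    unfold gsum at hg
    have k1 : |g1| ≤ κ * |dv a.p1 a.n1| + 1 / DD := by
      have := abs_sub_abs_le_abs_sub g1 (κ * dv a.p1 a.n1)
      rw [abs_mul, abs_of_nonneg hκ] at this
      linarith
    have k2 : |g2| ≤ κ * |dv a.p2 a.n2| + 1 / DD := by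
      have := abs_sub_abs_le_abs_sub g2 (κ * dv a.p2 a.n2)
      rw [abs_mul, abs_of_nonneg hκ] at this
      linarith
    have k3 : |g3| ≤ κ * |dv a.p3 a.n3| + 1 / DD := by
      have := abs_sub_abs_le_abs_sub g3 (κ * dv a.p3 a.n3)
      rw [abs_mul, abs_of_nonneg hκ] at this
      linarith
    have k4 : |g4| ≤ κ * |dv a.p4 a.n4| + 1 / DD := by
      have := abs_sub_abs_le_abs_sub g4 (κ * dv a.p4 a.n4)
      rw [abs_mul, abs_of_nonneg hκ] at this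
      linarith
    have : κ * (|dv a.p1 a.n1| + |dv a.p2 a.n2| + |dv a.p3 a.n3| + |dv a.p4 a.n4|) ≤ κ * (a.r / DD) :=
      mul_le_mul_of_nonneg_left hg hκ
    have e4 : (4 : ℝ) / DD = 1 / DD + 1 / DD + 1 / DD + 1 / DD := by ring
    rw [e4]
    linarith
  · have he := ha.er
    unfold aff at he
    have e : κ * x - (c' + g1 * P.x1 + g2 * P.x2 + g3 * P.x3 + g4 * P.x4) =
        κ * (x - (dv a.cp a.cn + dv a.p1 a.n1 * P.x1 + dv a.p2 a.n2 * P.x2 + dv a.p3 a.n3 * P.x3 +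
          dv a.p4 a.n4 * P.x4)) - ((c' - κ * dv a.cp a.cn) + (g1 - κ * dv a.p1 a.n1) * P.x1 +
          (g2 - κ * dv a.p2 a.n2) * P.x2 + (g3 - κ * dv a.p3 a.n3) * P.x3 +
          (g4 - κ * dv a.p4 a.n4) * P.x4) := by ring
    rw [e]
    refine (abs_sub _ _).trans ?_
    have k0 : |κ * (x - (dv a.cp a.cn + dv a.p1 a.n1 * P.x1 + dv a.p2 a.n2 * P.x2 + dv a.p3 a.n3 * P.x3 +
          dv a.p4 a.n4 * P.x4))| ≤ κ * (a.e / DD) := by
      rw [abs_mul, abs_of_nonneg hκ]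
      exact mul_le_mul_of_nonneg_left he hκ
    have k1 := (abs_lin_le (g1 - κ * dv a.p1 a.n1) P.x1 P.h1).trans h1
    have k2 := (abs_lin_le (g2 - κ * dv a.p2 a.n2) P.x2 P.h2).trans h2
    have k3 := (abs_lin_le (g3 - κ * dv a.p3 a.n3) P.x3 P.h3).trans h3
    have k4 := (abs_lin_le (g4 - κ * dv a.p4 a.n4) P.x4 P.h4).trans h4
    have k5 := abs_sum5_le (c' - κ * dv a.cp a.cn) ((g1 - κ * dv a.p1 a.n1) * P.x1)
      ((g2 - κ * dv a.p2 a.n2) * P.x2) ((g3 - κ * dv a.p3 a.n3) * P.x3)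
      ((g4 - κ * dv a.p4 a.n4) * P.x4)
    have e5 : (5 : ℝ) / DD = 1 / DD + 1 / DD + 1 / DD + 1 / DD + 1 / DD := by ring
    rw [e5]
    linarith

/-- `⌊y⌋ + k` bounds `y + k - 1`, in the units of the scale. -/
lemma shr_add_ge (X j k : ℕ) :
    (X : ℝ) / 2 ^ j / DD + (k : ℝ) / DD ≤
      ((Nat.add (Nat.shiftRight X j) (k + 1) : ℕ) : ℝ) / DD := by
  have hD := DD_pos
  obtain ⟨_, h2⟩ := shr_bounds X j
  rw [cast_nadd]
  push_cast
  rw [← add_div]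
  apply div_le_div_of_nonneg_right _ hD.le
  linarith

theorem mem_scale {P : Pt} {a : TM} {x : ℝ} (n j : ℕ) (ha : Mem P a x) :
    Mem P (scaleT n j a) (((n : ℝ) / 2 ^ j) * x) := by
  rw [scaleT_eq]
  have hκ : (0 : ℝ) ≤ (n : ℝ) / 2 ^ j := by positivity
  have hD := DD_pos
  obtain ⟨h1, h2⟩ := scale_core (P := P) (a := a) (x := x) hκ
    (scale_pair n j a.cp a.cn) (scale_pair n j a.p1 a.n1) (scale_pair n j a.p2 a.n2)
    (scale_pair n j a.p3 a.n3) (scale_pair n j a.p4 a.n4) ha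
  constructor
  · have k := shr_add_ge (Nat.mul n a.r) j 4
    rw [cast_nmul] at k
    simp only [gsum]
    refine h1.trans (le_of_eq_of_le ?_ k)
    push_cast
    ring
  · have k := shr_add_ge (Nat.mul n a.e) j 5
    rw [cast_nmul] at k
    simp only [aff]
    refine h2.trans (le_of_eq_of_le ?_ k)
    push_cast
    ring

lemma shrT_eq (j : ℕ) (a : TM) : shrT j a = scaleT 1 j a := by
  cases a
  simp only [shrT, scaleT, Nat.mul_eq, Nat.one_mul]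

theorem mem_shr {P : Pt} {a : TM} {x : ℝ} (j : ℕ) (ha : Mem P a x) :
    Mem P (shrT j a) (x / 2 ^ j) := by
  rw [shrT_eq]
  have := mem_scale 1 j ha
  convert this using 1
  push_cast
  ring

/-- The value of a model is bounded by its fields. -/
lemma abs_val_le {P : Pt} {a : TM} {x : ℝ} (ha : Mem P a x) :
    |x| ≤ ((a.cp : ℝ) + a.cn + a.r + a.e) / DD := by
  have hD := DD_pos
  have h1 := ha.er
  have h2 := ha.gr
  have h3 := abs_grad_le a P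
  unfold aff at h1
  have hc : |dv a.cp a.cn| ≤ ((a.cp : ℝ) + a.cn) / DD := by
    unfold dv
    rw [abs_div, abs_of_pos hD]
    apply div_le_div_of_nonneg_right _ hD.le
    rw [abs_le]
    have : (0 : ℝ) ≤ a.cp := Nat.cast_nonneg _
    have : (0 : ℝ) ≤ a.cn := Nat.cast_nonneg _
    constructor <;> linarith
  have e : x = (x - (dv a.cp a.cn + dv a.p1 a.n1 * P.x1 + dv a.p2 a.n2 * P.x2 + dv a.p3 a.n3 * P.x3 +
      dv a.p4 a.n4 * P.x4)) + dv a.cp a.cn +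
      (dv a.p1 a.n1 * P.x1 + dv a.p2 a.n2 * P.x2 + dv a.p3 a.n3 * P.x3 + dv a.p4 a.n4 * P.x4) := by ring
  have t := abs_add_three (x - (dv a.cp a.cn + dv a.p1 a.n1 * P.x1 + dv a.p2 a.n2 * P.x2 + dv a.p3 a.n3 * P.x3 +
      dv a.p4 a.n4 * P.x4)) (dv a.cp a.cn)
      (dv a.p1 a.n1 * P.x1 + dv a.p2 a.n2 * P.x2 + dv a.p3 a.n3 * P.x3 + dv a.p4 a.n4 * P.x4)
  rw [← e] at t
  have e2 : ((a.cp : ℝ) + a.cn + a.r + a.e) / DD = a.e / DD + ((a.cp : ℝ) + a.cn) / DD + a.r / DD := by ring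
  rw [e2]
  linarith

lemma thirdT_eq (a : TM) : thirdT a = TM.mk
    (Nat.shiftRight (Nat.mul 366503875925 a.cp) 40) (Nat.shiftRight (Nat.mul 366503875925 a.cn) 40)
    (Nat.shiftRight (Nat.mul 366503875925 a.p1) 40) (Nat.shiftRight (Nat.mul 366503875925 a.n1) 40)
    (Nat.shiftRight (Nat.mul 366503875925 a.p2) 40) (Nat.shiftRight (Nat.mul 366503875925 a.n2) 40)
    (Nat.shiftRight (Nat.mul 366503875925 a.p3) 40) (Nat.shiftRight (Nat.mul 366503875925 a.n3) 40)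
    (Nat.shiftRight (Nat.mul 366503875925 a.p4) 40) (Nat.shiftRight (Nat.mul 366503875925 a.n4) 40)
    (Nat.add (Nat.shiftRight (Nat.mul 366503875925 a.r) 40) 5)
    (Nat.add (Nat.add (Nat.shiftRight (Nat.mul 366503875925 a.e) 40) 7)
      (Nat.shiftRight (Nat.add a.cp (Nat.add a.cn (Nat.add a.r a.e))) 40)) := by
  cases a; rfl

theorem mem_third {P : Pt} {a : TM} {x : ℝ} (ha : Mem P a x) :
    Mem P (thirdT a) (x / 3) := by
  rw [thirdT_eq]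
  have hD := DD_pos
  set κ : ℝ := ((366503875925 : ℕ) : ℝ) / 2 ^ (40 : ℕ) with hκdef
  have hκ : (0 : ℝ) ≤ κ := by positivity
  obtain ⟨h1, h2⟩ := scale_core (P := P) (a := a) (x := x) hκ
    (scale_pair 366503875925 40 a.cp a.cn) (scale_pair 366503875925 40 a.p1 a.n1)
    (scale_pair 366503875925 40 a.p2 a.n2)
    (scale_pair 366503875925 40 a.p3 a.n3) (scale_pair 366503875925 40 a.p4 a.n4) ha
  have hv := abs_val_le ha
  have hk3 : (1 : ℝ) / 3 - κ = 1 / (3 * DD) := by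
    rw [hκdef, DD_eq]; norm_num
  have hD2 : (2 : ℝ) ^ (40 : ℕ) = DD := DD_eq.symm
  constructor
  · have k := shr_add_ge (Nat.mul 366503875925 a.r) 40 4
    rw [cast_nmul, hD2] at k
    simp only [gsum]
    refine h1.trans (le_of_eq_of_le ?_ k)
    rw [hκdef, hD2]
    push_cast
    ring
  · simp only [aff]
    -- split the error of the constant
    have e : x / 3 - (dv (Nat.shiftRight (Nat.mul 366503875925 a.cp) 40) (Nat.shiftRight (Nat.mul 366503875925 a.cn) 40) +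
        dv (Nat.shiftRight (Nat.mul 366503875925 a.p1) 40) (Nat.shiftRight (Nat.mul 366503875925 a.n1) 40) * P.x1 +
        dv (Nat.shiftRight (Nat.mul 366503875925 a.p2) 40) (Nat.shiftRight (Nat.mul 366503875925 a.n2) 40) * P.x2 +
        dv (Nat.shiftRight (Nat.mul 366503875925 a.p3) 40) (Nat.shiftRight (Nat.mul 366503875925 a.n3) 40) * P.x3 +
        dv (Nat.shiftRight (Nat.mul 366503875925 a.p4) 40) (Nat.shiftRight (Nat.mul 366503875925 a.n4) 40) * P.x4) =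
        (κ * x - (dv (Nat.shiftRight (Nat.mul 366503875925 a.cp) 40) (Nat.shiftRight (Nat.mul 366503875925 a.cn) 40) +
        dv (Nat.shiftRight (Nat.mul 366503875925 a.p1) 40) (Nat.shiftRight (Nat.mul 366503875925 a.n1) 40) * P.x1 +
        dv (Nat.shiftRight (Nat.mul 366503875925 a.p2) 40) (Nat.shiftRight (Nat.mul 366503875925 a.n2) 40) * P.x2 +
        dv (Nat.shiftRight (Nat.mul 366503875925 a.p3) 40) (Nat.shiftRight (Nat.mul 366503875925 a.n3) 40) * P.x3 +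
        dv (Nat.shiftRight (Nat.mul 366503875925 a.p4) 40) (Nat.shiftRight (Nat.mul 366503875925 a.n4) 40) * P.x4)) +
        ((1 : ℝ) / 3 - κ) * x := by ring
    rw [e]
    refine (abs_add_le _ _).trans ?_
    have k1 : |((1 : ℝ) / 3 - κ) * x| ≤ ((a.cp : ℝ) + a.cn + a.r + a.e) / DD / DD := by
      rw [abs_mul, hk3, abs_of_pos (by positivity)]
      have : 1 / (3 * DD) ≤ 1 / DD := by
        apply div_le_div_of_nonneg_left (by norm_num) hD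
        linarith
      calc 1 / (3 * DD) * |x| ≤ 1 / DD * |x| := by gcongr
        _ ≤ 1 / DD * (((a.cp : ℝ) + a.cn + a.r + a.e) / DD) := by gcongr
        _ = _ := by ring
    have k2 := shr_bounds (Nat.add a.cp (Nat.add a.cn (Nat.add a.r a.e))) 40
    rw [cast_nadd, cast_nadd, cast_nadd, hD2] at k2
    have k3 := shr_bounds (Nat.mul 366503875925 a.e) 40
    rw [cast_nmul, hD2] at k3
    have k4 : κ * (a.e / DD) = ((366503875925 : ℕ) : ℝ) * a.e / DD / DD := by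
      rw [hκdef, hD2]; ring
    have k5 : ((a.cp : ℝ) + a.cn + a.r + a.e) / DD / DD =
        ((a.cp : ℝ) + (a.cn + (a.r + a.e))) / DD / DD := by ring
    rw [cast_nadd, cast_nadd]
    push_cast
    rw [k4] at h2
    rw [k5] at k1
    have : (((Nat.shiftRight (Nat.mul 366503875925 a.e) 40 : ℕ) : ℝ) + 7 +
        ((Nat.shiftRight (Nat.add a.cp (Nat.add a.cn (Nat.add a.r a.e))) 40 : ℕ) : ℝ)) / DD =
        (((Nat.shiftRight (Nat.mul 366503875925 a.e) 40 : ℕ) : ℝ) + 1) / DD + 5 / DD +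
        (((Nat.shiftRight (Nat.add a.cp (Nat.add a.cn (Nat.add a.r a.e))) 40 : ℕ) : ℝ) + 1) / DD := by ring
    rw [this]
    have m1 : ((366503875925 : ℕ) : ℝ) * a.e / DD / DD ≤
        (((Nat.shiftRight (Nat.mul 366503875925 a.e) 40 : ℕ) : ℝ) + 1) / DD :=
      div_le_div_of_nonneg_right k3.2.le hD.le
    have m2 : ((a.cp : ℝ) + (a.cn + (a.r + a.e))) / DD / DD ≤
        (((Nat.shiftRight (Nat.add a.cp (Nat.add a.cn (Nat.add a.r a.e))) 40 : ℕ) : ℝ) + 1) / DD :=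
      div_le_div_of_nonneg_right k2.2.le hD.le
    linarith


/-! ### Products -/

/-- The real estimate behind the product. -/
lemma mul_real_core {x y ca cb la lb ra ea rb eb : ℝ}
    (hla : |la| ≤ ra) (hlb : |lb| ≤ rb) (hx : |x - (ca + la)| ≤ ea) (hy : |y - (cb + lb)| ≤ eb) :
    |x * y - (ca * cb + ca * lb + cb * la)| ≤ |ca| * eb + |cb| * ea + (ra + ea) * (rb + eb) := by
  have e : x * y - (ca * cb + ca * lb + cb * la) =
      ca * (y - (cb + lb)) + cb * (x - (ca + la)) +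
        (la + (x - (ca + la))) * (lb + (y - (cb + lb))) := by ring
  rw [e]
  have h1 : |ca * (y - (cb + lb))| ≤ |ca| * eb := by
    rw [abs_mul]; exact mul_le_mul_of_nonneg_left hy (abs_nonneg _)
  have h2 : |cb * (x - (ca + la))| ≤ |cb| * ea := by
    rw [abs_mul]; exact mul_le_mul_of_nonneg_left hx (abs_nonneg _)
  have h3 : |(la + (x - (ca + la))) * (lb + (y - (cb + lb)))| ≤ (ra + ea) * (rb + eb) := by
    rw [abs_mul]
    have a1 : |la + (x - (ca + la))| ≤ ra + ea := (abs_add_le _ _).trans (add_le_add hla hx)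
    have a2 : |lb + (y - (cb + lb))| ≤ rb + eb := (abs_add_le _ _).trans (add_le_add hlb hy)
    exact mul_le_mul a1 a2 (abs_nonneg _) ((abs_nonneg _).trans a1)
  exact (abs_add_three _ _ _).trans (by linarith)

lemma shr40_pair (A B x z y w : ℕ) :
    |dv (Nat.shiftRight (Nat.add (Nat.mul A x) (Nat.mul B y)) 40)
        (Nat.shiftRight (Nat.add (Nat.mul A z) (Nat.mul B w)) 40) -
      (((A : ℝ) / DD) * dv x z + ((B : ℝ) / DD) * dv y w)| ≤ 1 / DD := by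
  have h := dv_shr (Nat.add (Nat.mul A x) (Nat.mul B y)) (Nat.add (Nat.mul A z) (Nat.mul B w)) 40
  rw [cast_nadd, cast_nadd, cast_nmul, cast_nmul, cast_nmul, cast_nmul, ← DD_eq] at h
  have e : ((A : ℝ) * x + B * y - (A * z + B * w)) / DD / DD =
      ((A : ℝ) / DD) * dv x z + ((B : ℝ) / DD) * dv y w := by
    unfold dv; ring
  rwa [e] at h

/-- `mulCore` encloses the product. -/
lemma mem_mulCore {P : Pt} {a b : TM} {x y : ℝ} (ha : Mem P a x) (hb : Mem P b y)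
    (A B x1 z1 x2 z2 x3 z3 x4 z4 y1 w1 y2 w2 y3 w3 y4 w4 cp cn : ℕ)
    (hA : (A : ℝ) / DD = |dv a.cp a.cn|) (hB : (B : ℝ) / DD = |dv b.cp b.cn|)
    (hc : |dv cp cn - dv a.cp a.cn * dv b.cp b.cn| ≤ 1 / DD)
    (hx1 : ((A : ℝ) / DD) * dv x1 z1 = dv a.cp a.cn * dv b.p1 b.n1)
    (hx2 : ((A : ℝ) / DD) * dv x2 z2 = dv a.cp a.cn * dv b.p2 b.n2)
    (hx3 : ((A : ℝ) / DD) * dv x3 z3 = dv a.cp a.cn * dv b.p3 b.n3)
    (hx4 : ((A : ℝ) / DD) * dv x4 z4 = dv a.cp a.cn * dv b.p4 b.n4)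
    (hy1 : ((B : ℝ) / DD) * dv y1 w1 = dv b.cp b.cn * dv a.p1 a.n1)
    (hy2 : ((B : ℝ) / DD) * dv y2 w2 = dv b.cp b.cn * dv a.p2 a.n2)
    (hy3 : ((B : ℝ) / DD) * dv y3 w3 = dv b.cp b.cn * dv a.p3 a.n3)
    (hy4 : ((B : ℝ) / DD) * dv y4 w4 = dv b.cp b.cn * dv a.p4 a.n4) :
    Mem P (mulCore A B x1 z1 x2 z2 x3 z3 x4 z4 y1 w1 y2 w2 y3 w3 y4 w4 cp cn
      (mulErr A B a.r a.e b.r b.e)) (x * y) := by
  have hD := DD_pos
  refine ⟨(gsum_mkT _ _ _ _ _ _ _ _ _ _ _).le, ?_⟩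
  -- abbreviations
  set la := dv a.p1 a.n1 * P.x1 + dv a.p2 a.n2 * P.x2 + dv a.p3 a.n3 * P.x3 + dv a.p4 a.n4 * P.x4 with hla
  set lb := dv b.p1 b.n1 * P.x1 + dv b.p2 b.n2 * P.x2 + dv b.p3 b.n3 * P.x3 + dv b.p4 b.n4 * P.x4 with hlb
  have h1 : |la| ≤ (a.r : ℝ) / DD := (abs_grad_le a P).trans ha.gr
  have h2 : |lb| ≤ (b.r : ℝ) / DD := (abs_grad_le b P).trans hb.gr
  have h3 : |x - (dv a.cp a.cn + la)| ≤ (a.e : ℝ) / DD := by
    have := ha.er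
    unfold aff at this
    rw [hla]
    convert this using 2
    ring
  have h4 : |y - (dv b.cp b.cn + lb)| ≤ (b.e : ℝ) / DD := by
    have := hb.er
    unfold aff at this
    rw [hlb]
    convert this using 2
    ring
  have main := mul_real_core h1 h2 h3 h4
  rw [← hA, ← hB] at main
  -- rounding of the four gradient entries
  have g1 := shr40_pair A B x1 z1 y1 w1
  have g2 := shr40_pair A B x2 z2 y2 w2
  have g3 := shr40_pair A B x3 z3 y3 w3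
  have g4 := shr40_pair A B x4 z4 y4 w4
  rw [hx1, hy1] at g1
  rw [hx2, hy2] at g2
  rw [hx3, hy3] at g3
  rw [hx4, hy4] at g4
  set G1 := dv (Nat.shiftRight (Nat.add (Nat.mul A x1) (Nat.mul B y1)) 40)
    (Nat.shiftRight (Nat.add (Nat.mul A z1) (Nat.mul B w1)) 40) with hG1
  set G2 := dv (Nat.shiftRight (Nat.add (Nat.mul A x2) (Nat.mul B y2)) 40)
    (Nat.shiftRight (Nat.add (Nat.mul A z2) (Nat.mul B w2)) 40) with hG2
  set G3 := dv (Nat.shiftRight (Nat.add (Nat.mul A x3) (Nat.mul B y3)) 40)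
    (Nat.shiftRight (Nat.add (Nat.mul A z3) (Nat.mul B w3)) 40) with hG3
  set G4 := dv (Nat.shiftRight (Nat.add (Nat.mul A x4) (Nat.mul B y4)) 40)
    (Nat.shiftRight (Nat.add (Nat.mul A z4) (Nat.mul B w4)) 40) with hG4
  have haff : aff (mulCore A B x1 z1 x2 z2 x3 z3 x4 z4 y1 w1 y2 w2 y3 w3 y4 w4 cp cn
      (mulErr A B a.r a.e b.r b.e)) P = dv cp cn + G1 * P.x1 + G2 * P.x2 + G3 * P.x3 + G4 * P.x4 := rfl
  rw [haff]
  set ca := dv a.cp a.cn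
  set cb := dv b.cp b.cn
  have e : x * y - (dv cp cn + G1 * P.x1 + G2 * P.x2 + G3 * P.x3 + G4 * P.x4) =
      (x * y - (ca * cb + ca * lb + cb * la)) - ((dv cp cn - ca * cb) +
        (G1 - (ca * dv b.p1 b.n1 + cb * dv a.p1 a.n1)) * P.x1 +
        (G2 - (ca * dv b.p2 b.n2 + cb * dv a.p2 a.n2)) * P.x2 +
        (G3 - (ca * dv b.p3 b.n3 + cb * dv a.p3 a.n3)) * P.x3 +
        (G4 - (ca * dv b.p4 b.n4 + cb * dv a.p4 a.n4)) * P.x4) := by
    rw [hla, hlb]; ring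
  rw [e]
  refine (abs_sub _ _).trans ?_
  have k1 := (abs_lin_le _ P.x1 P.h1).trans g1
  have k2 := (abs_lin_le _ P.x2 P.h2).trans g2
  have k3 := (abs_lin_le _ P.x3 P.h3).trans g3
  have k4 := (abs_lin_le _ P.x4 P.h4).trans g4
  have k5 := abs_sum5_le (dv cp cn - ca * cb)
    ((G1 - (ca * dv b.p1 b.n1 + cb * dv a.p1 a.n1)) * P.x1)
    ((G2 - (ca * dv b.p2 b.n2 + cb * dv a.p2 a.n2)) * P.x2)
    ((G3 - (ca * dv b.p3 b.n3 + cb * dv a.p3 a.n3)) * P.x3)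
    ((G4 - (ca * dv b.p4 b.n4 + cb * dv a.p4 a.n4)) * P.x4)
  -- the error term
  have herr : (A : ℝ) / DD * ((b.e : ℝ) / DD) + (B : ℝ) / DD * ((a.e : ℝ) / DD) +
      ((a.r : ℝ) / DD + (a.e : ℝ) / DD) * ((b.r : ℝ) / DD + (b.e : ℝ) / DD) + 5 / DD ≤
      ((mulErr A B a.r a.e b.r b.e : ℕ) : ℝ) / DD := by
    have s := shr40_bounds (Nat.add (Nat.mul A b.e) (Nat.add (Nat.mul B a.e) (Nat.mul (Nat.add a.r a.e) (Nat.add b.r b.e))))
    have e1 : ((mulErr A B a.r a.e b.r b.e : ℕ) : ℝ) =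
        ((Nat.shiftRight (Nat.add (Nat.mul A b.e) (Nat.add (Nat.mul B a.e) (Nat.mul (Nat.add a.r a.e) (Nat.add b.r b.e)))) 40 : ℕ) : ℝ) + 6 := by
      unfold mulErr; rw [cast_nadd]; norm_num
    rw [e1]
    rw [cast_nadd, cast_nadd, cast_nmul, cast_nmul, cast_nmul, cast_nadd, cast_nadd] at s
    have e2 : (A : ℝ) / DD * ((b.e : ℝ) / DD) + (B : ℝ) / DD * ((a.e : ℝ) / DD) +
      ((a.r : ℝ) / DD + (a.e : ℝ) / DD) * ((b.r : ℝ) / DD + (b.e : ℝ) / DD) =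
        ((A : ℝ) * b.e + (B * a.e + (a.r + a.e) * (b.r + b.e))) / DD / DD := by
      field_simp
      ring
    rw [e2]
    have s2 := div_le_div_of_nonneg_right s.2.le hD.le
    have e3 : (((Nat.shiftRight (Nat.add (Nat.mul A b.e) (Nat.add (Nat.mul B a.e) (Nat.mul (Nat.add a.r a.e) (Nat.add b.r b.e)))) 40 : ℕ) : ℝ) + 6) / DD =
        (((Nat.shiftRight (Nat.add (Nat.mul A b.e) (Nat.add (Nat.mul B a.e) (Nat.mul (Nat.add a.r a.e) (Nat.add b.r b.e)))) 40 : ℕ) : ℝ) + 1) / DD + 5 / DD := by ring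
    rw [e3]
    linarith
  have e5 : (5 : ℝ) / DD = 1 / DD + 1 / DD + 1 / DD + 1 / DD + 1 / DD := by ring
  rw [e5] at herr
  have hee : ((mulCore A B x1 z1 x2 z2 x3 z3 x4 z4 y1 w1 y2 w2 y3 w3 y4 w4 cp cn
      (mulErr A B a.r a.e b.r b.e)).e : ℝ) = ((mulErr A B a.r a.e b.r b.e : ℕ) : ℝ) := rfl
  rw [hee]
  linarith

lemma dv_pos_eq {p n : ℕ} (h : n ≤ p) : dv p n = ((Nat.sub p n : ℕ) : ℝ) / DD := by
  unfold dv
  simp only [Nat.sub_eq]
  rw [Nat.cast_sub h]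

lemma dv_neg_eq {p n : ℕ} (h : p ≤ n) : dv p n = - (((Nat.sub n p : ℕ) : ℝ) / DD) := by
  rw [dv_swap n p, dv_pos_eq h]

lemma cast_div_abs_pos {p n : ℕ} (h : n ≤ p) : ((Nat.sub p n : ℕ) : ℝ) / DD = |dv p n| := by
  rw [dv_pos_eq h, abs_of_nonneg]
  exact div_nonneg (Nat.cast_nonneg _) DD_pos.le

lemma cast_div_abs_neg {p n : ℕ} (h : p ≤ n) : ((Nat.sub n p : ℕ) : ℝ) / DD = |dv p n| := by
  rw [dv_neg_eq h, abs_neg, abs_of_nonneg]
  exact div_nonneg (Nat.cast_nonneg _) DD_pos.le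

/-- Rounding of the centre of a product. -/
lemma dv_shr_prod (A B : ℕ) :
    |dv (Nat.shiftRight (Nat.mul A B) 40) 0 - ((A : ℝ) / DD) * ((B : ℝ) / DD)| ≤ 1 / DD := by
  have hD := DD_pos
  obtain ⟨h1, h2⟩ := shr40_bounds (Nat.mul A B)
  rw [cast_nmul] at h1 h2
  unfold dv
  have e : (((Nat.shiftRight (Nat.mul A B) 40 : ℕ) : ℝ) - ((0 : ℕ) : ℝ)) / DD - (A : ℝ) / DD * ((B : ℝ) / DD) =
      (((Nat.shiftRight (Nat.mul A B) 40 : ℕ) : ℝ) - (A : ℝ) * B / DD) / DD := by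
    field_simp
    simp
  rw [e, abs_div, abs_of_pos hD]
  apply div_le_div_of_nonneg_right _ hD.le
  rw [abs_le]
  constructor <;> linarith

lemma dv_shr_prod' (A B : ℕ) :
    |dv 0 (Nat.shiftRight (Nat.mul A B) 40) - (-((A : ℝ) / DD)) * ((B : ℝ) / DD)| ≤ 1 / DD := by
  have h := dv_shr_prod A B
  rw [dv_swap]
  rw [← abs_neg]
  convert h using 2
  ring

theorem mem_mul {P : Pt} {a b : TM} {x y : ℝ} (ha : Mem P a x) (hb : Mem P b y) :
    Mem P (mulT a b) (x * y) := by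
  by_cases h0 : a.cn ≤ a.cp
  · -- a nonnegative
    have hca := dv_pos_eq h0
    have hA := cast_div_abs_pos h0
    have hb1 : Nat.ble a.cn a.cp = true := Nat.ble_eq.mpr h0
    by_cases h2 : b.cn ≤ b.cp
    · have hcb := dv_pos_eq h2
      have hB := cast_div_abs_pos h2
      have hb2 : Nat.ble b.cn b.cp = true := Nat.ble_eq.mpr h2
      have : mulT a b = mulCore (Nat.sub a.cp a.cn) (Nat.sub b.cp b.cn) b.p1 b.n1 b.p2 b.n2 b.p3 b.n3 b.p4 b.n4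
          a.p1 a.n1 a.p2 a.n2 a.p3 a.n3 a.p4 a.n4
          (Nat.shiftRight (Nat.mul (Nat.sub a.cp a.cn) (Nat.sub b.cp b.cn)) 40) 0
          (mulErr (Nat.sub a.cp a.cn) (Nat.sub b.cp b.cn) a.r a.e b.r b.e) := by
        cases a; cases b
        simp only at hb1 hb2 ⊢
        unfold mulT
        simp only [hb1, hb2]
      rw [this]
      apply mem_mulCore ha hb _ _ _ _ _ _ _ _ _ _ _ _ _ _ _ _ _ _ _ _ hA hB
      · rw [hca, hcb]; exact dv_shr_prod _ _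
      all_goals first | (rw [hca]; done) | (rw [hcb]; done)
    · have h2' : b.cp ≤ b.cn := (Nat.lt_of_not_le h2).le
      have hcb := dv_neg_eq h2'
      have hB := cast_div_abs_neg h2'
      have hb2 : Nat.ble b.cn b.cp = false := by
        rw [← Bool.not_eq_true, Nat.ble_eq]; exact h2
      have : mulT a b = mulCore (Nat.sub a.cp a.cn) (Nat.sub b.cn b.cp) b.p1 b.n1 b.p2 b.n2 b.p3 b.n3 b.p4 b.n4
          a.n1 a.p1 a.n2 a.p2 a.n3 a.p3 a.n4 a.p4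
          0 (Nat.shiftRight (Nat.mul (Nat.sub a.cp a.cn) (Nat.sub b.cn b.cp)) 40)
          (mulErr (Nat.sub a.cp a.cn) (Nat.sub b.cn b.cp) a.r a.e b.r b.e) := by
        cases a; cases b
        simp only at hb1 hb2 ⊢
        unfold mulT
        simp only [hb1, hb2]
      rw [this]
      apply mem_mulCore ha hb _ _ _ _ _ _ _ _ _ _ _ _ _ _ _ _ _ _ _ _ hA hB
      · rw [hca, hcb]
        have := dv_shr_prod' (Nat.sub a.cp a.cn) (Nat.sub b.cn b.cp)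
        convert this using 2
        ring
      all_goals first
        | (rw [hca]; done)
        | (rw [hcb, dv_swap]; ring)
  · -- a negative
    have h1 : a.cp ≤ a.cn := (Nat.lt_of_not_le h0).le
    have hca := dv_neg_eq h1
    have hA := cast_div_abs_neg h1
    have hb1 : Nat.ble a.cn a.cp = false := by
      rw [← Bool.not_eq_true, Nat.ble_eq]; exact h0
    by_cases h2 : b.cn ≤ b.cp
    · have hcb := dv_pos_eq h2
      have hB := cast_div_abs_pos h2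
      have hb2 : Nat.ble b.cn b.cp = true := Nat.ble_eq.mpr h2
      have : mulT a b = mulCore (Nat.sub a.cn a.cp) (Nat.sub b.cp b.cn) b.n1 b.p1 b.n2 b.p2 b.n3 b.p3 b.n4 b.p4
          a.p1 a.n1 a.p2 a.n2 a.p3 a.n3 a.p4 a.n4
          0 (Nat.shiftRight (Nat.mul (Nat.sub a.cn a.cp) (Nat.sub b.cp b.cn)) 40)
          (mulErr (Nat.sub a.cn a.cp) (Nat.sub b.cp b.cn) a.r a.e b.r b.e) := by
        cases a; cases b
        simp only at hb1 hb2 ⊢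
        unfold mulT
        simp only [hb1, hb2]
      rw [this]
      apply mem_mulCore ha hb _ _ _ _ _ _ _ _ _ _ _ _ _ _ _ _ _ _ _ _ hA hB
      · rw [hca, hcb]; exact dv_shr_prod' _ _
      all_goals first
        | (rw [hcb]; done)
        | (rw [hca, dv_swap]; ring)
    · have h2' : b.cp ≤ b.cn := (Nat.lt_of_not_le h2).le
      have hcb := dv_neg_eq h2'
      have hB := cast_div_abs_neg h2'
      have hb2 : Nat.ble b.cn b.cp = false := by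
        rw [← Bool.not_eq_true, Nat.ble_eq]; exact h2
      have : mulT a b = mulCore (Nat.sub a.cn a.cp) (Nat.sub b.cn b.cp) b.n1 b.p1 b.n2 b.p2 b.n3 b.p3 b.n4 b.p4
          a.n1 a.p1 a.n2 a.p2 a.n3 a.p3 a.n4 a.p4
          (Nat.shiftRight (Nat.mul (Nat.sub a.cn a.cp) (Nat.sub b.cn b.cp)) 40) 0
          (mulErr (Nat.sub a.cn a.cp) (Nat.sub b.cn b.cp) a.r a.e b.r b.e) := by
        cases a; cases b
        simp only at hb1 hb2 ⊢
        unfold mulT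
        simp only [hb1, hb2]
      rw [this]
      apply mem_mulCore ha hb _ _ _ _ _ _ _ _ _ _ _ _ _ _ _ _ _ _ _ _ hA hB
      · rw [hca, hcb]
        have := dv_shr_prod (Nat.sub a.cn a.cp) (Nat.sub b.cn b.cp)
        convert this using 2
        ring
      all_goals first
        | (rw [hcb, dv_swap]; ring)
        | (rw [hca, dv_swap]; ring)



/-! ### Squares -/

lemma sq_real_core {x c l δ r e : ℝ} (hl : |l| ≤ r) (hδ : |δ| ≤ e) (hx : x = c + l + δ) :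
    |x ^ (2 : ℕ) - (c ^ (2 : ℕ) + (r + e) ^ (2 : ℕ) / 2 + 2 * c * l)| ≤ 2 * |c| * e + (r + e) ^ (2 : ℕ) / 2 := by
  have e1 : x ^ (2 : ℕ) - (c ^ (2 : ℕ) + (r + e) ^ (2 : ℕ) / 2 + 2 * c * l) =
      2 * c * δ + ((l + δ) ^ (2 : ℕ) - (r + e) ^ (2 : ℕ) / 2) := by
    rw [hx]; ring
  rw [e1]
  have h1 : |2 * c * δ| ≤ 2 * |c| * e := by
    rw [abs_mul, abs_mul, abs_two]
    exact mul_le_mul_of_nonneg_left hδ (by positivity)
  have hR : |l + δ| ≤ r + e := (abs_add_le _ _).trans (add_le_add hl hδ)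
  have hs : (l + δ) ^ (2 : ℕ) ≤ (r + e) ^ (2 : ℕ) := sq_le_sq' (by
    have := (abs_le.mp hR).1; linarith) (abs_le.mp hR).2
  have h2 : |(l + δ) ^ (2 : ℕ) - (r + e) ^ (2 : ℕ) / 2| ≤ (r + e) ^ (2 : ℕ) / 2 := by
    rw [abs_le]
    constructor
    · have := sq_nonneg (l + δ); linarith
    · linarith
  exact (abs_add_le _ _).trans (add_le_add h1 h2)

lemma shr41_bounds (x : ℕ) :
    ((Nat.shiftRight x 41 : ℕ) : ℝ) ≤ (x : ℝ) / (2 * DD) ∧
      (x : ℝ) / (2 * DD) < (Nat.shiftRight x 41 : ℕ) + 1 := by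
  have := shr_bounds x 41
  have e : (2 : ℝ) ^ (41 : ℕ) = 2 * DD := by rw [DD_eq]; norm_num
  rwa [e] at this

/-- `sqCore` encloses the square. -/
lemma mem_sqCore {P : Pt} {a : TM} {x : ℝ} (ha : Mem P a x)
    (A x1 z1 x2 z2 x3 z3 x4 z4 : ℕ)
    (hA : (A : ℝ) / DD = |dv a.cp a.cn|)
    (hx1 : ((A : ℝ) / DD) * dv x1 z1 = dv a.cp a.cn * dv a.p1 a.n1)
    (hx2 : ((A : ℝ) / DD) * dv x2 z2 = dv a.cp a.cn * dv a.p2 a.n2)
    (hx3 : ((A : ℝ) / DD) * dv x3 z3 = dv a.cp a.cn * dv a.p3 a.n3)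
    (hx4 : ((A : ℝ) / DD) * dv x4 z4 = dv a.cp a.cn * dv a.p4 a.n4) :
    Mem P (sqCore A (Nat.mul (Nat.add a.r a.e) (Nat.add a.r a.e)) x1 z1 x2 z2 x3 z3 x4 z4 a.e) (x ^ (2 : ℕ)) := by
  have hD := DD_pos
  refine ⟨(gsum_mkT _ _ _ _ _ _ _ _ _ _ _).le, ?_⟩
  set Q := Nat.mul (Nat.add a.r a.e) (Nat.add a.r a.e) with hQ
  set A2 := Nat.add A A with hA2
  have hA2c : (A2 : ℝ) = 2 * A := by rw [hA2, cast_nadd]; ring
  have hQc : (Q : ℝ) = ((a.r : ℝ) + a.e) * ((a.r : ℝ) + a.e) := by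
    rw [hQ, cast_nmul, cast_nadd]
  set l := dv a.p1 a.n1 * P.x1 + dv a.p2 a.n2 * P.x2 + dv a.p3 a.n3 * P.x3 + dv a.p4 a.n4 * P.x4 with hl
  set ca := dv a.cp a.cn with hca
  have h1 : |l| ≤ (a.r : ℝ) / DD := (abs_grad_le a P).trans ha.gr
  have h2 : |x - (ca + l)| ≤ (a.e : ℝ) / DD := by
    have := ha.er
    unfold aff at this
    rw [hl]
    convert this using 2
    ring
  have main := sq_real_core (x := x) (c := ca) (l := l) (δ := x - (ca + l)) h1 h2 (by ring)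
  rw [← hA] at main
  -- rounded entries
  have pair : ∀ p q : ℕ, |dv (Nat.shiftRight (Nat.mul A2 p) 40) (Nat.shiftRight (Nat.mul A2 q) 40) -
      2 * (((A : ℝ) / DD) * dv p q)| ≤ 1 / DD := by
    intro p q
    have h := dv_shr (Nat.mul A2 p) (Nat.mul A2 q) 40
    rw [cast_nmul, cast_nmul, ← DD_eq, hA2c] at h
    have e : (2 * (A : ℝ) * p - 2 * A * q) / DD / DD = 2 * (((A : ℝ) / DD) * dv p q) := by
      unfold dv; ring
    rwa [e] at h
  have g1 := pair x1 z1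
  have g2 := pair x2 z2
  have g3 := pair x3 z3
  have g4 := pair x4 z4
  rw [hx1] at g1
  rw [hx2] at g2
  rw [hx3] at g3
  rw [hx4] at g4
  set G1 := dv (Nat.shiftRight (Nat.mul A2 x1) 40) (Nat.shiftRight (Nat.mul A2 z1) 40) with hG1
  set G2 := dv (Nat.shiftRight (Nat.mul A2 x2) 40) (Nat.shiftRight (Nat.mul A2 z2) 40) with hG2
  set G3 := dv (Nat.shiftRight (Nat.mul A2 x3) 40) (Nat.shiftRight (Nat.mul A2 z3) 40) with hG3
  set G4 := dv (Nat.shiftRight (Nat.mul A2 x4) 40) (Nat.shiftRight (Nat.mul A2 z4) 40) with hG4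
  set Cn := Nat.shiftRight (Nat.add (Nat.mul A A2) Q) 41 with hCn
  set En := Nat.add (Nat.shiftRight (Nat.add (Nat.mul (Nat.add A2 A2) a.e) Q) 41) 6 with hEn
  have haff : aff (sqCore A Q x1 z1 x2 z2 x3 z3 x4 z4 a.e) P =
      dv Cn 0 + G1 * P.x1 + G2 * P.x2 + G3 * P.x3 + G4 * P.x4 := rfl
  have hee : ((sqCore A Q x1 z1 x2 z2 x3 z3 x4 z4 a.e).e : ℝ) = (En : ℝ) := rfl
  rw [haff, hee]
  -- centre rounding
  have hc : |dv Cn 0 - (ca ^ (2 : ℕ) + ((a.r : ℝ) / DD + (a.e : ℝ) / DD) ^ (2 : ℕ) / 2)| ≤ 1 / DD := by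
    obtain ⟨b1, b2⟩ := shr41_bounds (Nat.add (Nat.mul A A2) Q)
    rw [cast_nadd, cast_nmul, hA2c, hQc] at b1 b2
    have e1 : ca ^ (2 : ℕ) = ((A : ℝ) / DD) ^ (2 : ℕ) := by rw [hA, sq_abs]
    have e2 : ca ^ (2 : ℕ) + ((a.r : ℝ) / DD + (a.e : ℝ) / DD) ^ (2 : ℕ) / 2 =
        ((A : ℝ) * (2 * A) + (((a.r : ℝ) + a.e) * ((a.r : ℝ) + a.e))) / (2 * DD) / DD := by
      rw [e1]; field_simp
    rw [e2]
    unfold dv
    simp only [Nat.cast_zero, sub_zero]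
    rw [← sub_div, abs_div, abs_of_pos hD]
    apply div_le_div_of_nonneg_right _ hD.le
    rw [abs_le]
    constructor <;> linarith
  have e : x ^ (2 : ℕ) - (dv Cn 0 + G1 * P.x1 + G2 * P.x2 + G3 * P.x3 + G4 * P.x4) =
      (x ^ (2 : ℕ) - (ca ^ (2 : ℕ) + ((a.r : ℝ) / DD + (a.e : ℝ) / DD) ^ (2 : ℕ) / 2 + 2 * ca * l)) -
      ((dv Cn 0 - (ca ^ (2 : ℕ) + ((a.r : ℝ) / DD + (a.e : ℝ) / DD) ^ (2 : ℕ) / 2)) +
        (G1 - 2 * (ca * dv a.p1 a.n1)) * P.x1 +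
        (G2 - 2 * (ca * dv a.p2 a.n2)) * P.x2 +
        (G3 - 2 * (ca * dv a.p3 a.n3)) * P.x3 +
        (G4 - 2 * (ca * dv a.p4 a.n4)) * P.x4) := by
    rw [hl]; ring
  rw [e]
  refine (abs_sub _ _).trans ?_
  have k1 := (abs_lin_le _ P.x1 P.h1).trans g1
  have k2 := (abs_lin_le _ P.x2 P.h2).trans g2
  have k3 := (abs_lin_le _ P.x3 P.h3).trans g3
  have k4 := (abs_lin_le _ P.x4 P.h4).trans g4
  have k5 := abs_sum5_le (dv Cn 0 - (ca ^ (2 : ℕ) + ((a.r : ℝ) / DD + (a.e : ℝ) / DD) ^ (2 : ℕ) / 2))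
    ((G1 - 2 * (ca * dv a.p1 a.n1)) * P.x1)
    ((G2 - 2 * (ca * dv a.p2 a.n2)) * P.x2)
    ((G3 - 2 * (ca * dv a.p3 a.n3)) * P.x3)
    ((G4 - 2 * (ca * dv a.p4 a.n4)) * P.x4)
  have herr : 2 * ((A : ℝ) / DD) * ((a.e : ℝ) / DD) + ((a.r : ℝ) / DD + (a.e : ℝ) / DD) ^ (2 : ℕ) / 2 +
      (1 / DD + 1 / DD + 1 / DD + 1 / DD + 1 / DD) ≤ (En : ℝ) / DD := by
    obtain ⟨b1, b2⟩ := shr41_bounds (Nat.add (Nat.mul (Nat.add A2 A2) a.e) Q)
    rw [cast_nadd, cast_nmul, cast_nadd, hA2c, hQc] at b2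
    have e2 : 2 * ((A : ℝ) / DD) * ((a.e : ℝ) / DD) + ((a.r : ℝ) / DD + (a.e : ℝ) / DD) ^ (2 : ℕ) / 2 =
        ((2 * (A : ℝ) + 2 * A) * a.e + (((a.r : ℝ) + a.e) * ((a.r : ℝ) + a.e))) / (2 * DD) / DD := by
      field_simp; ring
    rw [e2, hEn, cast_nadd]
    have s2 := div_le_div_of_nonneg_right b2.le hD.le
    have e3 : (((Nat.shiftRight (Nat.add (Nat.mul (Nat.add A2 A2) a.e) Q) 41 : ℕ) : ℝ) + ((6 : ℕ) : ℝ)) / DD =
        (((Nat.shiftRight (Nat.add (Nat.mul (Nat.add A2 A2) a.e) Q) 41 : ℕ) : ℝ) + 1) / DD +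
          (1 / DD + 1 / DD + 1 / DD + 1 / DD + 1 / DD) := by
      push_cast; ring
    rw [e3]
    linarith
  linarith

theorem mem_sq {P : Pt} {a : TM} {x : ℝ} (ha : Mem P a x) : Mem P (sqT a) (x ^ (2 : ℕ)) := by
  by_cases h0 : a.cn ≤ a.cp
  · have hca := dv_pos_eq h0
    have hA := cast_div_abs_pos h0
    have hb1 : Nat.ble a.cn a.cp = true := Nat.ble_eq.mpr h0
    have : sqT a = sqCore (Nat.sub a.cp a.cn) (Nat.mul (Nat.add a.r a.e) (Nat.add a.r a.e))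
        a.p1 a.n1 a.p2 a.n2 a.p3 a.n3 a.p4 a.n4 a.e := by
      cases a
      simp only at hb1 ⊢
      unfold sqT
      simp only [hb1]
    rw [this]
    apply mem_sqCore ha _ _ _ _ _ _ _ _ _ hA
    all_goals rw [hca]
  · have h1 : a.cp ≤ a.cn := (Nat.lt_of_not_le h0).le
    have hca := dv_neg_eq h1
    have hA := cast_div_abs_neg h1
    have hb1 : Nat.ble a.cn a.cp = false := by
      rw [← Bool.not_eq_true, Nat.ble_eq]; exact h0
    have : sqT a = sqCore (Nat.sub a.cn a.cp) (Nat.mul (Nat.add a.r a.e) (Nat.add a.r a.e))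
        a.n1 a.p1 a.n2 a.p2 a.n3 a.p3 a.n4 a.p4 a.e := by
      cases a
      simp only at hb1 ⊢
      unfold sqT
      simp only [hb1]
    rw [this]
    apply mem_sqCore ha _ _ _ _ _ _ _ _ _ hA
    all_goals (rw [hca, dv_swap]; ring)


/-! ### Inverses -/

/-- The shape of the inverse model. -/
def invCore (a : TM) (J J2 J3 Q : ℕ) : TM :=
  TM.mk (Nat.add J Q) 0
    (Nat.shiftRight (Nat.mul J2 a.n1) 40) (Nat.shiftRight (Nat.mul J2 a.p1) 40)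
    (Nat.shiftRight (Nat.mul J2 a.n2) 40) (Nat.shiftRight (Nat.mul J2 a.p2) 40)
    (Nat.shiftRight (Nat.mul J2 a.n3) 40) (Nat.shiftRight (Nat.mul J2 a.p3) 40)
    (Nat.shiftRight (Nat.mul J2 a.n4) 40) (Nat.shiftRight (Nat.mul J2 a.p4) 40)
    (Nat.add (Nat.shiftRight (Nat.mul J3 a.r) 40) 5)
    (Nat.add (Nat.add (Nat.shiftRight (Nat.mul J3 a.e) 40) Q)
      (Nat.add (Nat.shiftRight (Nat.mul (Nat.sub J3 J2) a.r) 40) 8))

lemma invT_eq (a : TM) : ∃ J J2 J3 Q : ℕ,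
    invT a = invCore a J J2 J3 Q ∧
    J = Nat.div 1208925819614629174706176 (Nat.sub a.cp a.cn) ∧
    J2 = Nat.shiftRight (Nat.mul J J) 40 ∧
    J3 = Nat.add (Nat.add J2 2) (Nat.shiftRight (Nat.add (Nat.add J J) 1) 40) ∧
    Q = Nat.shiftRight
      (Nat.add (Nat.div (Nat.mul (Nat.mul (Nat.add a.r a.e) (Nat.add a.r a.e)) J3)
        (Nat.shiftLeft (Nat.sub (Nat.sub a.cp a.cn) (Nat.add a.r a.e)) 40)) 2) 1 := by
  cases a
  exact ⟨_, _, _, _, rfl, rfl, rfl, rfl, rfl⟩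

/-- The real computation behind the inverse. -/
lemma inv_real_core {x c l δ R j u j2 j3 q : ℝ} (hc : 0 < c) (hL : 0 < c - R)
    (hu : 0 ≤ u)
    (hδ : x = c + l + δ) (ht : |l + δ| ≤ R)
    (h1 : j ≤ c⁻¹) (h2 : c⁻¹ ≤ j + u)
    (h3 : j2 ≤ c⁻¹ ^ (2 : ℕ)) (h4 : c⁻¹ ^ (2 : ℕ) ≤ j3)
    (hq : R ^ (2 : ℕ) * j3 / (c - R) ≤ 2 * q) :
    |x⁻¹ - (j + q - j2 * l)| ≤ u + (j3 - j2) * |l| + j3 * |δ| + q := by
  have hx : 0 < x := by
    have := (abs_le.mp ht).1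
    rw [hδ]; linarith
  have hxL : c - R ≤ x := by
    have := (abs_le.mp ht).1
    rw [hδ]; linarith
  set ι := c⁻¹ with hι
  have hιp : 0 < ι := inv_pos.mpr hc
  have hιc : ι * c = 1 := inv_mul_cancel₀ hc.ne'
  have hq0 : 0 ≤ q := by
    have : 0 ≤ R ^ (2 : ℕ) * j3 / (c - R) := by
      apply div_nonneg _ hL.le
      apply mul_nonneg (sq_nonneg _)
      exact (sq_nonneg _).trans h4
    linarith
  have hj3 : 0 ≤ j3 := (sq_nonneg _).trans h4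
  have hid : x⁻¹ = ι - ι ^ (2 : ℕ) * (l + δ) + (l + δ) ^ (2 : ℕ) * ι ^ (2 : ℕ) * x⁻¹ := by
    have hxinv : x * x⁻¹ = 1 := mul_inv_cancel₀ hx.ne'
    have e : l + δ = x - c := by rw [hδ]; ring
    rw [e]
    have : c = ι⁻¹ := by rw [hι, inv_inv]
    field_simp
    rw [this]
    field_simp
    ring
  -- the remainder
  have hxi : x⁻¹ ≤ (c - R)⁻¹ := inv_anti₀ hL hxL
  have hrem0 : 0 ≤ (l + δ) ^ (2 : ℕ) * ι ^ (2 : ℕ) * x⁻¹ := by positivity
  have hrem1 : (l + δ) ^ (2 : ℕ) * ι ^ (2 : ℕ) * x⁻¹ ≤ R ^ (2 : ℕ) * j3 / (c - R) := by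
    have hs : (l + δ) ^ (2 : ℕ) ≤ R ^ (2 : ℕ) := by
      rw [← sq_abs]
      exact pow_le_pow_left₀ (abs_nonneg _) ht 2
    have hi := inv_pos.mpr hx
    calc (l + δ) ^ (2 : ℕ) * ι ^ (2 : ℕ) * x⁻¹ ≤ R ^ (2 : ℕ) * j3 * (c - R)⁻¹ := by
          gcongr
      _ = _ := by rw [div_eq_mul_inv]
  have e : x⁻¹ - (j + q - j2 * l) = (ι - j) - (ι ^ (2 : ℕ) - j2) * l - ι ^ (2 : ℕ) * δ +
      ((l + δ) ^ (2 : ℕ) * ι ^ (2 : ℕ) * x⁻¹ - q) := by
    rw [sub_eq_iff_eq_add]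
    conv_lhs => rw [hid]
    ring
  rw [e]
  have a1 : |ι - j| ≤ u := by
    rw [abs_le]; constructor <;> linarith
  have a2 : |(ι ^ (2 : ℕ) - j2) * l| ≤ (j3 - j2) * |l| := by
    rw [abs_mul, abs_of_nonneg (by linarith)]
    exact mul_le_mul_of_nonneg_right (by linarith) (abs_nonneg _)
  have a3 : |ι ^ (2 : ℕ) * δ| ≤ j3 * |δ| := by
    rw [abs_mul, abs_of_nonneg (sq_nonneg _)]
    exact mul_le_mul_of_nonneg_right h4 (abs_nonneg _)
  have a4 : |(l + δ) ^ (2 : ℕ) * ι ^ (2 : ℕ) * x⁻¹ - q| ≤ q := by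
    rw [abs_le]; constructor <;> linarith
  have t1 : |(ι - j) - (ι ^ (2 : ℕ) - j2) * l - ι ^ (2 : ℕ) * δ + ((l + δ) ^ (2 : ℕ) * ι ^ (2 : ℕ) * x⁻¹ - q)| ≤
      |ι - j| + |(ι ^ (2 : ℕ) - j2) * l| + |ι ^ (2 : ℕ) * δ| + |(l + δ) ^ (2 : ℕ) * ι ^ (2 : ℕ) * x⁻¹ - q| := by
    have := abs_sum4_le (ι - j) (-((ι ^ (2 : ℕ) - j2) * l)) (-(ι ^ (2 : ℕ) * δ)) ((l + δ) ^ (2 : ℕ) * ι ^ (2 : ℕ) * x⁻¹ - q)
    simp only [abs_neg] at this
    convert this using 2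
    ring
  linarith

lemma inv_numbers (a : TM) (hp : posT a = true) (J J2 J3 Q : ℕ)
    (hJ : J = Nat.div 1208925819614629174706176 (Nat.sub a.cp a.cn))
    (hJ2 : J2 = Nat.shiftRight (Nat.mul J J) 40)
    (hJ3 : J3 = Nat.add (Nat.add J2 2) (Nat.shiftRight (Nat.add (Nat.add J J) 1) 40))
    (hQ : Q = Nat.shiftRight
      (Nat.add (Nat.div (Nat.mul (Nat.mul (Nat.add a.r a.e) (Nat.add a.r a.e)) J3)
        (Nat.shiftLeft (Nat.sub (Nat.sub a.cp a.cn) (Nat.add a.r a.e)) 40)) 2) 1) :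
    0 < dv a.cp a.cn ∧ 0 < dv a.cp a.cn - ((a.r : ℝ) + a.e) / DD ∧
    (J : ℝ) / DD ≤ (dv a.cp a.cn)⁻¹ ∧ (dv a.cp a.cn)⁻¹ ≤ (J : ℝ) / DD + 1 / DD ∧
    (J2 : ℝ) / DD ≤ (dv a.cp a.cn)⁻¹ ^ (2 : ℕ) ∧ (dv a.cp a.cn)⁻¹ ^ (2 : ℕ) ≤ (J3 : ℝ) / DD ∧
    (((a.r : ℝ) + a.e) / DD) ^ (2 : ℕ) * ((J3 : ℝ) / DD) / (dv a.cp a.cn - ((a.r : ℝ) + a.e) / DD) ≤
      2 * ((Q : ℝ) / DD) ∧ J2 ≤ J3 := by
  have hD := DD_pos
  have hp' : a.cn + 1 + (a.r + a.e) ≤ a.cp := by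
    have : Nat.ble (Nat.add (Nat.add a.cn 1) (Nat.add a.r a.e)) a.cp = true := hp
    exact Nat.ble_eq.mp this
  -- natural numbers
  obtain ⟨C, hC⟩ : ∃ C : ℕ, C = Nat.sub a.cp a.cn := ⟨_, rfl⟩
  obtain ⟨R, hR⟩ : ∃ R : ℕ, R = Nat.add a.r a.e := ⟨_, rfl⟩
  rw [← hC] at hJ hQ
  rw [← hR] at hQ
  have hCv : C = a.cp - a.cn := hC
  have hRv : R = a.r + a.e := hR
  have hCR : R + 1 ≤ C := by omega
  have hCc : (C : ℝ) = (a.cp : ℝ) - a.cn := by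
    rw [hCv, Nat.cast_sub (by omega)]
  have hRc : (R : ℝ) = (a.r : ℝ) + a.e := by rw [hRv]; push_cast; ring
  have hCpos : (0 : ℝ) < C := by
    have : 0 < C := by omega
    exact_mod_cast this
  have hLpos : (0 : ℝ) < (C : ℝ) - R := by
    have : ((R + 1 : ℕ) : ℝ) ≤ C := by exact_mod_cast hCR
    push_cast at this
    linarith
  set c := dv a.cp a.cn with hc
  have hcv : c = (C : ℝ) / DD := by rw [hc]; unfold dv; rw [hCc]
  have hcpos : 0 < c := by rw [hcv]; positivity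
  -- bounds for J
  have hDD : (DD : ℝ) * DD = ((1208925819614629174706176 : ℕ) : ℝ) := by
    norm_num [DD]
  have hJle : (J : ℝ) * C ≤ DD * DD := by
    rw [hDD]
    have : J * C ≤ 1208925819614629174706176 := by
      rw [hJ]; exact Nat.div_mul_le_self _ _
    exact_mod_cast this
  have hJgt : DD * DD < ((J : ℝ) + 1) * C := by
    rw [hDD]
    have hCp : 0 < C := by omega
    have : 1208925819614629174706176 < (J + 1) * C := by
      rw [hJ, Nat.mul_comm]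
      exact Nat.lt_mul_div_succ _ hCp
    exact_mod_cast this
  clear hDD
  have hι : c⁻¹ = DD / C := by rw [hcv, inv_div]
  have h1 : (J : ℝ) / DD ≤ c⁻¹ := by
    rw [hι, div_le_div_iff₀ hD hCpos]
    linarith
  have h2 : c⁻¹ ≤ (J : ℝ) / DD + 1 / DD := by
    rw [hι, ← add_div, div_le_div_iff₀ hCpos hD]
    linarith
  have hJ0 : (0 : ℝ) ≤ J := Nat.cast_nonneg _
  -- bounds for J2, J3
  obtain ⟨b1, b2⟩ := shr40_bounds (Nat.mul J J)
  rw [cast_nmul, ← hJ2] at b1 b2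
  obtain ⟨b3, b4⟩ := shr40_bounds (Nat.add (Nat.add J J) 1)
  rw [cast_nadd, cast_nadd] at b3 b4
  have hJ3c : (J3 : ℝ) = (J2 : ℝ) + 2 + ((Nat.shiftRight (Nat.add (Nat.add J J) 1) 40 : ℕ) : ℝ) := by
    rw [hJ3, cast_nadd, cast_nadd]; norm_num
  have h3 : (J2 : ℝ) / DD ≤ c⁻¹ ^ (2 : ℕ) := by
    have hι0 : (J : ℝ) / DD ≤ c⁻¹ := h1
    have : ((J : ℝ) / DD) ^ (2 : ℕ) ≤ c⁻¹ ^ (2 : ℕ) := pow_le_pow_left₀ (by positivity) hι0 2
    refine le_trans ?_ this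
    rw [div_pow, div_le_div_iff₀ hD (by positivity)]
    have := (le_div_iff₀ hD).mp b1
    have h' := mul_le_mul_of_nonneg_right this hD.le
    linarith
  have h4 : c⁻¹ ^ (2 : ℕ) ≤ (J3 : ℝ) / DD := by
    have hι0 : c⁻¹ ≤ ((J : ℝ) + 1) / DD := by
      rw [add_div]; exact h2
    have : c⁻¹ ^ (2 : ℕ) ≤ (((J : ℝ) + 1) / DD) ^ (2 : ℕ) :=
      pow_le_pow_left₀ (inv_pos.mpr hcpos).le hι0 2
    refine this.trans ?_
    rw [div_pow, div_le_div_iff₀ (by positivity) hD]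
    have t1 := (div_lt_iff₀ hD).mp b2
    have t2 := (div_lt_iff₀ hD).mp b4
    push_cast at t2
    have : ((J : ℝ) + 1) ^ (2 : ℕ) ≤ (J3 : ℝ) * DD := by
      rw [hJ3c]
      linarith
    have h' := mul_le_mul_of_nonneg_right this hD.le
    linarith
  have hJ23 : (J2 : ℝ) ≤ J3 := by
    rw [hJ3c]
    have : (0 : ℝ) ≤ ((Nat.shiftRight (Nat.add (Nat.add J J) 1) 40 : ℕ) : ℝ) := Nat.cast_nonneg _
    linarith
  have hJ23n : J2 ≤ J3 := by exact_mod_cast hJ23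
  -- the bound for `Q`
  have hJ3nn : (0 : ℝ) ≤ J3 := Nat.cast_nonneg _
  have hQnat : ∃ W : ℕ, W = Nat.div (Nat.mul (Nat.mul R R) J3) (Nat.shiftLeft (Nat.sub C R) 40) ∧
      Q = (W + 2) / 2 := by
    refine ⟨_, rfl, ?_⟩
    rw [hQ]
    exact Nat.shiftRight_eq_div_pow _ 1
  obtain ⟨W, hW, hQW⟩ := hQnat
  have hW2 : W + 1 ≤ 2 * Q := by omega
  have hQ0 : (0 : ℝ) ≤ Q := Nat.cast_nonneg _
  have hSub : ((Nat.sub C R : ℕ) : ℝ) = (C : ℝ) - R := by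
    simp only [Nat.sub_eq]
    rw [Nat.cast_sub (by omega)]
  have hShl : ((Nat.shiftLeft (Nat.sub C R) 40 : ℕ) : ℝ) = ((C : ℝ) - R) * DD := by
    rw [show Nat.shiftLeft (Nat.sub C R) 40 = Nat.sub C R * 2 ^ (40 : ℕ) from Nat.shiftLeft_eq _ _]
    push_cast
    rw [hSub]
    norm_num [DD]
  have hWlt : (R : ℝ) * R * J3 / (((C : ℝ) - R) * DD) < (W : ℝ) + 1 := by
    have hpos : 0 < Nat.shiftLeft (Nat.sub C R) 40 := by
      rw [show Nat.shiftLeft (Nat.sub C R) 40 = Nat.sub C R * 2 ^ (40 : ℕ) from Nat.shiftLeft_eq _ _]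
      have : 0 < Nat.sub C R := by
        simp only [Nat.sub_eq]; omega
      positivity
    have : Nat.mul (Nat.mul R R) J3 < (W + 1) * Nat.shiftLeft (Nat.sub C R) 40 := by
      rw [hW, Nat.mul_comm]
      exact Nat.lt_mul_div_succ (Nat.mul (Nat.mul R R) J3) hpos
    have hc : ((Nat.mul (Nat.mul R R) J3 : ℕ) : ℝ) < ((W : ℝ) + 1) * (((C : ℝ) - R) * DD) := by
      rw [← hShl]
      exact_mod_cast this
    rw [cast_nmul, cast_nmul] at hc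
    rw [div_lt_iff₀ (by positivity)]
    exact hc
  have hQb : ((R : ℝ) / DD) ^ (2 : ℕ) * ((J3 : ℝ) / DD) / (c - (R : ℝ) / DD) ≤ 2 * ((Q : ℝ) / DD) := by
    have e : c - (R : ℝ) / DD = ((C : ℝ) - R) / DD := by rw [hcv]; ring
    rw [e]
    have e2 : ((R : ℝ) / DD) ^ (2 : ℕ) * ((J3 : ℝ) / DD) / (((C : ℝ) - R) / DD) =
        ((R : ℝ) * R * J3 / (((C : ℝ) - R) * DD)) / DD := by
      field_simp
    rw [e2]
    have : ((W : ℝ) + 1) ≤ 2 * Q := by exact_mod_cast hW2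
    have h5 : (R : ℝ) * R * J3 / (((C : ℝ) - R) * DD) ≤ 2 * Q := by linarith
    have := div_le_div_of_nonneg_right h5 hD.le
    calc _ ≤ 2 * (Q : ℝ) / DD := this
      _ = _ := by ring
  have hLp : 0 < c - (R : ℝ) / DD := by
    have e : c - (R : ℝ) / DD = ((C : ℝ) - R) / DD := by rw [hcv]; ring
    rw [e]; positivity
  rw [hRc] at hQb hLp
  exact ⟨hcpos, hLp, h1, h2, h3, h4, hQb, hJ23n⟩

lemma inv_finish {P : Pt} {a : TM} {x : ℝ} (ha : Mem P a x) (J J2 J3 Q : ℕ)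
    (hcpos : 0 < dv a.cp a.cn) (hLp : 0 < dv a.cp a.cn - ((a.r : ℝ) + a.e) / DD)
    (h1 : (J : ℝ) / DD ≤ (dv a.cp a.cn)⁻¹) (h2 : (dv a.cp a.cn)⁻¹ ≤ (J : ℝ) / DD + 1 / DD)
    (h3 : (J2 : ℝ) / DD ≤ (dv a.cp a.cn)⁻¹ ^ (2 : ℕ)) (h4 : (dv a.cp a.cn)⁻¹ ^ (2 : ℕ) ≤ (J3 : ℝ) / DD)
    (hQb : (((a.r : ℝ) + a.e) / DD) ^ (2 : ℕ) * ((J3 : ℝ) / DD) / (dv a.cp a.cn - ((a.r : ℝ) + a.e) / DD) ≤
      2 * ((Q : ℝ) / DD)) (hJ23n : J2 ≤ J3) :
    Mem P (invCore a J J2 J3 Q) x⁻¹ := by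
  have hD := DD_pos
  set c := dv a.cp a.cn with hc
  have hJ0 : (0 : ℝ) ≤ J2 := Nat.cast_nonneg _
  -- the point values
  set l := dv a.p1 a.n1 * P.x1 + dv a.p2 a.n2 * P.x2 + dv a.p3 a.n3 * P.x3 + dv a.p4 a.n4 * P.x4 with hl
  have hlr : |l| ≤ (a.r : ℝ) / DD := (abs_grad_le a P).trans ha.gr
  have hde : |x - (c + l)| ≤ (a.e : ℝ) / DD := by
    have := ha.er
    unfold aff at this
    rw [hl]
    convert this using 2
    ring
  have ht : |l + (x - (c + l))| ≤ ((a.r : ℝ) + a.e) / DD := by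
    have e : ((a.r : ℝ) + a.e) / DD = (a.r : ℝ) / DD + (a.e : ℝ) / DD := by ring
    rw [e]
    exact (abs_add_le _ _).trans (add_le_add hlr hde)
  have main := inv_real_core (x := x) (c := c) (l := l) (δ := x - (c + l)) (R := ((a.r : ℝ) + a.e) / DD)
    (j := (J : ℝ) / DD) (u := 1 / DD) (j2 := (J2 : ℝ) / DD) (j3 := (J3 : ℝ) / DD)
    (q := (Q : ℝ) / DD) hcpos hLp (by positivity) (by ring) ht h1 h2 h3 h4 hQb
  -- the rounded gradient
  have g1 := scale_pair J2 40 a.n1 a.p1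
  have g2 := scale_pair J2 40 a.n2 a.p2
  have g3 := scale_pair J2 40 a.n3 a.p3
  have g4 := scale_pair J2 40 a.n4 a.p4
  rw [← DD_eq] at g1 g2 g3 g4
  set G1 := dv (Nat.shiftRight (Nat.mul J2 a.n1) 40) (Nat.shiftRight (Nat.mul J2 a.p1) 40) with hG1
  set G2 := dv (Nat.shiftRight (Nat.mul J2 a.n2) 40) (Nat.shiftRight (Nat.mul J2 a.p2) 40) with hG2
  set G3 := dv (Nat.shiftRight (Nat.mul J2 a.n3) 40) (Nat.shiftRight (Nat.mul J2 a.p3) 40) with hG3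
  set G4 := dv (Nat.shiftRight (Nat.mul J2 a.n4) 40) (Nat.shiftRight (Nat.mul J2 a.p4) 40) with hG4
  have hj2 : (0 : ℝ) ≤ (J2 : ℝ) / DD := by positivity
  constructor
  · -- gradient norm
    have k1 : |G1| ≤ (J2 : ℝ) / DD * |dv a.p1 a.n1| + 1 / DD := by
      have h0 := abs_sub_abs_le_abs_sub G1 ((J2 : ℝ) / DD * dv a.n1 a.p1)
      rw [abs_mul, abs_of_nonneg hj2, dv_swap a.p1 a.n1, abs_neg] at h0
      rw [dv_swap a.p1 a.n1] at g1
      linarith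
    have k2 : |G2| ≤ (J2 : ℝ) / DD * |dv a.p2 a.n2| + 1 / DD := by
      have h0 := abs_sub_abs_le_abs_sub G2 ((J2 : ℝ) / DD * dv a.n2 a.p2)
      rw [abs_mul, abs_of_nonneg hj2, dv_swap a.p2 a.n2, abs_neg] at h0
      rw [dv_swap a.p2 a.n2] at g2
      linarith
    have k3 : |G3| ≤ (J2 : ℝ) / DD * |dv a.p3 a.n3| + 1 / DD := by
      have h0 := abs_sub_abs_le_abs_sub G3 ((J2 : ℝ) / DD * dv a.n3 a.p3)
      rw [abs_mul, abs_of_nonneg hj2, dv_swap a.p3 a.n3, abs_neg] at h0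
      rw [dv_swap a.p3 a.n3] at g3
      linarith
    have k4 : |G4| ≤ (J2 : ℝ) / DD * |dv a.p4 a.n4| + 1 / DD := by
      have h0 := abs_sub_abs_le_abs_sub G4 ((J2 : ℝ) / DD * dv a.n4 a.p4)
      rw [abs_mul, abs_of_nonneg hj2, dv_swap a.p4 a.n4, abs_neg] at h0
      rw [dv_swap a.p4 a.n4] at g4
      linarith
    have hg := ha.gr
    unfold gsum at hg
    have m1 : (J2 : ℝ) / DD * (|dv a.p1 a.n1| + |dv a.p2 a.n2| + |dv a.p3 a.n3| + |dv a.p4 a.n4|) ≤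
        (J2 : ℝ) / DD * ((a.r : ℝ) / DD) := mul_le_mul_of_nonneg_left hg hj2
    have m2 : (J2 : ℝ) / DD * ((a.r : ℝ) / DD) ≤ (J3 : ℝ) / DD * ((a.r : ℝ) / DD) := by
      gcongr
    obtain ⟨_, m3⟩ := shr40_bounds (Nat.mul J3 a.r)
    rw [cast_nmul] at m3
    have m4 : (J3 : ℝ) / DD * ((a.r : ℝ) / DD) ≤
        (((Nat.shiftRight (Nat.mul J3 a.r) 40 : ℕ) : ℝ) + 1) / DD := by
      have := div_le_div_of_nonneg_right m3.le hD.le
      calc _ = (J3 : ℝ) * a.r / DD / DD := by ring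
        _ ≤ _ := this
    have e1 : gsum (invCore a J J2 J3 Q) = |G1| + |G2| + |G3| + |G4| := rfl
    have e2 : ((invCore a J J2 J3 Q).r : ℝ) / DD =
        (((Nat.shiftRight (Nat.mul J3 a.r) 40 : ℕ) : ℝ) + 1) / DD + 4 / DD := by
      have : ((invCore a J J2 J3 Q).r : ℝ) = ((Nat.shiftRight (Nat.mul J3 a.r) 40 : ℕ) : ℝ) + 5 := by
        show ((Nat.add (Nat.shiftRight (Nat.mul J3 a.r) 40) 5 : ℕ) : ℝ) = _
        rw [cast_nadd]; norm_num
      rw [this]; ring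
    rw [e1, e2]
    have e4 : (4 : ℝ) / DD = 1 / DD + 1 / DD + 1 / DD + 1 / DD := by ring
    rw [e4]
    linarith
  · have haff : aff (invCore a J J2 J3 Q) P =
        dv (Nat.add J Q) 0 + G1 * P.x1 + G2 * P.x2 + G3 * P.x3 + G4 * P.x4 := rfl
    have hcJ : dv (Nat.add J Q) 0 = (J : ℝ) / DD + (Q : ℝ) / DD := by
      unfold dv; rw [cast_nadd]; simp only [Nat.cast_zero, sub_zero]; ring
    rw [haff, hcJ]
    have e : x⁻¹ - ((J : ℝ) / DD + (Q : ℝ) / DD + G1 * P.x1 + G2 * P.x2 + G3 * P.x3 + G4 * P.x4) =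
        (x⁻¹ - ((J : ℝ) / DD + (Q : ℝ) / DD - (J2 : ℝ) / DD * l)) -
        ((G1 - (J2 : ℝ) / DD * dv a.n1 a.p1) * P.x1 + (G2 - (J2 : ℝ) / DD * dv a.n2 a.p2) * P.x2 +
          (G3 - (J2 : ℝ) / DD * dv a.n3 a.p3) * P.x3 + (G4 - (J2 : ℝ) / DD * dv a.n4 a.p4) * P.x4) := by
      rw [hl, dv_swap a.n1 a.p1, dv_swap a.n2 a.p2, dv_swap a.n3 a.p3, dv_swap a.n4 a.p4]
      ring
    rw [e]
    refine (abs_sub _ _).trans ?_
    have k1 := (abs_lin_le _ P.x1 P.h1).trans g1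
    have k2 := (abs_lin_le _ P.x2 P.h2).trans g2
    have k3 := (abs_lin_le _ P.x3 P.h3).trans g3
    have k4 := (abs_lin_le _ P.x4 P.h4).trans g4
    have k5 := abs_sum4_le ((G1 - (J2 : ℝ) / DD * dv a.n1 a.p1) * P.x1)
      ((G2 - (J2 : ℝ) / DD * dv a.n2 a.p2) * P.x2)
      ((G3 - (J2 : ℝ) / DD * dv a.n3 a.p3) * P.x3) ((G4 - (J2 : ℝ) / DD * dv a.n4 a.p4) * P.x4)
    -- error bookkeeping
    obtain ⟨_, m3⟩ := shr40_bounds (Nat.mul J3 a.e)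
    rw [cast_nmul] at m3
    have m4 : (J3 : ℝ) / DD * ((a.e : ℝ) / DD) ≤
        (((Nat.shiftRight (Nat.mul J3 a.e) 40 : ℕ) : ℝ) + 1) / DD := by
      have := div_le_div_of_nonneg_right m3.le hD.le
      calc _ = (J3 : ℝ) * a.e / DD / DD := by ring
        _ ≤ _ := this
    obtain ⟨_, m5⟩ := shr40_bounds (Nat.mul (Nat.sub J3 J2) a.r)
    rw [cast_nmul] at m5
    have hsubc : ((Nat.sub J3 J2 : ℕ) : ℝ) = (J3 : ℝ) - J2 := by
      simp only [Nat.sub_eq]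
      rw [Nat.cast_sub hJ23n]
    rw [hsubc] at m5
    have m6 : ((J3 : ℝ) / DD - (J2 : ℝ) / DD) * ((a.r : ℝ) / DD) ≤
        (((Nat.shiftRight (Nat.mul (Nat.sub J3 J2) a.r) 40 : ℕ) : ℝ) + 1) / DD := by
      have := div_le_div_of_nonneg_right m5.le hD.le
      calc _ = ((J3 : ℝ) - J2) * a.r / DD / DD := by ring
        _ ≤ _ := this
    have a1 : ((J3 : ℝ) / DD - (J2 : ℝ) / DD) * |l| ≤ ((J3 : ℝ) / DD - (J2 : ℝ) / DD) * ((a.r : ℝ) / DD) := by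
      apply mul_le_mul_of_nonneg_left hlr
      have : (J2 : ℝ) / DD ≤ (J3 : ℝ) / DD := by gcongr
      linarith
    have a2 : (J3 : ℝ) / DD * |x - (c + l)| ≤ (J3 : ℝ) / DD * ((a.e : ℝ) / DD) :=
      mul_le_mul_of_nonneg_left hde (by positivity)
    have e2 : ((invCore a J J2 J3 Q).e : ℝ) / DD =
        (((Nat.shiftRight (Nat.mul J3 a.e) 40 : ℕ) : ℝ) + 1) / DD + (Q : ℝ) / DD +
        (((Nat.shiftRight (Nat.mul (Nat.sub J3 J2) a.r) 40 : ℕ) : ℝ) + 1) / DD + 6 / DD := by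
      have : ((invCore a J J2 J3 Q).e : ℝ) = ((Nat.shiftRight (Nat.mul J3 a.e) 40 : ℕ) : ℝ) + Q +
          (((Nat.shiftRight (Nat.mul (Nat.sub J3 J2) a.r) 40 : ℕ) : ℝ) + 8) := by
        show ((Nat.add (Nat.add (Nat.shiftRight (Nat.mul J3 a.e) 40) Q)
          (Nat.add (Nat.shiftRight (Nat.mul (Nat.sub J3 J2) a.r) 40) 8) : ℕ) : ℝ) = _
        rw [cast_nadd, cast_nadd, cast_nadd]; norm_num
      rw [this]; ring
    rw [e2]
    have e6 : (6 : ℝ) / DD = 1 / DD + 1 / DD + 1 / DD + 1 / DD + 1 / DD + 1 / DD := by ring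
    rw [e6]
    linarith

theorem mem_inv {P : Pt} {a : TM} {x : ℝ} (ha : Mem P a x) (hp : posT a = true) :
    Mem P (invT a) x⁻¹ := by
  obtain ⟨J, J2, J3, Q, hT, hJ, hJ2, hJ3, hQ⟩ := invT_eq a
  rw [hT]
  obtain ⟨a1, a2, a3, a4, a5, a6, a7, a8⟩ := inv_numbers a hp J J2 J3 Q hJ hJ2 hJ3 hQ
  exact inv_finish ha J J2 J3 Q a1 a2 a3 a4 a5 a6 a7 a8

/-! ### Variables -/

lemma coord_exists (lo w : ℕ) (v : ℝ) (h1 : (lo : ℝ) / DD ≤ v) (h2 : v ≤ ((lo : ℝ) + w) / DD) :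
    ∃ ξ : ℝ, |ξ| ≤ 1 ∧ v = ((Nat.add lo (Nat.shiftRight w 1) : ℕ) : ℝ) / DD +
      ((Nat.sub w (Nat.shiftRight w 1) : ℕ) : ℝ) / DD * ξ := by
  have hD := DD_pos
  have hh : Nat.shiftRight w 1 = w / 2 := by
    simp [Nat.shiftRight_eq_div_pow]
  rw [hh]
  set h := w / 2 with hhd
  have hg : ((Nat.sub w h : ℕ) : ℝ) = (w : ℝ) - h := by
    simp only [Nat.sub_eq]
    rw [Nat.cast_sub (by omega)]
  have hhg : (h : ℝ) ≤ (w : ℝ) - h := by
    have : h + h ≤ w := by omega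
    have : ((h + h : ℕ) : ℝ) ≤ w := by exact_mod_cast this
    push_cast at this
    linarith
  rw [hg, cast_nadd]
  by_cases hw : (w : ℝ) - h = 0
  · refine ⟨0, by norm_num, ?_⟩
    have h0 : (h : ℝ) = 0 := by
      have : (0 : ℝ) ≤ h := Nat.cast_nonneg _
      linarith
    have hw0 : (w : ℝ) = 0 := by linarith
    rw [hw0] at h2
    rw [h0]
    simp only [add_zero, mul_zero] at *
    linarith
  · have hgpos : 0 < (w : ℝ) - h := by
      have : (0 : ℝ) ≤ h := Nat.cast_nonneg _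
      have hh0 : 0 ≤ (w : ℝ) - h := by linarith
      exact lt_of_le_of_ne hh0 (Ne.symm hw)
    refine ⟨(v * DD - ((lo : ℝ) + h)) / ((w : ℝ) - h), ?_, ?_⟩
    · rw [abs_le]
      have h1' : (lo : ℝ) ≤ v * DD := (div_le_iff₀ hD).mp h1
      have h2' : v * DD ≤ (lo : ℝ) + w := (le_div_iff₀ hD).mp h2
      constructor
      · rw [le_div_iff₀ hgpos]; linarith
      · rw [div_le_iff₀ hgpos]; linarith
    · field_simp
      ring

/-- A point of the cube for a box. -/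
lemma pt_exists (l1 w1 l2 w2 l3 w3 l4 w4 : ℕ) (v1 v2 v3 v4 : ℝ)
    (h1 : (l1 : ℝ) / DD ≤ v1) (h1' : v1 ≤ ((l1 : ℝ) + w1) / DD)
    (h2 : (l2 : ℝ) / DD ≤ v2) (h2' : v2 ≤ ((l2 : ℝ) + w2) / DD)
    (h3 : (l3 : ℝ) / DD ≤ v3) (h3' : v3 ≤ ((l3 : ℝ) + w3) / DD)
    (h4 : (l4 : ℝ) / DD ≤ v4) (h4' : v4 ≤ ((l4 : ℝ) + w4) / DD) :
    ∃ P : Pt, Mem P (var1 l1 w1) v1 ∧ Mem P (var2 l2 w2) v2 ∧ Mem P (var3 l3 w3) v3 ∧
      Mem P (var4 l4 w4) v4 := by
  obtain ⟨a, ha, ea⟩ := coord_exists l1 w1 v1 h1 h1'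
  obtain ⟨b, hb, eb⟩ := coord_exists l2 w2 v2 h2 h2'
  obtain ⟨c, hc, ec⟩ := coord_exists l3 w3 v3 h3 h3'
  obtain ⟨d, hd, ed⟩ := coord_exists l4 w4 v4 h4 h4'
  have hD := DD_pos
  have hz : dv 0 0 = 0 := by simp [dv]
  have hdv : ∀ g : ℕ, dv g 0 = (g : ℝ) / DD := by
    intro g; simp [dv]
  have hg : ∀ g : ℕ, |(g : ℝ) / DD| = (g : ℝ) / DD := fun g => abs_of_nonneg (by positivity)
  refine ⟨⟨a, b, c, d, ha, hb, hc, hd⟩, ⟨?_, ?_⟩, ⟨?_, ?_⟩, ⟨?_, ?_⟩, ⟨?_, ?_⟩⟩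
  · simp [var1, gsum, hz, hdv, hg]
  · simp only [var1, aff, hz, hdv]
    rw [ea]; simp
  · simp [var2, gsum, hz, hdv, hg]
  · simp only [var2, aff, hz, hdv]
    rw [eb]; simp
  · simp [var3, gsum, hz, hdv, hg]
  · simp only [var3, aff, hz, hdv]
    rw [ec]; simp
  · simp [var4, gsum, hz, hdv, hg]
  · simp only [var4, aff, hz, hdv]
    rw [ed]; simp

/-! ### Signs -/

lemma mem_pos {P : Pt} {a : TM} {x : ℝ} (ha : Mem P a x) (hp : posT a = true) : 0 < x := by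
  have hD := DD_pos
  have hp' : a.cn + 1 + (a.r + a.e) ≤ a.cp := by
    have : Nat.ble (Nat.add (Nat.add a.cn 1) (Nat.add a.r a.e)) a.cp = true := hp
    exact Nat.ble_eq.mp this
  have h1 := ha.er
  have h2 := ha.gr
  have h3 := abs_grad_le a P
  unfold aff at h1
  have h4 := (abs_le.mp h1).1
  have h5 := (abs_le.mp h3).1
  have hc : ((a.cn : ℝ) + 1 + (a.r + a.e)) ≤ a.cp := by exact_mod_cast hp'
  have e : 1 / DD ≤ dv a.cp a.cn - (a.r : ℝ) / DD - (a.e : ℝ) / DD := by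
    have : dv a.cp a.cn - (a.r : ℝ) / DD - (a.e : ℝ) / DD = ((a.cp : ℝ) - a.cn - a.r - a.e) / DD := by
      unfold dv; ring
    rw [this]
    apply div_le_div_of_nonneg_right _ hD.le
    linarith
  have : 0 < 1 / DD := by positivity
  linarith

lemma mem_nonneg {P : Pt} {a : TM} {x : ℝ} (ha : Mem P a x) (hp : nonnegT a = true) : 0 ≤ x := by
  have hD := DD_pos
  have hp' : Nat.add a.cn (Nat.add a.e
      (Nat.add (Nat.add (Nat.sub a.p1 a.n1) (Nat.sub a.n1 a.p1))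
        (Nat.add (Nat.add (Nat.sub a.p2 a.n2) (Nat.sub a.n2 a.p2))
          (Nat.add (Nat.add (Nat.sub a.p3 a.n3) (Nat.sub a.n3 a.p3))
            (Nat.add (Nat.sub a.p4 a.n4) (Nat.sub a.n4 a.p4)))))) ≤ a.cp := Nat.ble_eq.mp hp
  have h1 := ha.er
  have h3 := abs_grad_le a P
  unfold aff at h1
  have h4 := (abs_le.mp h1).1
  have h5 := (abs_le.mp h3).1
  have hc : (Nat.add a.cn (Nat.add a.e
      (Nat.add (Nat.add (Nat.sub a.p1 a.n1) (Nat.sub a.n1 a.p1))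
        (Nat.add (Nat.add (Nat.sub a.p2 a.n2) (Nat.sub a.n2 a.p2))
          (Nat.add (Nat.add (Nat.sub a.p3 a.n3) (Nat.sub a.n3 a.p3))
            (Nat.add (Nat.sub a.p4 a.n4) (Nat.sub a.n4 a.p4))))) : ℕ) : ℝ) ≤ a.cp := by
    exact_mod_cast hp'
  rw [cast_nadd, cast_nadd, cast_nadd, abs_sub_cast, cast_nadd, abs_sub_cast, cast_nadd,
    abs_sub_cast, abs_sub_cast] at hc
  have hg : gsum a = (|(a.p1 : ℝ) - a.n1| + (|(a.p2 : ℝ) - a.n2| + (|(a.p3 : ℝ) - a.n3| +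
      |(a.p4 : ℝ) - a.n4|))) / DD := by
    unfold gsum dv
    simp only [abs_div, abs_of_pos hD]
    ring
  have e : 0 ≤ dv a.cp a.cn - gsum a - (a.e : ℝ) / DD := by
    rw [hg]
    have : dv a.cp a.cn - (|(a.p1 : ℝ) - a.n1| + (|(a.p2 : ℝ) - a.n2| + (|(a.p3 : ℝ) - a.n3| +
      |(a.p4 : ℝ) - a.n4|))) / DD - (a.e : ℝ) / DD =
        ((a.cp : ℝ) - a.cn - (|(a.p1 : ℝ) - a.n1| + (|(a.p2 : ℝ) - a.n2| + (|(a.p3 : ℝ) - a.n3| +
      |(a.p4 : ℝ) - a.n4|))) - a.e) / DD := by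
      unfold dv; ring
    rw [this]
    apply div_nonneg _ hD.le
    linarith
  linarith

end Vale.Agent.Lib.P154
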